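import Vale.Agent.P298.H941.Final

/-!
# P298 (helper941): row END-ORD in the form used by helper309
-/

open Filter Topology Metric

namespace Vale.Agent.P298.H941

open Vale.Agent.P298.H462 (xi Branches)

/-- Row END-ORD. -/
theorem endOrd (f e h : V → ℂ) (hf : Hol f) (he : Hol e) (hh : Hol h) (f0 : f 0 = 0)
    (e0 : e 0 = 0) (h0 : h 0 = 0) (hxi0 : xi f e 0 = 0)
    (hxi : ∀ᶠ x in 𝓝 (0 : V), x ≠ 0 → f x = 0 → e x = 0 → xi f e x ≠ 0)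
    (A : ℕ) (hA : Colength ![f, e, h] A) :
    ∃ (k : ℕ) (γ : Fin k → ℂ → V) (c : Fin k → ℕ) (u : Fin k → ℂ → ℂ) (R : ℝ),
      Branches f e k γ c u R ∧ (∀ i, 1 ≤ c i) ∧
        Colength ![f, e, jac3 f e h] (A + ∑ i, (c i - 1)) := by
  have hf' : AnalyticAt ℂ f 0 := hf
  have he' : AnalyticAt ℂ e 0 := he
  have hh' : AnalyticAt ℂ h 0 := hh
  obtain ⟨k, γ, c, u, R, -, B, hc, hO⟩ := exists_branches' hf' he' f0 e0 hxi0
    (by
      filter_upwards [hxi] with x hx h1 h2 h3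
      exact hx h3 h1 h2) hh' h0 hA
  obtain ⟨h1, h2⟩ := hO h hh'
  obtain ⟨h3, h4⟩ := h2 (h1.1 ⟨A, hA⟩)
  have h5 := h4 h0
  rw [colength_iff (ana3 hf' he' hh')] at h3 hA
  have h6 : A = ∑ i, ordA h (γ i) := by rw [← hA.2, h3.2]
  refine ⟨k, γ, c, u, R, B, hc, ?_⟩
  rw [h6]
  exact h5

end Vale.Agent.P298.H941
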