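import Vale.Agent.P298.H941.Cond

/-!
# P298 (helper941): the branches of a space curve and the order formulas (row END-ORD)
-/

open Filter Topology Metric

namespace Vale.Agent.P298.H941

open Vale.Agent.P298.H462 (xi Branches)

variable {f e : V → ℂ}

/-- the vanishing order along an arc -/
noncomputable def ordA (g : V → ℂ) (γ : ℂ → V) : ℕ :=
  (analyticOrderAt (fun s => g (γ s)) 0).toNat

/-- The branches of the curve `f = e = 0`, and the order formula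
`dim O / (f, e, g) = ∑ ord (g ∘ γ i)`. -/
theorem exists_branches (hf : AnalyticAt ℂ f 0) (he : AnalyticAt ℂ e 0) (f0 : f 0 = 0)
    (e0 : e 0 = 0) (hxi0 : xi f e 0 = 0)
    (hxi : ∀ᶠ x in 𝓝 (0 : V), f x = 0 → e x = 0 → x ≠ 0 → xi f e x ≠ 0)
    {g₀ : V → ℂ} (hg₀ : AnalyticAt ℂ g₀ 0) (g₀0 : g₀ 0 = 0) {A₀ : ℕ}
    (hcol : Colength ![f, e, g₀] A₀) :
    ∃ (k : ℕ) (γ : Fin k → ℂ → V) (c : Fin k → ℕ) (u : Fin k → ℂ → ℂ) (R : ℝ),
      0 < k ∧ Branches f e k γ c u R ∧ (∀ i, 1 ≤ c i) ∧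
      ∀ g : V → ℂ, AnalyticAt ℂ g 0 → (∀ i, ¬ ∀ᶠ s in 𝓝 (0 : ℂ), g (γ i s) = 0) →
        Colength ![f, e, g] (∑ i, ordA g (γ i)) := by
  have hfin := ((colength_iff (ana3 hf he hg₀) A₀).1 hcol).1
  obtain ⟨l, N, ν, ψ, hν, A, H, hfl, hlν⟩ := exists_system hf he f0 e0 hg₀ g₀0 hxi hfin
  obtain ⟨k, γ, m, q, R, hk, hR, hmq, hγa, hγ0, hγm, hγi, hγc, -, hγψ, hγo⟩ :=
    exists_branch_arcs A hν (l.analyticAt 0) (map_zero l)
  have hev : ∀ {p : ℂ → Prop}, (∀ s ∈ ball (0 : ℂ) R, p s) → ∀ᶠ s in 𝓝 (0 : ℂ), p s := by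
    intro p hp
    filter_upwards [ball_mem_nhds (0 : ℂ) hR] with s hs
    exact hp s hs
  have hγa0 : ∀ a, AnalyticAt ℂ (γ a) 0 := fun a => hγa a 0 (mem_ball_self hR)
  choose c u hc hu hu0 hode using fun a => exists_cond hf he hxi0 hxi (hγa0 a) (hγ0 a) l
    (hmq a).1 (hev (hγm a))
  have hall : ∀ᶠ s in 𝓝 (0 : ℂ), ∀ a, AnalyticAt ℂ (u a) s ∧ u a s ≠ 0 ∧
      s ^ c a • deriv (γ a) s = u a s • xi f e (γ a s) := by
    refine eventually_all.2 fun a => ?_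
    filter_upwards [(hu a).eventually_analyticAt, (hu a).continuousAt.eventually_ne (hu0 a),
      hode a] with s k1 k2 k3
    exact ⟨k1, k2, k3⟩
  obtain ⟨R', hR', hR'A⟩ := Metric.eventually_nhds_iff_ball.1 hall
  have hsub : ball (0 : ℂ) (min R R') ⊆ ball (0 : ℂ) R := ball_subset_ball (min_le_left _ _)
  have hsub' : ball (0 : ℂ) (min R R') ⊆ ball (0 : ℂ) R' := ball_subset_ball (min_le_right _ _)
  refine ⟨k, γ, c, u, min R R', hk, ?_, hc, ?_⟩
  · exact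
      { pos := lt_min hR hR'
        hol := fun a s hs => hγa a s (hsub hs)
        zero := hγ0
        mem := fun a s hs => ⟨(hγm a s (hsub hs)).1, (hγm a s (hsub hs)).2.1⟩
        inj := fun a b s hs s' hs' h => hγi a b s (hsub hs) s' (hsub hs') h
        cover := hγc
        hol_u := fun a s hs => (hR'A s (hsub' hs) a).1
        u_ne := fun a s hs => (hR'A s (hsub' hs) a).2.1
        ode := fun a s hs => (hR'A s (hsub' hs) a).2.2 }
  · intro g hg hgne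
    have hgψ : ∀ i, ¬ ∀ᶠ s in 𝓝 (0 : ℂ), g (ψ i s) = 0 := by
      intro i hi
      obtain ⟨a, ζ, hζ, ha⟩ := hγψ i
      have hga : AnalyticAt ℂ (fun s => g (γ a s)) 0 := AnalyticAt.comp_of_eq hg (hγa0 a) (hγ0 a)
      have h1 : analyticOrderAt (fun s => g (γ a ((ζ * s) ^ q a))) 0 = ⊤ := by
        rw [analyticOrderAt_eq_top]
        filter_upwards [hi, ha] with s k1 k2
        rw [← k2, k1]
      have h2 := order_comp_mul (fun s => g (γ a (s ^ q a))) hζ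
      have h3 := order_comp_pow hga (hmq a).2.1
      rw [h1, h3] at h2
      have h4 : analyticOrderAt (fun s => g (γ a s)) 0 = ⊤ := by
        by_contra h5
        exact WithTop.mul_ne_top h5 (ENat.natCast_ne_top (q a)) h2.symm
      rw [analyticOrderAt_eq_top] at h4
      exact hgne a h4
    obtain ⟨k1, k2⟩ := arcSys_order H A hfl hlν hg hgψ
    rw [colength_iff (ana3 hf he hg)]
    refine ⟨k1, ?_⟩
    rw [hγo g hg] at k2
    exact Nat.eq_of_mul_eq_mul_left A.pos k2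

/-- If (f, e, g) has finite colength then `g` does not vanish on the branches. -/
theorem ne_of_colength (hf : AnalyticAt ℂ f 0) (he : AnalyticAt ℂ e 0) {k : ℕ}
    {γ : Fin k → ℂ → V} {c : Fin k → ℕ} {u : Fin k → ℂ → ℂ} {R : ℝ} (B : Branches f e k γ c u R)
    {g : V → ℂ} (hg : AnalyticAt ℂ g 0) {d : ℕ} (hd : Colength ![f, e, g] d) (i : Fin k) :
    ¬ ∀ᶠ s in 𝓝 (0 : ℂ), g (γ i s) = 0 := by
  intro hz
  refine not_finite_of_arc hf he hg (B.hol i 0 (mem_ball_self B.pos)) (B.zero i) ?_ ?_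
    ((colength_iff (ana3 hf he hg) d).1 hd).1
  · intro h
    have h1 : ∀ᶠ s in 𝓝[≠] (0 : ℂ), False := by
      filter_upwards [h.filter_mono nhdsWithin_le_nhds, self_mem_nhdsWithin,
        (ball_mem_nhds (0 : ℂ) B.pos : ball (0 : ℂ) R ∈ 𝓝 0) |>
          fun h => mem_nhdsWithin_of_mem_nhds h] with s k1 k2 k3
      rcases B.inj i i s k3 0 (mem_ball_self B.pos) (by rw [k1, B.zero]) with h2 | h2
      · exact k2 h2.1
      · exact k2 h2.2
    exact h1.exists.elim fun _ h => h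
  · filter_upwards [hz, ball_mem_nhds (0 : ℂ) B.pos] with s k1 k2
    exact ⟨(B.mem i s k2).1, (B.mem i s k2).2, k1⟩

/-- The order of the derivative along the Hamiltonian field. -/
theorem order_jac3 (hf : AnalyticAt ℂ f 0) (he : AnalyticAt ℂ e 0) {k : ℕ}
    {γ : Fin k → ℂ → V} {c : Fin k → ℕ} {u : Fin k → ℂ → ℂ} {R : ℝ} (B : Branches f e k γ c u R)
    {g : V → ℂ} (hg : AnalyticAt ℂ g 0) (g0 : g 0 = 0) (i : Fin k) :
    analyticOrderAt (fun s => jac3 f e g (γ i s)) 0 + 1 =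
      analyticOrderAt (fun s => g (γ i s)) 0 + c i := by
  have hγ := B.hol i 0 (mem_ball_self B.pos)
  have hga : AnalyticAt ℂ (fun s => g (γ i s)) 0 := AnalyticAt.comp_of_eq hg hγ (B.zero i)
  have hja : AnalyticAt ℂ (fun s => jac3 f e g (γ i s)) 0 :=
    AnalyticAt.comp_of_eq (g := jac3 f e g) (jac3_ana hf he hg) hγ (B.zero i)
  have hu := B.hol_u i 0 (mem_ball_self B.pos)
  have hu0 := B.u_ne i 0 (mem_ball_self B.pos)
  have ht : Tendsto (γ i) (𝓝 0) (𝓝 0) := by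
    have := hγ.continuousAt.tendsto
    rwa [B.zero i] at this
  have h1 : (fun s : ℂ => s ^ c i * deriv (fun s => g (γ i s)) s) =ᶠ[𝓝 0]
      fun s => u i s * jac3 f e g (γ i s) := by
    filter_upwards [ball_mem_nhds (0 : ℂ) B.pos, ht.eventually hg.eventually_analyticAt] with s k1 k2
    rw [(fderiv_arc (B.hol i s k1) k2).deriv, ← smul_eq_mul, ← map_smul, B.ode i s k1, map_smul,
      fderiv_xi, smul_eq_mul]
  have h2 := analyticOrderAt_congr h1
  have h3 : analyticOrderAt (fun s : ℂ => s ^ c i * deriv (fun s => g (γ i s)) s) 0 =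
      (c i : ℕ∞) + analyticOrderAt (deriv (fun s => g (γ i s))) 0 := by
    have h4 := analyticOrderAt_mul (f := fun s : ℂ => s ^ c i) (g := deriv (fun s => g (γ i s)))
      (z₀ := (0 : ℂ)) (analyticAt_id.pow _) hga.deriv
    have h5 : analyticOrderAt (fun s : ℂ => s ^ c i) 0 = (c i : ℕ∞) := by
      rw [(show AnalyticAt ℂ (fun x : ℂ => x ^ c i) 0 by fun_prop).analyticOrderAt_eq_natCast]
      exact ⟨fun _ => 1, analyticAt_const, one_ne_zero, Eventually.of_forall fun z => by simp⟩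
    rw [h5] at h4
    exact h4
  have h6 : analyticOrderAt (fun s : ℂ => u i s * jac3 f e g (γ i s)) 0 =
      analyticOrderAt (fun s => jac3 f e g (γ i s)) 0 := by
    have h7 := analyticOrderAt_mul (f := u i) (g := fun s => jac3 f e g (γ i s)) hu hja
    rw [hu.analyticOrderAt_eq_zero.2 hu0, zero_add] at h7
    exact h7
  have h8 := hga.analyticOrderAt_deriv_add_one
  have h9 : (fun s => g (γ i s) - g (γ i 0)) = fun s => g (γ i s) := by
    funext s
    rw [B.zero, g0, sub_zero]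
  rw [h9] at h8
  rw [← h6, ← h2, h3, ← h8]
  ring

/-- `dim O / (f, e, jac (f, e, g)) = ∑ (ord (g ∘ γ i) + c i - 1)`. -/
theorem exists_branches' (hf : AnalyticAt ℂ f 0) (he : AnalyticAt ℂ e 0) (f0 : f 0 = 0)
    (e0 : e 0 = 0) (hxi0 : xi f e 0 = 0)
    (hxi : ∀ᶠ x in 𝓝 (0 : V), f x = 0 → e x = 0 → x ≠ 0 → xi f e x ≠ 0)
    {g₀ : V → ℂ} (hg₀ : AnalyticAt ℂ g₀ 0) (g₀0 : g₀ 0 = 0) {A₀ : ℕ}
    (hcol : Colength ![f, e, g₀] A₀) :
    ∃ (k : ℕ) (γ : Fin k → ℂ → V) (c : Fin k → ℕ) (u : Fin k → ℂ → ℂ) (R : ℝ),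
      0 < k ∧ Branches f e k γ c u R ∧ (∀ i, 1 ≤ c i) ∧
      ∀ g : V → ℂ, AnalyticAt ℂ g 0 →
        ((∃ d, Colength ![f, e, g] d) ↔ ∀ i, ¬ ∀ᶠ s in 𝓝 (0 : ℂ), g (γ i s) = 0) ∧
        ((∀ i, ¬ ∀ᶠ s in 𝓝 (0 : ℂ), g (γ i s) = 0) →
          Colength ![f, e, g] (∑ i, ordA g (γ i)) ∧
          (g 0 = 0 →
            Colength ![f, e, jac3 f e g] (∑ i, ordA g (γ i) + ∑ i, (c i - 1)))) := by
  obtain ⟨k, γ, c, u, R, hk, B, hc, hO⟩ :=
    exists_branches hf he f0 e0 hxi0 hxi hg₀ g₀0 hcol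
  refine ⟨k, γ, c, u, R, hk, B, hc, fun g hg => ⟨⟨?_, ?_⟩, ?_⟩⟩
  · rintro ⟨d, hd⟩ i
    exact ne_of_colength hf he B hg hd i
  · exact fun h => ⟨_, hO g hg h⟩
  · intro hgne
    refine ⟨hO g hg hgne, fun g0 => ?_⟩
    have hgn : ∀ i, analyticOrderAt (fun s => g (γ i s)) 0 ≠ ⊤ := by
      intro i h
      rw [analyticOrderAt_eq_top] at h
      exact hgne i h
    have hord := fun i => order_jac3 hf he B hg g0 i
    have hjn : ∀ i, analyticOrderAt (fun s => jac3 f e g (γ i s)) 0 ≠ ⊤ := by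
      intro i h
      have h1 := hord i
      rw [h, top_add] at h1
      exact WithTop.add_ne_top.2 ⟨hgn i, ENat.natCast_ne_top (c i)⟩ h1.symm
    have hj := hO (jac3 f e g) (jac3_ana hf he hg) (fun i h => by
      apply hjn i
      rw [analyticOrderAt_eq_top]
      exact h)
    have hsum : ∑ i, ordA (jac3 f e g) (γ i) = ∑ i, ordA g (γ i) + ∑ i, (c i - 1) := by
      rw [← Finset.sum_add_distrib]
      refine Finset.sum_congr rfl fun i _ => ?_
      have h1 := hord i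
      rw [← ENat.natCast_toNat (hgn i), ← ENat.natCast_toNat (hjn i)] at h1
      have h2 : (analyticOrderAt (fun s => jac3 f e g (γ i s)) 0).toNat + 1 =
          (analyticOrderAt (fun s => g (γ i s)) 0).toNat + c i := by exact_mod_cast h1
      have h3 := hc i
      show (analyticOrderAt (fun s => jac3 f e g (γ i s)) 0).toNat =
        (analyticOrderAt (fun s => g (γ i s)) 0).toNat + (c i - 1)
      omega
    rw [← hsum]
    exact hj

/-- The order formulas for arbitrary branches. -/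
theorem branches_colength (hf : AnalyticAt ℂ f 0) (he : AnalyticAt ℂ e 0) (f0 : f 0 = 0)
    (e0 : e 0 = 0) (hxi0 : xi f e 0 = 0)
    (hxi : ∀ᶠ x in 𝓝 (0 : V), f x = 0 → e x = 0 → x ≠ 0 → xi f e x ≠ 0)
    {g : V → ℂ} (hg : AnalyticAt ℂ g 0) (g0 : g 0 = 0) {a b : ℕ}
    (ha : Colength ![f, e, g] a) (hb : Colength ![f, e, jac3 f e g] b) :
    ∃ (k : ℕ) (γ : Fin k → ℂ → V) (c : Fin k → ℕ) (u : Fin k → ℂ → ℂ) (R : ℝ),
      0 < k ∧ Branches f e k γ c u R ∧ (∀ i, 1 ≤ c i) ∧ a + ∑ i, (c i - 1) = b := by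
  obtain ⟨k, γ, c, u, R, hk, B, hc, hO⟩ := exists_branches' hf he f0 e0 hxi0 hxi hg g0 ha
  obtain ⟨h1, h2⟩ := hO g hg
  obtain ⟨h3, h4⟩ := h2 (h1.1 ⟨a, ha⟩)
  refine ⟨k, γ, c, u, R, hk, B, hc, ?_⟩
  have h5 := h4 g0
  rw [colength_iff (ana3 hf he hg)] at h3 ha
  rw [colength_iff (ana3 hf he (jac3_ana hf he hg))] at h5 hb
  rw [← hb.2, h5.2, ← h3.2, ha.2]

end Vale.Agent.P298.H941
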