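import Vale.Agent.P298.H941.Res

/-!
# P298 (helper941): roots of monic polynomials with small coefficients
-/

open Filter Topology Polynomial

namespace Vale.Agent.P298.H941

theorem analyticAt_eval_poly (p : ℂ[X]) (z : ℂ) : AnalyticAt ℂ (fun z => p.eval z) z :=
  (AnalyticOnNhd.eval_polynomial p) z (Set.mem_univ z)

theorem analyticOrderAt_eval {p : ℂ[X]} (hp : p ≠ 0) (z0 : ℂ) :
    analyticOrderAt (fun z => p.eval z) z0 = p.rootMultiplicity z0 := by
  obtain ⟨q, hq, hq0⟩ := exists_eq_pow_rootMultiplicity_mul_and_not_dvd p hp z0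
  rw [(analyticAt_eval_poly p z0).analyticOrderAt_eq_natCast]
  refine ⟨fun z => q.eval z, analyticAt_eval_poly q z0, ?_, Eventually.of_forall fun z => ?_⟩
  · intro h
    exact hq0 (dvd_iff_isRoot.2 h)
  · conv_lhs => rw [hq]
    rw [eval_mul, eval_pow, eval_sub, eval_X, eval_C, smul_eq_mul]

/-- Roots of a monic polynomial with small coefficients are small. -/
theorem roots_small_aux {p : ℂ[X]} {b : ℕ} (hp : p.Monic) (hb : p.natDegree = b) {ε δ : ℝ}
    (hε : 0 < ε) (hε1 : ε ≤ 1) (hδ : δ * b < ε ^ b) (hc : ∀ i < b, ‖p.coeff i‖ ≤ δ) {z : ℂ}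
    (hz : p.eval z = 0) : ‖z‖ < ε := by
  by_contra hcon
  push Not at hcon
  have h1 : z ^ b = -∑ i ∈ Finset.range b, p.coeff i * z ^ i := by
    have h2 := eval_eq_sum_range (p := p) z
    rw [hz, hb, Finset.sum_range_succ] at h2
    have h3 : p.coeff b = 1 := by
      rw [← hb]
      exact hp.coeff_natDegree
    rw [h3, one_mul] at h2
    exact eq_neg_of_add_eq_zero_right h2.symm
  have h2 : ‖z‖ ^ b ≤ ∑ i ∈ Finset.range b, δ * ‖z‖ ^ i := by
    rw [← norm_pow, h1, norm_neg]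
    refine (norm_sum_le _ _).trans (Finset.sum_le_sum fun i hi => ?_)
    rw [norm_mul, norm_pow]
    exact mul_le_mul_of_nonneg_right (hc i (Finset.mem_range.1 hi)) (by positivity)
  have hz0 : 0 < ‖z‖ := hε.trans_le hcon
  rcases Nat.eq_zero_or_pos b with rfl | hb0
  · simp at h2
    linarith
  have hδ0 : 0 ≤ δ := (norm_nonneg _).trans (hc 0 hb0)
  rcases le_or_gt 1 ‖z‖ with h3 | h3
  · have h4 : ∑ i ∈ Finset.range b, δ * ‖z‖ ^ i ≤ δ * b * ‖z‖ ^ b := by
      calc ∑ i ∈ Finset.range b, δ * ‖z‖ ^ i ≤ ∑ i ∈ Finset.range b, δ * ‖z‖ ^ b := by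
            refine Finset.sum_le_sum fun i hi => mul_le_mul_of_nonneg_left ?_ hδ0
            exact pow_le_pow_right₀ h3 (Finset.mem_range.1 hi).le
        _ = δ * b * ‖z‖ ^ b := by
            rw [Finset.sum_const, Finset.card_range, nsmul_eq_mul]
            ring
    have h5 : ε ^ b ≤ 1 := pow_le_one₀ hε.le hε1
    have h6 : 0 < ‖z‖ ^ b := by positivity
    nlinarith
  · have h4 : ∑ i ∈ Finset.range b, δ * ‖z‖ ^ i ≤ δ * b := by
      calc ∑ i ∈ Finset.range b, δ * ‖z‖ ^ i ≤ ∑ i ∈ Finset.range b, δ := by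
            refine Finset.sum_le_sum fun i hi => ?_
            have : ‖z‖ ^ i ≤ 1 := pow_le_one₀ hz0.le h3.le
            nlinarith
        _ = δ * b := by
            rw [Finset.sum_const, Finset.card_range, nsmul_eq_mul]
            ring
    have h5 : ε ^ b ≤ ‖z‖ ^ b := pow_le_pow_left₀ hε.le hcon b
    linarith

theorem roots_small {Y : Type*} [TopologicalSpace Y] {y0 : Y} {P : Y → ℂ[X]} {b : ℕ}
    (hm : ∀ y, (P y).Monic ∧ (P y).natDegree = b)
    (hP : ∀ i, ContinuousAt (fun y => (P y).coeff i) y0) (hP0 : P y0 = X ^ b) {ε : ℝ}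
    (hε : 0 < ε) : ∀ᶠ y in 𝓝 y0, ∀ z, (P y).eval z = 0 → ‖z‖ < ε := by
  set ε' := min ε 1 with hε'
  have h1 : 0 < ε' := lt_min hε one_pos
  set δ := ε' ^ b / (2 * (b + 1)) with hδ
  have hδ0 : 0 < δ := by positivity
  have h2 : ∀ᶠ y in 𝓝 y0, ∀ i : Fin b, ‖(P y).coeff i‖ < δ := by
    rw [eventually_all]
    intro i
    have h3 := (hP i).norm
    refine h3.eventually_lt continuousAt_const ?_
    rw [hP0, coeff_X_pow, if_neg i.2.ne, norm_zero]
    exact hδ0
  filter_upwards [h2] with y hy z hz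
  refine (roots_small_aux (hm y).1 (hm y).2 h1 (min_le_right _ _) ?_
    (fun i hi => (hy ⟨i, hi⟩).le) hz).trans_le (min_le_left _ _)
  have h3 : (0 : ℝ) < 2 * (b + 1) := by positivity
  rw [hδ, div_mul_eq_mul_div, div_lt_iff₀ h3]
  have h4 : 0 < ε' ^ b := by positivity
  nlinarith

theorem card_roots_sum {p : ℂ[X]} {N : ℕ} (hN : p.natDegree = N) :
    ∑ z ∈ p.roots.toFinset, p.rootMultiplicity z = N := by
  classical
  have h1 : p.roots.card = N := by
    rw [← hN]
    exact (IsAlgClosed.splits p).natDegree_eq_card_roots.symm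
  rw [← h1, ← Multiset.toFinset_sum_count_eq]
  exact Finset.sum_congr rfl fun z _ => (count_roots p).symm

/-- A simple root, by derivatives. -/
theorem rootMultiplicity_one {p : ℂ[X]} (hp : p ≠ 0) {z0 : ℂ} (h0 : p.eval z0 = 0)
    (h1 : p.derivative.eval z0 ≠ 0) : p.rootMultiplicity z0 = 1 := by
  have h2 : 0 < p.rootMultiplicity z0 := (rootMultiplicity_pos hp).2 h0
  have h3 : ¬ 1 < p.rootMultiplicity z0 := by
    rw [one_lt_rootMultiplicity_iff_isRoot hp]
    exact fun h => h1 h.2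
  omega

end Vale.Agent.P298.H941
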