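import Mathlib
import Vale.Agent.P267.H823.Hensel

/-!
# P298 (helper941): the order of vanishing of a resultant
-/

open Filter Topology Polynomial

namespace Vale.Agent.P298.H941

open Vale.Agent.P267.H823

theorem analyticAt_det {Y : Type*} [NormedAddCommGroup Y] [NormedSpace ℂ Y] {m : ℕ}
    {A : Y → Matrix (Fin m) (Fin m) ℂ} {y0 : Y} (hA : ∀ i j, AnalyticAt ℂ (fun y => A y i j) y0) :
    AnalyticAt ℂ (fun y => (A y).det) y0 := by
  simp only [Matrix.det_apply']
  exact Finset.analyticAt_fun_sum _ fun σ _ => analyticAt_const.mul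
    (Finset.analyticAt_fun_prod _ fun i _ => hA _ _)

theorem analyticAt_resultant {Y : Type*} [NormedAddCommGroup Y] [NormedSpace ℂ Y] {y0 : Y}
    {P R : Y → ℂ[X]} (hP : ∀ i, AnalyticAt ℂ (fun y => (P y).coeff i) y0)
    (hR : ∀ i, AnalyticAt ℂ (fun y => (R y).coeff i) y0) (m n : ℕ) :
    AnalyticAt ℂ (fun y => resultant (P y) (R y) m n) y0 := by
  unfold resultant
  refine analyticAt_det fun i j => ?_
  refine Fin.addCases (fun j₁ => ?_) (fun j₁ => ?_) j
  · simp only [sylvester, Matrix.of_apply, Fin.addCases_left]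
    split_ifs
    · exact hR _
    · exact analyticAt_const
  · simp only [sylvester, Matrix.of_apply, Fin.addCases_right]
    split_ifs
    · exact hP _
    · exact analyticAt_const

theorem resultant_monic {P R : ℂ[X]} {b n : ℕ} (hP : P.Monic) (hb : P.natDegree = b)
    (hR : R.natDegree ≤ n) : resultant P R b n = (P.roots.map R.eval).prod := by
  have h := resultant_eq_prod_eval P R n hR (IsAlgClosed.splits P)
  rw [hP.leadingCoeff, one_pow, one_mul, hb] at h
  exact h

theorem resultant_monic_eq_zero_iff {P R : ℂ[X]} {b n : ℕ} (hP : P.Monic) (hb : P.natDegree = b)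
    (hR : R.natDegree ≤ n) :
    resultant P R b n = 0 ↔ ∃ z, P.eval z = 0 ∧ R.eval z = 0 := by
  rw [resultant_monic hP hb hR, Multiset.prod_eq_zero_iff, Multiset.mem_map]
  constructor
  · rintro ⟨z, hz, h⟩
    exact ⟨z, (mem_roots hP.ne_zero).1 hz, h⟩
  · rintro ⟨z, hz, h⟩
    exact ⟨z, (mem_roots hP.ne_zero).2 hz, h⟩

theorem analyticAt_eval {R : ℂ → ℂ[X]} {y0 : ℂ} {n : ℕ} (hn : ∀ y, (R y).natDegree ≤ n)
    (hR : ∀ i, AnalyticAt ℂ (fun y => (R y).coeff i) y0) {ζ : ℂ → ℂ} (hζ : AnalyticAt ℂ ζ y0) :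
    AnalyticAt ℂ (fun y => (R y).eval (ζ y)) y0 := by
  have h : (fun y => (R y).eval (ζ y)) =
      fun y => ∑ i ∈ Finset.range (n + 1), (R y).coeff i * ζ y ^ i := by
    funext y
    exact eval_eq_sum_range' (Nat.lt_succ_of_le (hn y)) _
  rw [h]
  exact Finset.analyticAt_fun_sum _ fun i _ => (hR i).mul (hζ.pow i)

/-- The order of vanishing of the resultant at a point at which all common roots are simple
roots of the first polynomial and transversal is the number of the common roots. -/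
theorem order_resultant {y0 : ℂ} {R : ℂ → ℂ[X]} {n : ℕ} (hRn : ∀ y, (R y).natDegree ≤ n)
    (hR : ∀ i, AnalyticAt ℂ (fun y => (R y).coeff i) y0) (k : ℕ) :
    ∀ (b : ℕ) (P : ℂ → ℂ[X]) (S : Finset ℂ), S.card = k →
      (∀ y, (P y).Monic ∧ (P y).natDegree = b) →
      (∀ i, AnalyticAt ℂ (fun y => (P y).coeff i) y0) →
      (∀ z, z ∈ S ↔ (P y0).eval z = 0 ∧ (R y0).eval z = 0) →
      (∀ z ∈ S, (P y0).rootMultiplicity z = 1) →
      (∀ z ∈ S, ∀ ζ : ℂ → ℂ, AnalyticAt ℂ ζ y0 → ζ y0 = z →
        (∀ᶠ y in 𝓝 y0, (P y).eval (ζ y) = 0) →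
          analyticOrderAt (fun y => (R y).eval (ζ y)) y0 = 1) →
      analyticOrderAt (fun y => resultant (P y) (R y) b n) y0 = k := by
  classical
  induction k with
  | zero =>
    intro b P S hS hm hP hmem _ _
    have hD := analyticAt_resultant hP hR b n
    rw [Nat.cast_zero, hD.analyticOrderAt_eq_zero]
    rw [Ne, resultant_monic_eq_zero_iff (hm y0).1 (hm y0).2 (hRn y0)]
    rintro ⟨z, hz⟩
    rw [← hmem, Finset.card_eq_zero.1 hS] at hz
    exact absurd hz (Finset.notMem_empty z)
  | succ k ih =>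
    intro b P S hS hm hP hmem hmult htr
    obtain ⟨z0, hz0⟩ : S.Nonempty := by
      rw [← Finset.card_pos]
      omega
    obtain ⟨hPz, hRz⟩ := (hmem z0).1 hz0
    obtain ⟨P1, hP1⟩ := dvd_iff_isRoot.2 hPz
    have hX : (X - C z0 : ℂ[X]).Monic := monic_X_sub_C z0
    have hP1m : P1.Monic := hX.of_mul_monic_left (by
      rw [← hP1]
      exact (hm y0).1)
    have hdeg : 1 + P1.natDegree = b := by
      have h1 := (hm y0).2
      rw [hP1, hX.natDegree_mul hP1m, natDegree_X_sub_C] at h1
      exact h1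
    have hmul : ∀ z, (P y0).rootMultiplicity z =
        (X - C z0 : ℂ[X]).rootMultiplicity z + P1.rootMultiplicity z := by
      intro z
      rw [hP1, rootMultiplicity_mul]
      rw [← hP1]
      exact (hm y0).1.ne_zero
    have hP1z0 : P1.eval z0 ≠ 0 := by
      intro h
      have h1 := hmul z0
      rw [hmult z0 hz0, rootMultiplicity_X_sub_C_self] at h1
      have h2 : 0 < P1.rootMultiplicity z0 := (rootMultiplicity_pos hP1m.ne_zero).2 h
      omega
    have hco : IsCoprime (X - C z0 : ℂ[X]) P1 := by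
      rw [(irreducible_X_sub_C z0).coprime_iff_not_dvd, dvd_iff_isRoot]
      exact hP1z0
    obtain ⟨R1, R2, hR1m, hR2m, hR1a, hR2a, hR1, hR2, hfac⟩ :=
      hensel (P := P) (y0 := y0) (d1 := 1) (d2 := P1.natDegree)
        (fun y => ⟨(hm y).1, by rw [(hm y).2, hdeg]⟩) hP hX hP1m (natDegree_X_sub_C z0) rfl hco hP1
    set ζ : ℂ → ℂ := fun y => -(R1 y).coeff 0 with hζ
    have hR1X : ∀ y, R1 y = X - C (ζ y) := by
      intro y
      have h1 := (hR1m y).1.as_sum
      rw [(hR1m y).2, Finset.sum_range_one, pow_one, pow_zero, mul_one] at h1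
      rw [h1, hζ]
      simp
    have hζa : AnalyticAt ℂ ζ y0 := (hR1a 0).neg
    have hζ0 : ζ y0 = z0 := by
      have h1 := hR1X y0
      rw [hR1] at h1
      have h2 := congrArg (fun p => Polynomial.eval z0 p) h1
      simp only [eval_sub, eval_X, eval_C, sub_self] at h2
      exact (sub_eq_zero.1 h2.symm).symm
    have hPζ : ∀ᶠ y in 𝓝 y0, (P y).eval (ζ y) = 0 := by
      filter_upwards [hfac] with y hy
      rw [hy, hR1X, eval_mul, eval_sub, eval_X, eval_C, sub_self, zero_mul]
    have hDfac : ∀ᶠ y in 𝓝 y0, resultant (P y) (R y) b n =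
        (R y).eval (ζ y) * resultant (R2 y) (R y) P1.natDegree n := by
      filter_upwards [hfac] with y hy
      have h1 := resultant_mul_left (R1 y) (R2 y) (R y) n (hRn y)
      rw [(hR1m y).2, (hR2m y).2, hdeg, ← hy] at h1
      rw [h1, hR1X, resultant_X_sub_C_left _ _ _ (hRn y)]
    rw [analyticOrderAt_congr hDfac]
    have ha1 : AnalyticAt ℂ (fun y => (R y).eval (ζ y)) y0 := analyticAt_eval hRn hR hζa
    have ha2 : AnalyticAt ℂ (fun y => resultant (R2 y) (R y) P1.natDegree n) y0 :=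
      analyticAt_resultant hR2a hR _ _
    have hmulo := analyticOrderAt_mul ha1 ha2
    have hfun : ((fun y => (R y).eval (ζ y)) * fun y => resultant (R2 y) (R y) P1.natDegree n) =
        fun y => (R y).eval (ζ y) * resultant (R2 y) (R y) P1.natDegree n := rfl
    rw [hfun] at hmulo
    rw [hmulo, htr z0 hz0 ζ hζa hζ0 hPζ]
    have hIH := ih P1.natDegree R2 (S.erase z0) (by
      rw [Finset.card_erase_of_mem hz0, hS]
      rfl) hR2m hR2a ?_ ?_ ?_
    · rw [hIH, Nat.cast_succ, add_comm]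
    · intro z
      rw [Finset.mem_erase, hmem, hR2, hP1, eval_mul, eval_sub, eval_X, eval_C]
      constructor
      · rintro ⟨h1, h2, h3⟩
        rcases mul_eq_zero.1 h2 with h4 | h4
        · exact absurd (sub_eq_zero.1 h4) h1
        · exact ⟨h4, h3⟩
      · rintro ⟨h1, h2⟩
        refine ⟨?_, by rw [h1, mul_zero], h2⟩
        rintro rfl
        exact hP1z0 h1
    · intro z hz
      rw [Finset.mem_erase] at hz
      have h1 := hmul z
      rw [hmult z hz.2, rootMultiplicity_X_sub_C, if_neg hz.1, zero_add] at h1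
      rw [hR2, ← h1]
    · intro z hz ζ' hζ'a hζ'0 hζ'P
      rw [Finset.mem_erase] at hz
      refine htr z hz.2 ζ' hζ'a hζ'0 ?_
      filter_upwards [hζ'P, hfac] with y hy1 hy2
      rw [hy2, eval_mul, hy1, mul_zero]

end Vale.Agent.P298.H941
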