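import Vale.Agent.P298.H941.One

/-!
# P298 (helper941): the order formula, algebraic part
-/

open Filter Topology Polynomial

namespace Vale.Agent.P298.H941

/-- substitution `s ↦ s ^ N` -/
noncomputable def powH (N : ℕ) (hN : 0 < N) : O ℂ →ₐ[ℂ] O ℂ :=
  pull (fun s : ℂ => s ^ N) (analyticAt_id.pow N) (by simp [hN.ne'])

theorem powH_zz (N : ℕ) (hN : 0 < N) : powH N hN zz = zz ^ N := rfl

theorem powH_unit {N : ℕ} {hN : 0 < N} {u : O ℂ} (hu : IsUnit u) : IsUnit (powH N hN u) :=
  hu.map (powH N hN)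

theorem powH_ne_zero {N : ℕ} {hN : 0 < N} {a : O ℂ} (ha : a ≠ 0) : powH N hN a ≠ 0 := by
  obtain ⟨u, hu, h⟩ := exists_unit_mul ha
  rw [h, map_mul, map_pow, powH_zz]
  exact mul_ne_zero (pow_ne_zero _ (pow_ne_zero _ zz_ne_zero)) (powH_unit hu).ne_zero

theorem ordG_powH {N : ℕ} {hN : 0 < N} {a : O ℂ} (ha : a ≠ 0) :
    ordG (powH N hN a) = N * ordG a := by
  obtain ⟨u, hu, h⟩ := exists_unit_mul ha
  have h1 : powH N hN u ≠ 0 := (powH_unit hu).ne_zero
  have h2 : ordG (powH N hN u) = 0 := (ordG_eq_zero_iff h1).2 (powH_unit hu)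
  conv_lhs => rw [h]
  rw [map_mul, map_pow, powH_zz, ordG_mul (pow_ne_zero _ (pow_ne_zero _ zz_ne_zero)) h1, h2,
    ordG_pow (pow_ne_zero _ zz_ne_zero), ordG_pow zz_ne_zero, ordG_zz]
  ring

theorem powH_injective {N : ℕ} {hN : 0 < N} : Function.Injective (powH N hN) := by
  rw [injective_iff_map_eq_zero]
  intro a ha
  by_contra h
  exact powH_ne_zero h ha

theorem ordG_prod {ι : Type*} (s : Finset ι) (a : ι → O ℂ) (ha : ∀ i ∈ s, a i ≠ 0) :
    ordG (∏ i ∈ s, a i) = ∑ i ∈ s, ordG (a i) := by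
  classical
  induction s using Finset.induction_on with
  | empty => exact (ordG_eq_zero_iff one_ne_zero).2 isUnit_one
  | insert i s hi ih =>
    rw [Finset.prod_insert hi, Finset.sum_insert hi, ordG_mul (ha i (Finset.mem_insert_self _ _))
      (Finset.prod_ne_zero_iff.2 fun j hj => ha j (Finset.mem_insert_of_mem hj)),
      ih fun j hj => ha j (Finset.mem_insert_of_mem hj)]

section abs

variable {Q : Type*} [CommRing Q] [Algebra (O ℂ) Q] [Algebra ℂ Q] [IsScalarTower ℂ (O ℂ) Q]

omit [Algebra ℂ Q] [IsScalarTower ℂ (O ℂ) Q] in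
theorem exists_extend {m n : ℕ} (b : Fin m → Q) (hn : m ≤ n)
    (hspan : Submodule.span (O ℂ) (Set.range b) = ⊤) :
    ∃ b' : Fin n → Q, Submodule.span (O ℂ) (Set.range b') = ⊤ := by
  refine ⟨fun i => if h : (i : ℕ) < m then b ⟨i, h⟩ else 0, ?_⟩
  rw [eq_top_iff, ← hspan]
  refine Submodule.span_le.2 ?_
  rintro _ ⟨i, rfl⟩
  refine Submodule.subset_span ⟨⟨i, i.2.trans_le hn⟩, ?_⟩
  simp

/-- Generators of a finite module by Nakayama. -/
theorem exists_generators [Module.Finite (O ℂ) Q] {n : ℕ}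
    (hfin : Module.Finite ℂ (Q ⧸ Ideal.span ({algebraMap (O ℂ) Q zz} : Set Q)))
    (hn : Module.finrank ℂ (Q ⧸ Ideal.span ({algebraMap (O ℂ) Q zz} : Set Q)) ≤ n) :
    ∃ b : Fin n → Q, Submodule.span (O ℂ) (Set.range b) = ⊤ := by
  set K := Ideal.span ({algebraMap (O ℂ) Q zz} : Set Q) with hK
  let B := Module.finBasis ℂ (Q ⧸ K)
  choose b hb using fun i => Ideal.Quotient.mk_surjective (B i)
  have hspan : Submodule.span (O ℂ) (Set.range b) = ⊤ := by
    rw [eq_top_iff]
    refine Submodule.le_of_le_smul_of_le_jacobson_bot (I := Ideal.span {zz})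
      Module.Finite.fg_top ?_ ?_
    · rw [IsLocalRing.jacobson_eq_maximalIdeal ⊥ bot_ne_top, Ideal.span_singleton_le_iff_mem,
        mem_maximalIdeal]
      exact ev0_zz
    · rintro q -
      have h1 := B.sum_repr (Ideal.Quotient.mk K q)
      have h2 : Ideal.Quotient.mk K (∑ i, B.repr (Ideal.Quotient.mk K q) i • b i) =
          Ideal.Quotient.mk K q := by
        conv_rhs => rw [← h1]
        rw [map_sum]
        refine Finset.sum_congr rfl fun i _ => ?_
        rw [← hb]
        rfl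
      have h3 : q - ∑ i, B.repr (Ideal.Quotient.mk K q) i • b i ∈ K :=
        Ideal.Quotient.eq.1 h2.symm
      obtain ⟨a, ha⟩ := Ideal.mem_span_singleton'.1 h3
      have h4 : q = (∑ i, B.repr (Ideal.Quotient.mk K q) i • b i) + zz • a := by
        rw [Algebra.smul_def, mul_comm, ha]
        ring
      rw [h4]
      refine Submodule.add_mem_sup (Submodule.sum_mem _ fun i _ => ?_) ?_
      · rw [← algebraMap_smul (O ℂ)]
        exact Submodule.smul_mem _ _ (Submodule.subset_span ⟨i, rfl⟩)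
      · exact Submodule.smul_mem_smul (Ideal.subset_span rfl) trivial
  exact exists_extend b hn hspan

/-- The algebraic form of the order formula. -/
theorem order_formula [Module.Finite (O ℂ) Q] {ν N : ℕ} (hN : 0 < N)
    (hfin : Module.Finite ℂ (Q ⧸ Ideal.span ({algebraMap (O ℂ) Q zz} : Set Q)))
    (hn : Module.finrank ℂ (Q ⧸ Ideal.span ({algebraMap (O ℂ) Q zz} : Set Q)) ≤ ν)
    (Ev : Fin ν → Q →+* O ℂ) (hEv : ∀ i r, Ev i (algebraMap (O ℂ) Q r) = powH N hN r)
    (l : Q) (hl : Function.Injective fun i => Ev i l) (g : Q) (hg : ∀ i, Ev i g ≠ 0) :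
    Module.Finite ℂ (Q ⧸ Ideal.span ({g} : Set Q)) ∧
      N * Module.finrank ℂ (Q ⧸ Ideal.span ({g} : Set Q)) = ∑ i, ordG (Ev i g) := by
  classical
  obtain ⟨b, hb⟩ := exists_generators hfin hn
  have hgen : ∀ q : Q, ∃ c : Fin ν → O ℂ, q = ∑ j, c j • b j := by
    intro q
    have h1 : q ∈ Submodule.span (O ℂ) (Set.range b) := by
      rw [hb]
      trivial
    rw [Submodule.mem_span_range_iff_exists_fun] at h1
    obtain ⟨c, hc⟩ := h1
    exact ⟨c, hc.symm⟩
  have hEvs : ∀ i r q, Ev i (r • q) = powH N hN r * Ev i q := by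
    intro i r q
    rw [Algebra.smul_def, map_mul, hEv]
  set B : Matrix (Fin ν) (Fin ν) (O ℂ) := Matrix.of fun i j => Ev i (b j) with hB
  have hBdet : B.det ≠ 0 := by
    choose C hC using fun k : Fin ν => hgen (l ^ (k : ℕ))
    have h1 : Matrix.vandermonde (fun i => Ev i l) =
        B * Matrix.of fun j k => powH N hN (C k j) := by
      ext i k
      rw [Matrix.vandermonde_apply, Matrix.mul_apply, ← map_pow, hC k, map_sum]
      refine Finset.sum_congr rfl fun j _ => ?_
      rw [hEvs, hB, Matrix.of_apply, Matrix.of_apply, mul_comm]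
    have h2 := Matrix.det_vandermonde_ne_zero_iff.2 hl
    rw [h1, Matrix.det_mul] at h2
    exact left_ne_zero_of_mul h2
  have hli : LinearIndependent (O ℂ) b := by
    rw [Fintype.linearIndependent_iff]
    intro r hr
    have h1 : B.mulVec (fun j => powH N hN (r j)) = 0 := by
      funext i
      have h2 := congrArg (Ev i) hr
      rw [map_sum, map_zero] at h2
      rw [Matrix.mulVec, dotProduct, Pi.zero_apply, ← h2]
      refine Finset.sum_congr rfl fun j _ => ?_
      rw [hEvs, hB, Matrix.of_apply, mul_comm]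
    have h2 := Matrix.eq_zero_of_mulVec_eq_zero hBdet h1
    intro j
    exact powH_injective ((congrFun h2 j).trans (map_zero _).symm)
  let bas : Module.Basis (Fin ν) (O ℂ) Q := Module.Basis.mk hli (by rw [hb])
  have hbas : ∀ i, bas i = b i := fun i => Module.Basis.mk_apply hli _ i
  set G : Q →ₗ[O ℂ] Q := LinearMap.mulLeft (O ℂ) g with hG
  set M := LinearMap.toMatrix bas bas G with hM
  have hMB : Matrix.diagonal (fun i => Ev i g) * B = B * M.map (powH N hN) := by
    ext i k
    rw [Matrix.diagonal_mul, Matrix.mul_apply, hB, Matrix.of_apply, ← map_mul]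
    have h1 : g * b k = ∑ j, M j k • b j := by
      have h2 := bas.sum_repr (G (bas k))
      rw [hG, LinearMap.mulLeft_apply, hbas] at h2
      rw [← h2]
      refine Finset.sum_congr rfl fun j _ => ?_
      rw [hM, LinearMap.toMatrix_apply, hG, LinearMap.mulLeft_apply, hbas, hbas]
    rw [h1, map_sum]
    refine Finset.sum_congr rfl fun j _ => ?_
    rw [hEvs, Matrix.of_apply, Matrix.map_apply, mul_comm]
  have hdet : powH N hN (LinearMap.det G) = ∏ i, Ev i g := by
    have h1 := congrArg Matrix.det hMB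
    rw [Matrix.det_mul, Matrix.det_mul, Matrix.det_diagonal, mul_comm] at h1
    have h2 := mul_left_cancel₀ hBdet h1
    rw [h2, ← LinearMap.det_toMatrix bas, ← hM]
    exact RingHom.map_det (powH N hN : O ℂ →+* O ℂ) M
  have hdet0 : LinearMap.det G ≠ 0 := by
    intro h
    rw [h, map_zero] at hdet
    exact Finset.prod_ne_zero_iff.2 (fun i _ => hg i) hdet.symm
  obtain ⟨h1, h2⟩ := finrank_coker_germ bas G hdet0
  have hrange : LinearMap.range G =
      (Submodule.restrictScalars (O ℂ) (Ideal.span ({g} : Set Q)) : Submodule (O ℂ) Q) := by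
    ext q
    rw [LinearMap.mem_range, Submodule.restrictScalars_mem, Ideal.mem_span_singleton']
    constructor
    · rintro ⟨a, rfl⟩
      exact ⟨a, mul_comm _ _⟩
    · rintro ⟨a, rfl⟩
      exact ⟨a, mul_comm _ _⟩
  let e : (Q ⧸ LinearMap.range G) ≃ₗ[ℂ] (Q ⧸ Ideal.span ({g} : Set Q)) :=
    ((Submodule.quotEquivOfEq _ _ hrange).trans
      (Submodule.Quotient.restrictScalarsEquiv (O ℂ) (Ideal.span ({g} : Set Q)))).restrictScalars ℂ
  refine ⟨Module.Finite.equiv e, ?_⟩
  rw [← e.finrank_eq, h2, ← ordG_powH (hN := hN) hdet0, hdet, ordG_prod _ _ fun i _ => hg i]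

end abs

end Vale.Agent.P298.H941
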