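import Vale.Agent.P298.H941.Curve

/-!
# P298 (helper941): existence of the covering arcs
-/

open Filter Topology Polynomial

namespace Vale.Agent.P298.H941

open Vale.Agent.P267.H823

theorem exists_pow_eq {N : ℕ} (hN : 0 < N) (c : ℂ) : ∃ s : ℂ, s ^ N = c := by
  obtain ⟨s, hs⟩ := IsAlgClosed.exists_pow_nat_eq c hN
  exact ⟨s, hs⟩

theorem eventually_eq_zero_or_ne {E : Type*} [NormedAddCommGroup E] [NormedSpace ℂ E]
    {f : ℂ → E} (hf : AnalyticAt ℂ f 0) :
    (∀ᶠ s in 𝓝 (0 : ℂ), f s = 0) ∨ ∀ᶠ s in 𝓝[≠] (0 : ℂ), f s ≠ 0 :=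
  hf.eventually_eq_zero_or_eventually_ne_zero

/-- A finite family of analytic arcs can be thinned out to a family of pairwise different arcs. -/
theorem exists_thin {ι : Type*} [Finite ι] (c : ι → ℂ → V) (hc : ∀ i, AnalyticAt ℂ (c i) 0) :
    ∃ (ν : ℕ) (σ : Fin ν → ι), (∀ i j, i ≠ j → ∀ᶠ s in 𝓝[≠] (0 : ℂ), c (σ i) s ≠ c (σ j) s) ∧
      ∀ k, ∃ i, ∀ᶠ s in 𝓝 (0 : ℂ), c k s = c (σ i) s := by
  classical
  have := Fintype.ofFinite ι
  let S : Setoid ι :=
    { r := fun a b => c a =ᶠ[𝓝 0] c b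
      iseqv := ⟨fun _ => Filter.EventuallyEq.rfl, fun h => h.symm, fun h h' => h.trans h'⟩ }
  let e := Fintype.equivFin (Quotient S)
  refine ⟨Fintype.card (Quotient S), fun i => (e.symm i).out, ?_, ?_⟩
  · intro i j hij
    rcases (hc (e.symm i).out).eventually_eq_or_eventually_ne (hc (e.symm j).out) with h | h
    · exfalso
      apply hij
      have h1 : (⟦(e.symm i).out⟧ : Quotient S) = ⟦(e.symm j).out⟧ := Quotient.sound h
      rw [Quotient.out_eq, Quotient.out_eq] at h1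
      exact e.symm.injective h1
    · exact h
  · intro k
    refine ⟨e ⟦k⟧, ?_⟩
    simp only [Equiv.symm_apply_apply]
    have h1 : S.r (⟦k⟧ : Quotient S).out k := Quotient.mk_out k
    exact Filter.EventuallyEq.symm h1

/-- A curve with finite projection to the line is covered by finitely many arcs. -/
theorem exists_arcSys {f e h : V → ℂ} (hf : AnalyticAt ℂ f 0) (he : AnalyticAt ℂ e 0)
    (hh : AnalyticAt ℂ h 0) (h0 : h 0 = 0) (H : FinMap f e h hf he hh h0) :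
    ∃ (N ν : ℕ) (ψ : Fin ν → ℂ → V), ArcSys f e h N ν ψ := by
  classical
  choose d P hP hPa hPe using fun i : Fin 3 =>
    exists_integral_eqn H (fun x => x i) (ana_coord i 0)
  choose M hM β hβ hPβ using fun i : Fin 3 => puiseux (hP i) (hPa i)
  -- the common exponent
  obtain ⟨N, hN⟩ : ∃ N, N = ∏ i, M i := ⟨_, rfl⟩
  have hNpos : 0 < N := by
    rw [hN]
    exact Finset.prod_pos fun i _ => hM i
  have hdvd : ∀ i, ∃ m, N = m * M i := by
    intro i
    obtain ⟨m, hm⟩ := Finset.dvd_prod_of_mem M (Finset.mem_univ i)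
    exact ⟨m, by rw [hN, hm, mul_comm]⟩
  choose m hm using hdvd
  have hmpos : ∀ i, 0 < m i := by
    intro i
    rcases Nat.eq_zero_or_pos (m i) with h | h
    · rw [hm i, h, zero_mul] at hNpos
      exact absurd hNpos (lt_irrefl 0)
    · exact h
  set β' : (i : Fin 3) → Fin (d i) → ℂ → ℂ := fun i j s => β i j (s ^ m i) with hβ'
  have hβ'a : ∀ i j, AnalyticAt ℂ (β' i j) 0 := fun i j =>
    Puiseux.analyticAt_comp_pow (hβ i j) (hmpos i)
  have hPβ' : ∀ i, ∀ᶠ s in 𝓝 (0 : ℂ), P i (s ^ N) = ∏ j, (X - C (β' i j s)) := by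
    intro i
    filter_upwards [(Puiseux.tendsto_pow (hmpos i)).eventually (hPβ i)] with s hs
    rw [hβ']
    simp only
    rw [← hs, ← pow_mul, ← hm i]
  -- the candidates
  set cand : ((i : Fin 3) → Fin (d i)) → ℂ → V := fun κ s i => β' i (κ i) s with hcand
  have hcanda : ∀ κ, AnalyticAt ℂ (cand κ) 0 := by
    intro κ
    rw [analyticAt_pi_iff]
    exact fun i => hβ'a i (κ i)
  have hcover1 : ∀ᶠ p : V × ℂ in 𝓝 (0, 0), f p.1 = 0 → e p.1 = 0 → h p.1 = p.2 ^ N →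
      ∃ κ, p.1 = cand κ p.2 := by
    have h1 : Tendsto (Prod.fst : V × ℂ → V) (𝓝 (0, 0)) (𝓝 0) := continuousAt_fst
    have h2 : Tendsto (Prod.snd : V × ℂ → ℂ) (𝓝 (0, 0)) (𝓝 0) := continuousAt_snd
    filter_upwards [h1.eventually (eventually_all.2 hPe),
      h2.eventually (eventually_all.2 hPβ')] with p hp1 hp2 hfp hep hhp
    have h3 : ∀ i, ∃ j, p.1 i = β' i j p.2 := by
      intro i
      have h4 := hp1 i hfp hep
      rw [hhp, hp2 i, eval_prod, Finset.prod_eq_zero_iff] at h4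
      obtain ⟨j, -, hj⟩ := h4
      refine ⟨j, ?_⟩
      rw [eval_sub, eval_X, eval_C] at hj
      exact sub_eq_zero.1 hj
    choose κ hκ using h3
    exact ⟨κ, funext hκ⟩
  -- the good ones
  set G : Set ((i : Fin 3) → Fin (d i)) := {κ | cand κ 0 = 0 ∧
    ∀ᶠ s in 𝓝 (0 : ℂ), f (cand κ s) = 0 ∧ e (cand κ s) = 0 ∧ h (cand κ s) = s ^ N} with hG
  obtain ⟨ν, σ, hσ1, hσ2⟩ := exists_thin (fun κ : G => cand κ.1) fun κ => hcanda κ.1
  refine ⟨N, ν, fun i => cand (σ i).1, hNpos, fun i => hcanda _, fun i => (σ i).2.1,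
    fun i => (σ i).2.2, hσ1, ?_⟩
  have h2 : Tendsto (Prod.snd : V × ℂ → ℂ) (𝓝 (0, 0)) (𝓝 0) := continuousAt_snd
  have h3 : ∀ κ, ∀ᶠ p : V × ℂ in 𝓝 (0, 0), cand κ 0 ≠ 0 → p.1 ≠ cand κ p.2 := by
    intro κ
    by_cases hκ : cand κ 0 = 0
    · exact Eventually.of_forall fun p h => absurd hκ h
    have h4 : ContinuousAt (fun p : V × ℂ => p.1 - cand κ p.2) (0, 0) := by
      refine continuousAt_fst.sub ?_
      exact ContinuousAt.comp (g := cand κ) (f := (Prod.snd : V × ℂ → ℂ))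
        (by exact (hcanda κ).continuousAt) continuousAt_snd
    have h5 := h4.eventually_ne (y := 0) (by
      rw [zero_sub, neg_ne_zero]
      exact hκ)
    filter_upwards [h5] with p hp _ h6
    exact hp (sub_eq_zero.2 h6)
  have h4 : ∀ κ, cand κ 0 = 0 → κ ∉ G → ∀ᶠ s in 𝓝 (0 : ℂ), s ≠ 0 →
      ¬ (f (cand κ s) = 0 ∧ e (cand κ s) = 0 ∧ h (cand κ s) = s ^ N) := by
    intro κ hκ0 hκ
    have hfa : AnalyticAt ℂ (fun s => f (cand κ s)) 0 := AnalyticAt.comp_of_eq hf (hcanda κ) hκ0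
    have hea : AnalyticAt ℂ (fun s => e (cand κ s)) 0 := AnalyticAt.comp_of_eq he (hcanda κ) hκ0
    have hha : AnalyticAt ℂ (fun s => h (cand κ s) - s ^ N) 0 :=
      (AnalyticAt.comp_of_eq hh (hcanda κ) hκ0).sub (analyticAt_id.pow N)
    rcases eventually_eq_zero_or_ne hfa with h5 | h5
    · rcases eventually_eq_zero_or_ne hea with h6 | h6
      · rcases eventually_eq_zero_or_ne hha with h7 | h7
        · exfalso
          apply hκ
          refine ⟨hκ0, ?_⟩
          filter_upwards [h5, h6, h7] with s h5 h6 h7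
          exact ⟨h5, h6, sub_eq_zero.1 h7⟩
        · rw [eventually_nhdsWithin_iff] at h7
          filter_upwards [h7] with s hs hs0 hc
          exact hs hs0 (sub_eq_zero.2 hc.2.2)
      · rw [eventually_nhdsWithin_iff] at h6
        filter_upwards [h6] with s hs hs0 hc
        exact hs hs0 hc.2.1
    · rw [eventually_nhdsWithin_iff] at h5
      filter_upwards [h5] with s hs hs0 hc
      exact hs hs0 hc.1
  have h5 : ∀ᶠ s in 𝓝 (0 : ℂ), ∀ κ, cand κ 0 = 0 → κ ∉ G → s ≠ 0 →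
      ¬ (f (cand κ s) = 0 ∧ e (cand κ s) = 0 ∧ h (cand κ s) = s ^ N) := by
    rw [eventually_all]
    intro κ
    by_cases hκ0 : cand κ 0 = 0
    · by_cases hκ : κ ∈ G
      · exact Eventually.of_forall fun s _ h => absurd hκ h
      · filter_upwards [h4 κ hκ0 hκ] with s hs _ _
        exact hs
    · exact Eventually.of_forall fun s h => absurd h hκ0
  have h6 : ∀ᶠ s in 𝓝 (0 : ℂ), ∀ κ : G, ∃ i, cand κ.1 s = cand (σ i).1 s := by
    rw [eventually_all]
    intro κ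
    obtain ⟨i, hi⟩ := hσ2 κ
    filter_upwards [hi] with s hs
    exact ⟨i, hs⟩
  filter_upwards [hcover1, eventually_all.2 h3, h2.eventually h5, h2.eventually h6] with p
    hp1 hp2 hp3 hp4 hfp hep hhp
  obtain ⟨κ, hκ⟩ := hp1 hfp hep hhp
  have hκ0 : cand κ 0 = 0 := by
    by_contra hne
    exact hp2 κ hne hκ
  by_cases hs0 : p.2 = 0
  · left
    rw [hκ, hs0, hκ0]
  · right
    have hκG : κ ∈ G := by
      by_contra hne
      exact hp3 κ hκ0 hne hs0 (by rw [← hκ]; exact ⟨hfp, hep, hhp⟩)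
    obtain ⟨i, hi⟩ := hp4 ⟨κ, hκG⟩
    exact ⟨i, hκ.trans hi⟩

end Vale.Agent.P298.H941
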