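import Mathlib

/-!
# P298 (helper941): orbits of a permutation of a finite set
-/

namespace Vale.Agent.P298.H941

open Function

theorem isPeriodic_of_injective {ν : ℕ} {σ : Fin ν → Fin ν} (hσ : Injective σ) (i : Fin ν) :
    i ∈ periodicPts σ := hσ.mem_periodicPts i

/-- Representatives of the orbits of an injective map of a finite set to itself. -/
theorem exists_reps {ν : ℕ} {σ : Fin ν → Fin ν} (hσ : Injective σ) :
    ∃ (k : ℕ) (rep : Fin k → Fin ν), (∀ j, ∃ a n, σ^[n] (rep a) = j) ∧
      (∀ a b n n', σ^[n] (rep a) = σ^[n'] (rep b) → a = b) ∧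
      ∀ Φ : Fin ν → ℕ, (∀ i, Φ (σ i) = Φ i) →
        ∑ i, Φ i = ∑ a, minimalPeriod σ (rep a) * Φ (rep a) := by
  classical
  have hper : ∀ i, 0 < minimalPeriod σ i := fun i =>
    minimalPeriod_pos_of_mem_periodicPts (isPeriodic_of_injective hσ i)
  have hinv : ∀ i n, ∃ n', σ^[n'] (σ^[n] i) = i := by
    intro i n
    obtain ⟨c, hc⟩ : ∃ c, n ≤ c * minimalPeriod σ i := ⟨n, by
      have := hper i
      nlinarith⟩
    obtain ⟨d, hd⟩ := Nat.exists_eq_add_of_le hc
    refine ⟨d, ?_⟩
    rw [← iterate_add_apply, add_comm, ← hd]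
    exact ((isPeriodicPt_minimalPeriod σ i).const_mul c).eq
  let S : Setoid (Fin ν) :=
    { r := fun i j => ∃ n, σ^[n] i = j
      iseqv := ⟨fun i => ⟨0, rfl⟩, by
        rintro i j ⟨n, rfl⟩
        exact hinv i n, by
        rintro i j l ⟨n, rfl⟩ ⟨n', rfl⟩
        exact ⟨n' + n, iterate_add_apply _ _ _ _⟩⟩ }
  let e := Fintype.equivFin (Quotient S)
  let rep : Fin (Fintype.card (Quotient S)) → Fin ν := fun a => (e.symm a).out
  let cl : Fin ν → Fin (Fintype.card (Quotient S)) := fun i => e ⟦i⟧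
  have hclrep : ∀ a, cl (rep a) = a := by
    intro a
    show e ⟦(e.symm a).out⟧ = a
    rw [Quotient.out_eq, Equiv.apply_symm_apply]
  have hclσ : ∀ n i, cl (σ^[n] i) = cl i := by
    intro n i
    have h : (⟦σ^[n] i⟧ : Quotient S) = ⟦i⟧ := (Quotient.sound (⟨n, rfl⟩ : S.r i (σ^[n] i))).symm
    show e ⟦σ^[n] i⟧ = e ⟦i⟧
    rw [h]
  have hrep : ∀ j, ∃ n, σ^[n] (rep (cl j)) = j := by
    intro j
    have h : S.r (rep (cl j)) j := by
      apply Quotient.exact
      show (⟦(e.symm (e ⟦j⟧)).out⟧ : Quotient S) = ⟦j⟧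
      rw [Equiv.symm_apply_apply, Quotient.out_eq]
    exact h
  refine ⟨_, rep, fun j => ⟨cl j, hrep j⟩, ?_, ?_⟩
  · intro a b n n' h
    have h1 := congrArg cl h
    rwa [hclσ, hclσ, hclrep, hclrep] at h1
  · intro Φ hΦ
    have hΦn : ∀ n i, Φ (σ^[n] i) = Φ i := by
      intro n i
      induction n with
      | zero => rfl
      | succ n ih => rw [iterate_succ_apply', hΦ, ih]
    have hfib : ∀ a, Finset.univ.filter (fun i => cl i = a) =
        (Finset.range (minimalPeriod σ (rep a))).image (fun n => σ^[n] (rep a)) := by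
      intro a
      ext j
      rw [Finset.mem_filter, Finset.mem_image]
      constructor
      · rintro ⟨-, rfl⟩
        obtain ⟨n, hn⟩ := hrep j
        refine ⟨n % minimalPeriod σ (rep (cl j)), ?_, ?_⟩
        · rw [Finset.mem_range]
          exact Nat.mod_lt _ (hper _)
        · rw [iterate_mod_minimalPeriod_eq, hn]
      · rintro ⟨n, -, rfl⟩
        exact ⟨Finset.mem_univ _, by rw [hclσ, hclrep]⟩
    have hcard : ∀ a, (Finset.univ.filter (fun i => cl i = a)).card =
        minimalPeriod σ (rep a) := by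
      intro a
      rw [hfib, Finset.card_image_of_injOn, Finset.card_range]
      intro n hn n' hn' h
      rw [Finset.mem_coe, Finset.mem_range] at hn hn'
      exact iterate_injOn_Iio_minimalPeriod hn hn' h
    rw [← Finset.sum_fiberwise (s := Finset.univ) (g := cl) (f := Φ)]
    refine Finset.sum_congr rfl fun a _ => ?_
    have h1 : ∀ i ∈ Finset.univ.filter (fun i => cl i = a), Φ i = Φ (rep a) := by
      intro i hi
      rw [Finset.mem_filter] at hi
      obtain ⟨n, hn⟩ := hrep i
      rw [← hn, hΦn, hi.2]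
    rw [Finset.sum_congr rfl h1, Finset.sum_const, hcard, smul_eq_mul]

end Vale.Agent.P298.H941
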