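import Vale.Agent.P298.H941.System
import Vale.Agent.P298.H941.Orb

/-!
# P298 (helper941): grouping the covering arcs into branches
-/

open Filter Topology Metric

namespace Vale.Agent.P298.H941

open Vale.Agent.P267.H823 Function

variable {f e h : V → ℂ} {N ν : ℕ} {ψ : Fin ν → ℂ → V}

theorem exists_rot (A : ArcSys f e h N ν ψ) (h0 : h 0 = 0) {ζ : ℂ} (hζ : ζ ^ N = 1) (i : Fin ν) :
    ∃ j, ∀ᶠ s in 𝓝 (0 : ℂ), ψ i (ζ * s) = ψ j s := by
  by_contra hcon
  have hζ0 : ζ ≠ 0 := by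
    rintro rfl
    rw [zero_pow A.pos.ne'] at hζ
    exact zero_ne_one hζ
  have hza : AnalyticAt ℂ (fun s => ψ i (ζ * s)) 0 := analyticAt_comp_mul (A.an i) ζ
  have h1 : ∀ j, ∀ᶠ s in 𝓝[≠] (0 : ℂ), ψ i (ζ * s) ≠ ψ j s := by
    intro j
    rcases hza.eventually_eq_or_eventually_ne (A.an j) with h | h
    · exact absurd ⟨j, h⟩ hcon
    · exact h
  have ht : Tendsto (fun s : ℂ => ((ψ i (ζ * s), s) : V × ℂ)) (𝓝 0) (𝓝 (0, 0)) := by
    have h2 : ContinuousAt (fun s : ℂ => ((ψ i (ζ * s), s) : V × ℂ)) 0 :=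
      hza.continuousAt.prodMk continuousAt_id
    have h3 := h2.tendsto
    simp only [mul_zero, A.zero i] at h3
    exact h3
  have h2 : ∀ᶠ s in 𝓝[≠] (0 : ℂ), False := by
    filter_upwards [eventually_all.2 h1, (ht.eventually A.cover).filter_mono nhdsWithin_le_nhds,
      ((tendsto_mul_zero ζ).eventually (A.mem i)).filter_mono nhdsWithin_le_nhds,
      self_mem_nhdsWithin] with s k1 k2 k3 k4
    have h3 : h (ψ i (ζ * s)) = s ^ N := by
      rw [k3.2.2, mul_pow, hζ, one_mul]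
    rcases k2 k3.1 k3.2.1 h3 with h4 | ⟨j, hj⟩
    · have h5 : ψ i (ζ * s) = 0 := h4
      rw [h5, h0] at h3
      exact pow_ne_zero N k4 h3.symm
    · exact k1 j hj
  exact h2.exists.elim fun _ h => h

theorem exists_comp_powV {c : ℂ → V} (hc : AnalyticAt ℂ c 0) {ω : ℂ} {q : ℕ} (hq : 0 < q)
    (hω : IsPrimitiveRoot ω q) (hinv : ∀ᶠ t in 𝓝 (0 : ℂ), c (ω * t) = c t) :
    ∃ γ : ℂ → V, AnalyticAt ℂ γ 0 ∧ ∀ᶠ t in 𝓝 (0 : ℂ), c t = γ (t ^ q) := by
  have h1 : ∀ k : Fin 3, ∃ g : ℂ → ℂ, AnalyticAt ℂ g 0 ∧ ∀ᶠ t in 𝓝 (0 : ℂ), c t k = g (t ^ q) := by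
    intro k
    refine exists_comp_pow (ana_comp hc k) hq hω ?_
    filter_upwards [hinv] with t ht
    rw [ht]
  choose g hg hcg using h1
  refine ⟨fun t k => g k t, analyticAt_pi_iff.2 hg, ?_⟩
  filter_upwards [eventually_all.2 hcg] with t ht
  exact funext ht

theorem order_comp_mul (g : ℂ → ℂ) {ζ : ℂ} (hζ : ζ ≠ 0) :
    analyticOrderAt (fun s => g (ζ * s)) 0 = analyticOrderAt g 0 := by
  have h1 : AnalyticAt ℂ (fun s : ℂ => ζ * s) 0 := analyticAt_const.mul analyticAt_id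
  have h2 : deriv (fun s : ℂ => ζ * s) 0 ≠ 0 := by
    have h5 : HasDerivAt (fun s : ℂ => ζ * s) (ζ * 1) 0 := (hasDerivAt_id (0 : ℂ)).const_mul ζ
    rw [h5.deriv, mul_one]
    exact hζ
  have h3 := analyticOrderAt_comp_of_deriv_ne_zero (f := g) h1 h2
  have h4 : g ∘ (fun s : ℂ => ζ * s) = fun s => g (ζ * s) := rfl
  rw [h4, mul_zero] at h3
  exact h3

theorem order_comp_pow {g : ℂ → ℂ} (hg : AnalyticAt ℂ g 0) {q : ℕ} (hq : 0 < q) :
    analyticOrderAt (fun s => g (s ^ q)) 0 = analyticOrderAt g 0 * q := by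
  have h1 : AnalyticAt ℂ (fun s : ℂ => s ^ q) 0 := analyticAt_id.pow q
  have h0 : (0 : ℂ) ^ q = 0 := zero_pow hq.ne'
  have h3 := AnalyticAt.analyticOrderAt_comp (f := g) (g := fun s : ℂ => s ^ q) (z₀ := 0)
    (by simp only [h0]; exact hg) h1
  have h4 : g ∘ (fun s : ℂ => s ^ q) = fun s => g (s ^ q) := rfl
  rw [h4, h0] at h3
  rw [h3]
  congr 1
  have h5 : (fun x : ℂ => x ^ q - 0) = fun x : ℂ => (x - 0) ^ q := by
    funext x
    ring
  rw [h5, (show AnalyticAt ℂ (fun x : ℂ => (x - 0) ^ q) 0 by fun_prop).analyticOrderAt_eq_natCast]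
  exact ⟨fun _ => 1, analyticAt_const, one_ne_zero, Eventually.of_forall fun z => by simp⟩

/-- The arcs grouped into branches. -/
theorem exists_branch_arcs (A : ArcSys f e h N ν ψ) (hν : 0 < ν) (hh : AnalyticAt ℂ h 0)
    (h0 : h 0 = 0) :
    ∃ (k : ℕ) (γ : Fin k → ℂ → V) (m q : Fin k → ℕ) (R : ℝ), 0 < k ∧ 0 < R ∧
      (∀ a, 0 < m a ∧ 0 < q a ∧ q a * m a = N) ∧
      (∀ a, ∀ s ∈ ball (0 : ℂ) R, AnalyticAt ℂ (γ a) s) ∧ (∀ a, γ a 0 = 0) ∧
      (∀ a, ∀ s ∈ ball (0 : ℂ) R, f (γ a s) = 0 ∧ e (γ a s) = 0 ∧ h (γ a s) = s ^ m a) ∧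
      (∀ a b, ∀ s ∈ ball (0 : ℂ) R, ∀ s' ∈ ball (0 : ℂ) R, γ a s = γ b s' →
        (s = 0 ∧ s' = 0) ∨ (a = b ∧ s = s')) ∧
      (∀ ε > 0, ∀ᶠ x in 𝓝 (0 : V), f x = 0 → e x = 0 →
        ∃ a, ∃ s ∈ ball (0 : ℂ) ε, x = γ a s) ∧
      (∀ a, ∃ i, ∀ᶠ s in 𝓝 (0 : ℂ), ψ i s = γ a (s ^ q a)) ∧
      (∀ i, ∃ a, ∃ ζ : ℂ, ζ ≠ 0 ∧ ∀ᶠ s in 𝓝 (0 : ℂ), ψ i s = γ a ((ζ * s) ^ q a)) ∧
      ∀ g : V → ℂ, AnalyticAt ℂ g 0 →
        ∑ i, (analyticOrderAt (fun s => g (ψ i s)) 0).toNat =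
          N * ∑ a, (analyticOrderAt (fun s => g (γ a s)) 0).toNat := by
  classical
  have hN := A.pos
  obtain ⟨ζ, hζ⟩ : ∃ ζ : ℂ, IsPrimitiveRoot ζ N :=
    ⟨_, Complex.isPrimitiveRoot_exp N hN.ne'⟩
  have hζN : ζ ^ N = 1 := hζ.pow_eq_one
  have hζ0 : ζ ≠ 0 := by
    rintro rfl
    rw [zero_pow hN.ne'] at hζN
    exact zero_ne_one hζN
  have hζ1 : ‖ζ‖ = 1 := by
    have h1 : ‖ζ‖ ^ N = 1 := by rw [← norm_pow, hζN, norm_one]
    exact (pow_eq_one_iff_of_nonneg (norm_nonneg _) hN.ne').1 h1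
  choose σ hσ using fun i => exists_rot A h0 hζN i
  have heq : ∀ i j, (∀ᶠ s in 𝓝 (0 : ℂ), ψ i s = ψ j s) → i = j := by
    intro i j hij
    by_contra hne
    have h1 : ∀ᶠ s in 𝓝[≠] (0 : ℂ), False := by
      filter_upwards [A.ne i j hne, hij.filter_mono nhdsWithin_le_nhds] with s k1 k2
      exact k1 k2
    exact h1.exists.elim fun _ h => h
  have hinj : Injective σ := by
    intro i j hij
    apply heq
    have h1 : Tendsto (fun s : ℂ => ζ⁻¹ * s) (𝓝 0) (𝓝 0) := tendsto_mul_zero _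
    filter_upwards [h1.eventually (hσ i), h1.eventually (hσ j)] with s k1 k2
    rw [← mul_assoc, mul_inv_cancel₀ hζ0, one_mul] at k1 k2
    rw [k1, k2, hij]
  have hiter : ∀ n i, ∀ᶠ s in 𝓝 (0 : ℂ), ψ i (ζ ^ n * s) = ψ (σ^[n] i) s := by
    intro n
    induction n with
    | zero => intro i; exact Eventually.of_forall fun s => by simp
    | succ n ih =>
      intro i
      filter_upwards [(tendsto_mul_zero ζ).eventually (ih i), hσ (σ^[n] i)] with s k1 k2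
      rw [iterate_succ_apply', ← k2, ← k1, pow_succ, mul_assoc]
  obtain ⟨k, rep, hrep1, hrep2, hrep3⟩ := exists_reps hinj
  set M : Fin ν → ℕ := fun i => minimalPeriod σ i with hM
  have hMpos : ∀ i, 0 < M i := fun i =>
    minimalPeriod_pos_of_mem_periodicPts (isPeriodic_of_injective hinj i)
  have hMdvd : ∀ i, ∃ q, q * M i = N := by
    intro i
    have h1 : IsPeriodicPt σ N i := by
      apply heq
      filter_upwards [hiter N i] with s hs
      rw [← hs, hζN, one_mul]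
    obtain ⟨q, hq⟩ := h1.minimalPeriod_dvd
    exact ⟨q, by rw [hM, mul_comm]; exact hq.symm⟩
  choose qf hQq using hMdvd
  have hQpos : ∀ i, 0 < qf i := by
    intro i
    rcases Nat.eq_zero_or_pos (qf i) with h | h
    · have h1 := hQq i
      rw [h, zero_mul] at h1
      omega
    · exact h
  have hγ : ∀ i, ∃ γ : ℂ → V, AnalyticAt ℂ γ 0 ∧ ∀ᶠ s in 𝓝 (0 : ℂ), ψ i s = γ (s ^ qf i) := by
    intro i
    refine exists_comp_powV (A.an i) (hQpos i)
      (hζ.pow hN (by rw [mul_comm, hQq] : N = M i * qf i)) ?_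
    filter_upwards [hiter (M i) i] with s hs
    rw [hs, iterate_minimalPeriod]
  choose Γ hΓa hΓ using hγ
  have hΓ0 : ∀ i, Γ i 0 = 0 := by
    intro i
    have h1 := (hΓ i).self_of_nhds
    rw [zero_pow (hQpos i).ne', A.zero i] at h1
    exact h1.symm
  -- a radius on which everything holds
  have hgood : ∀ᶠ s in 𝓝 (0 : ℂ), (∀ i, f (ψ i s) = 0 ∧ e (ψ i s) = 0 ∧ h (ψ i s) = s ^ N) ∧
      (s ≠ 0 → ∀ i j, i ≠ j → ψ i s ≠ ψ j s) ∧
      (∀ n : Fin N, ∀ i, ψ i (ζ ^ (n : ℕ) * s) = ψ (σ^[n] i) s) ∧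
      ∀ i, ψ i s = Γ i (s ^ qf i) := by
    have h1 : ∀ᶠ s in 𝓝 (0 : ℂ), s ≠ 0 → ∀ i j, i ≠ j → ψ i s ≠ ψ j s := by
      have h2 : ∀ᶠ s in 𝓝[≠] (0 : ℂ), ∀ i j, i ≠ j → ψ i s ≠ ψ j s := by
        refine eventually_all.2 fun i => eventually_all.2 fun j => ?_
        by_cases hij : i = j
        · exact Eventually.of_forall fun s h => absurd hij h
        · filter_upwards [A.ne i j hij] with s hs _
          exact hs
      filter_upwards [eventually_nhdsWithin_iff.1 h2] with s hs hs0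
      exact hs hs0
    filter_upwards [eventually_all.2 A.mem, h1,
      eventually_all.2 fun n : Fin N => eventually_all.2 fun i => hiter n i,
      eventually_all.2 hΓ] with s k1 k2 k3 k4
    exact ⟨k1, k2, k3, k4⟩
  obtain ⟨ρ', hρ', hρ'G⟩ := Metric.eventually_nhds_iff.1 hgood
  set ρ := min ρ' (1 / 2) with hρdef
  have hρ : 0 < ρ := lt_min hρ' (by norm_num)
  have hρ1 : ρ < 1 := (min_le_right _ _).trans_lt (by norm_num)
  have hG : ∀ s : ℂ, ‖s‖ < ρ → (∀ i, f (ψ i s) = 0 ∧ e (ψ i s) = 0 ∧ h (ψ i s) = s ^ N) ∧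
      (s ≠ 0 → ∀ i j, i ≠ j → ψ i s ≠ ψ j s) ∧
      (∀ n : Fin N, ∀ i, ψ i (ζ ^ (n : ℕ) * s) = ψ (σ^[n] i) s) ∧
      ∀ i, ψ i s = Γ i (s ^ qf i) := fun s hs => hρ'G (by
    rw [dist_zero_right]
    exact hs.trans_le (min_le_left _ _))
  obtain ⟨R', hR', hR'a⟩ := Metric.eventually_nhds_iff.1
    (eventually_all.2 fun i => (hΓa i).eventually_analyticAt)
  set R := min R' (ρ ^ N) with hRdef
  have hR : 0 < R := lt_min hR' (by positivity)
  -- the key description of the points of a branch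
  have key : ∀ i, ∀ t : ℂ, ‖t‖ < R → ∀ s : ℂ, s ^ N = t ^ M i → ‖s‖ < ρ ∧
      ∃ n < M i, t = (ζ ^ n * s) ^ qf i ∧ Γ i t = ψ (σ^[n] i) s := by
    intro i t ht s hst
    have h1 : ‖s‖ ^ qf i = ‖t‖ := by
      have h2 : (‖s‖ ^ qf i) ^ M i = ‖t‖ ^ M i := by
        rw [← pow_mul, hQq, ← norm_pow, hst, norm_pow]
      exact (pow_left_inj₀ (by positivity) (norm_nonneg _) (hMpos i).ne').1 h2
    have hs : ‖s‖ < ρ := by
      have h2 : ‖s‖ ^ qf i < ρ ^ qf i := by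
        rw [h1]
        refine (ht.trans_le (min_le_right _ _)).trans_le ?_
        refine pow_le_pow_of_le_one hρ.le hρ1.le ?_
        rw [← hQq i]
        exact Nat.le_mul_of_pos_right _ (hMpos i)
      exact lt_of_pow_lt_pow_left₀ _ hρ.le h2
    refine ⟨hs, ?_⟩
    have hsmall : ∀ n, ‖ζ ^ n * s‖ < ρ := by
      intro n
      rw [norm_mul, norm_pow, hζ1, one_pow, one_mul]
      exact hs
    have hΓn : ∀ n < M i, Γ i ((ζ ^ n * s) ^ qf i) = ψ (σ^[n] i) s := by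
      intro n hn
      rw [← (hG _ (hsmall n)).2.2.2 i]
      have hnN : n < N := by
        refine hn.trans_le ?_
        rw [← hQq i]
        exact Nat.le_mul_of_pos_left _ (hQpos i)
      exact (hG s hs).2.2.1 ⟨n, hnN⟩ i
    by_cases hs0 : s = 0
    · subst hs0
      have ht0 : t = 0 := by
        rw [zero_pow hN.ne'] at hst
        exact eq_zero_of_pow_eq_zero hst.symm
      refine ⟨0, hMpos i, ?_, ?_⟩
      · rw [ht0, mul_zero, zero_pow (hQpos i).ne']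
      · have h3 := hΓn 0 (hMpos i)
        rw [mul_zero, zero_pow (hQpos i).ne'] at h3
        rw [ht0]
        exact h3
    · have hprim : IsPrimitiveRoot (ζ ^ qf i) (M i) := hζ.pow hN (hQq i).symm
      have hη : (t / s ^ qf i) ^ M i = 1 := by
        rw [div_pow, ← pow_mul, hQq, ← hst, div_self (pow_ne_zero N hs0)]
      have : NeZero (M i) := ⟨(hMpos i).ne'⟩
      obtain ⟨n, hn, hnη⟩ := hprim.eq_pow_of_pow_eq_one hη
      have htn : t = (ζ ^ n * s) ^ qf i := by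
        have h3 : s ^ qf i ≠ 0 := pow_ne_zero _ hs0
        rw [eq_div_iff h3] at hnη
        rw [← hnη, mul_pow, ← pow_mul, ← pow_mul, mul_comm n]
      refine ⟨n, hn, htn, ?_⟩
      conv_lhs => rw [htn]
      exact hΓn n hn
  refine ⟨k, fun a => Γ (rep a), fun a => M (rep a), fun a => qf (rep a), R, ?_, hR,
    fun a => ⟨hMpos _, hQpos _, hQq _⟩, ?_, fun a => hΓ0 _, ?_, ?_, ?_, ?_, ?_, ?_⟩
  · obtain ⟨a, -, -⟩ := hrep1 ⟨0, hν⟩
    exact Fin.pos a
  · intro a s hs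
    rw [mem_ball, dist_zero_right] at hs
    exact hR'a (by
      rw [dist_zero_right]
      exact hs.trans_le (min_le_left _ _)) _
  · intro a t ht
    rw [mem_ball, dist_zero_right] at ht
    obtain ⟨s, hs⟩ := exists_pow_eq hN (t ^ M (rep a))
    obtain ⟨hs1, n, -, -, h3⟩ := key (rep a) t ht s hs
    have h4 := (hG s hs1).1 (σ^[n] (rep a))
    refine ⟨?_, ?_, ?_⟩
    · show f (Γ (rep a) t) = 0
      rw [h3]
      exact h4.1
    · show e (Γ (rep a) t) = 0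
      rw [h3]
      exact h4.2.1
    · show h (Γ (rep a) t) = t ^ M (rep a)
      rw [h3, ← hs]
      exact h4.2.2
  · intro a b t ht t' ht' hab
    rw [mem_ball, dist_zero_right] at ht ht'
    obtain ⟨s, hs⟩ := exists_pow_eq hN (t ^ M (rep a))
    obtain ⟨hs1, n, hn, h2, h3⟩ := key (rep a) t ht s hs
    obtain ⟨s', hs'⟩ := exists_pow_eq hN (t' ^ M (rep b))
    obtain ⟨hs1', n', hn', h2', h3'⟩ := key (rep b) t' ht' s' hs'
    have h4 := ((hG s hs1).1 (σ^[n] (rep a))).2.2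
    have h4' := ((hG s' hs1').1 (σ^[n'] (rep b))).2.2
    have h5 : s ^ N = s' ^ N := by
      rw [← h4, ← h4', ← h3, ← h3']
      exact congrArg h hab
    by_cases hs0 : s = 0
    · left
      have h6 : t = 0 := by
        rw [h2, hs0, mul_zero, zero_pow (hQpos _).ne']
      have h7 : s' = 0 := by
        rw [hs0, zero_pow hN.ne'] at h5
        exact eq_zero_of_pow_eq_zero h5.symm
      refine ⟨h6, ?_⟩
      rw [h2', h7, mul_zero, zero_pow (hQpos _).ne']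
    · right
      -- use the same `s` for both
      obtain ⟨-, n'', hn'', h2'', h3''⟩ := key (rep b) t' ht' s (by rw [h5, hs'])
      have h6 : ψ (σ^[n] (rep a)) s = ψ (σ^[n''] (rep b)) s := by
        rw [← h3, ← h3'']
        exact hab
      have h7 : σ^[n] (rep a) = σ^[n''] (rep b) := by
        by_contra hne
        exact (hG s hs1).2.1 hs0 _ _ hne h6
      have h8 : a = b := hrep2 _ _ _ _ h7
      refine ⟨h8, ?_⟩
      subst h8
      have h9 : n = n'' := iterate_injOn_Iio_minimalPeriod hn hn'' h7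
      rw [h2, h2'', h9]
  · intro ε hε
    have hε' : 0 < min ε ρ := lt_min hε hρ
    filter_upwards [arc_small A hh h0 hε'] with x hx hfx hex
    obtain ⟨s, hs⟩ := exists_pow_eq hN (h x)
    obtain ⟨h1, h2⟩ := hx s hs
    by_cases hx0 : x = 0
    · obtain ⟨a, -, -⟩ := hrep1 ⟨0, hν⟩
      refine ⟨a, 0, mem_ball_self hε, ?_⟩
      rw [hx0]
      exact (hΓ0 _).symm
    · obtain ⟨h3, j, hj⟩ := h2 hfx hex hx0
      obtain ⟨a, n, hn⟩ := hrep1 j
      have hsρ : ‖s‖ < ρ := h1.trans_le (min_le_right _ _)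
      have hnsmall : ‖ζ ^ n * s‖ = ‖s‖ := by
        rw [norm_mul, norm_pow, hζ1, one_pow, one_mul]
      refine ⟨a, (ζ ^ n * s) ^ qf (rep a), ?_, ?_⟩
      · rw [mem_ball, dist_zero_right, norm_pow, hnsmall]
        have h4 : ‖s‖ ^ qf (rep a) ≤ ‖s‖ ^ 1 :=
          pow_le_pow_of_le_one (norm_nonneg _) (hsρ.trans hρ1).le (hQpos _)
        rw [pow_one] at h4
        exact h4.trans_lt (h1.trans_le (min_le_left _ _))
      · rw [hj]
        show ψ j s = Γ (rep a) ((ζ ^ n * s) ^ qf (rep a))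
        rw [← (hG _ (by rw [hnsmall]; exact hsρ)).2.2.2 (rep a)]
        -- reduce `n` modulo the period
        have h4 : ζ ^ n = ζ ^ (n % N) := by
          conv_lhs => rw [← Nat.div_add_mod n N, pow_add, pow_mul, hζN, one_pow, one_mul]
        have h5 : σ^[n % N] (rep a) = σ^[n] (rep a) := by
          have h6 : M (rep a) ∣ N := ⟨qf (rep a), by rw [mul_comm, hQq]⟩
          rw [← iterate_mod_minimalPeriod_eq (n := n % N), Nat.mod_mod_of_dvd n h6,
            iterate_mod_minimalPeriod_eq]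
        rw [h4, (hG s hsρ).2.2.1 ⟨n % N, Nat.mod_lt _ hN⟩ (rep a)]
        show ψ j s = ψ (σ^[n % N] (rep a)) s
        rw [h5, hn]
  · exact fun a => ⟨rep a, hΓ _⟩
  · intro i
    obtain ⟨a, n, hn⟩ := hrep1 i
    refine ⟨a, ζ ^ n, pow_ne_zero _ hζ0, ?_⟩
    filter_upwards [hiter n (rep a), (tendsto_mul_zero (ζ ^ n)).eventually (hΓ (rep a))] with s
      k1 k2
    rw [hn] at k1
    rw [← k1, k2]
  · intro g hg
    have hgψ : ∀ i, AnalyticAt ℂ (fun s => g (ψ i s)) 0 := fun i =>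
      AnalyticAt.comp_of_eq hg (A.an i) (A.zero i)
    rw [hrep3 (fun i => (analyticOrderAt (fun s => g (ψ i s)) 0).toNat) (by
      intro i
      have h1 : (fun s => g (ψ (σ i) s)) =ᶠ[𝓝 0] fun s => g (ψ i (ζ * s)) := by
        filter_upwards [hσ i] with s hs
        rw [hs]
      rw [analyticOrderAt_congr h1]
      exact congrArg _ (order_comp_mul (fun s => g (ψ i s)) hζ0)), Finset.mul_sum]
    refine Finset.sum_congr rfl fun a _ => ?_
    have h1 : (fun s => g (ψ (rep a) s)) =ᶠ[𝓝 0] fun s => g (Γ (rep a) (s ^ qf (rep a))) := by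
      filter_upwards [hΓ (rep a)] with s hs
      rw [hs]
    have hgΓ : AnalyticAt ℂ (fun s => g (Γ (rep a) s)) 0 :=
      AnalyticAt.comp_of_eq hg (hΓa _) (hΓ0 _)
    rw [analyticOrderAt_congr h1, order_comp_pow hgΓ (hQpos _), ENat.toNat_mul,
      ENat.toNat_natCast]
    have h2 := hQq (rep a)
    show M (rep a) * _ = _
    rw [← h2]
    ring

end Vale.Agent.P298.H941
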