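import Vale.Agent.P298.H941.Branch
import Vale.Agent.P298.H462.Defs

/-!
# P298 (helper941): the vanishing order of the Hamiltonian field along a branch
-/

open Filter Topology Metric

namespace Vale.Agent.P298.H941

open Vale.Agent.P298.H462 (xi Branches)

variable {f e : V → ℂ}

theorem pd_ana {x : V} (hf : AnalyticAt ℂ f x) (k : Fin 3) : AnalyticAt ℂ (pd k f) x :=
  (ContinuousLinearMap.analyticAt (ContinuousLinearMap.apply ℂ ℂ (Pi.single k (1 : ℂ) : V)) _).comp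
    hf.fderiv

theorem minor2_ana {x : V} (hf : AnalyticAt ℂ f x) (he : AnalyticAt ℂ e x) (i j : Fin 3) :
    AnalyticAt ℂ (minor2 i j f e) x :=
  ((pd_ana hf i).mul (pd_ana he j)).sub ((pd_ana hf j).mul (pd_ana he i))

theorem xi_ana {x : V} (hf : AnalyticAt ℂ f x) (he : AnalyticAt ℂ e x) :
    AnalyticAt ℂ (xi f e) x := by
  rw [analyticAt_pi_iff]
  intro k
  fin_cases k
  · exact minor2_ana hf he 1 2
  · exact (minor2_ana hf he 0 2).neg
  · exact minor2_ana hf he 0 1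

theorem fderiv_xi (g : V → ℂ) (x : V) : fderiv ℂ g x (xi f e x) = jac3 f e g x := by
  rw [fderiv_apply3, jac3, Matrix.det_fin_three]
  simp only [xi, minor2, Matrix.of_apply, Matrix.cons_val_zero, Matrix.cons_val_one,
    Matrix.cons_val]
  ring

theorem jac3_ana {g : V → ℂ} {x : V} (hf : AnalyticAt ℂ f x) (he : AnalyticAt ℂ e x)
    (hg : AnalyticAt ℂ g x) : AnalyticAt ℂ (jac3 f e g) x := by
  have h1 : jac3 f e g = fun x => xi f e x 0 * pd 0 g x + xi f e x 1 * pd 1 g x +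
      xi f e x 2 * pd 2 g x := by
    funext x
    rw [← fderiv_xi, fderiv_apply3]
  have h2 := analyticAt_pi_iff.1 (xi_ana hf he)
  rw [h1]
  exact (((h2 0).mul (pd_ana hg 0)).add ((h2 1).mul (pd_ana hg 1))).add
    ((h2 2).mul (pd_ana hg 2))

/-- A holomorphic solution of `γ' = b(s) X(γ)` starting at a zero of `X` is constant. -/
theorem ode_zero {γ : ℂ → V} (hγ : AnalyticAt ℂ γ 0) (γ0 : γ 0 = 0) {X : V → V}
    (hX : AnalyticAt ℂ X 0) (X0 : X 0 = 0) {b : ℂ → ℂ} (hb : ContinuousAt b 0)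
    (h : ∀ᶠ s in 𝓝 (0 : ℂ), deriv γ s = b s • X (γ s)) {U : ℂ → Prop}
    (hU : ∀ᶠ s in 𝓝[≠] (0 : ℂ), U s) : ∃ s, U s ∧ γ s = 0 := by
  obtain ⟨C, hC⟩ := (hX.differentiableAt.hasFDerivAt.isBigO_sub).bound
  simp only [X0, sub_zero] at hC
  have ht : Tendsto γ (𝓝 0) (𝓝 0) := by
    have := hγ.continuousAt.tendsto
    rwa [γ0] at this
  have hbb : ∀ᶠ s in 𝓝 (0 : ℂ), ‖b s‖ < ‖b 0‖ + 1 :=
    hb.norm.eventually_lt continuousAt_const (by simp)
  have hall : ∀ᶠ s in 𝓝 (0 : ℂ), AnalyticAt ℂ γ s ∧ ‖deriv γ s‖ ≤ (‖b 0‖ + 1) * |C| * ‖γ s‖ ∧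
      (s ≠ 0 → U s) := by
    filter_upwards [hγ.eventually_analyticAt, h, ht.eventually hC, hbb,
      eventually_nhdsWithin_iff.1 hU] with s k1 k2 k3 k4 k5
    refine ⟨k1, ?_, k5⟩
    rw [k2, norm_smul, mul_assoc]
    have h1 : C * ‖γ s‖ ≤ |C| * ‖γ s‖ :=
      mul_le_mul_of_nonneg_right (le_abs_self C) (norm_nonneg _)
    exact mul_le_mul k4.le (k3.trans h1) (norm_nonneg _) (by positivity)
  obtain ⟨ε, hε, hεA⟩ := Metric.eventually_nhds_iff.1 hall
  have hball : ∀ x ∈ Set.Icc (0 : ℝ) (ε / 2), dist (x : ℂ) 0 < ε := by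
    intro x hx
    rw [dist_zero_right, Complex.norm_real, Real.norm_eq_abs, abs_of_nonneg hx.1]
    linarith [hx.2]
  have hd : ∀ x ∈ Set.Icc (0 : ℝ) (ε / 2), HasDerivAt (fun x : ℝ => γ x) (deriv γ x) x := by
    intro x hx
    have h1 := (hεA (hball x hx)).1.differentiableAt.hasDerivAt
    have h2 := HasDerivAt.scomp (𝕜 := ℝ) (𝕜' := ℂ) x h1 Complex.ofRealCLM.hasDerivAt
    rw [Complex.ofRealCLM_apply, Complex.ofReal_one, one_smul] at h2
    exact h2
  have hz := eq_zero_of_abs_deriv_le_mul_abs_self_of_eq_zero_right (E := V)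
    (f := fun x : ℝ => γ x) (f' := fun x : ℝ => deriv γ x) (a := 0) (b := ε / 2)
    (K := (‖b 0‖ + 1) * |C|)
    (fun x hx => (hd x hx).continuousAt.continuousWithinAt)
    (fun x hx => (hd x (Set.Ico_subset_Icc_self hx)).hasDerivWithinAt)
    (by simpa using γ0)
    (fun x hx => (hεA (hball x (Set.Ico_subset_Icc_self hx))).2.1)
  have h2 : (ε / 2 : ℝ) ∈ Set.Icc (0 : ℝ) (ε / 2) := ⟨by positivity, le_rfl⟩
  refine ⟨((ε / 2 : ℝ) : ℂ), ?_, hz _ h2⟩
  refine (hεA (hball _ h2)).2.2 ?_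
  rw [Ne, Complex.ofReal_eq_zero]
  positivity

theorem exists_cond (hf : AnalyticAt ℂ f 0) (he : AnalyticAt ℂ e 0) (hxi0 : xi f e 0 = 0)
    (hxi : ∀ᶠ x in 𝓝 (0 : V), f x = 0 → e x = 0 → x ≠ 0 → xi f e x ≠ 0)
    {γ : ℂ → V} (hγ : AnalyticAt ℂ γ 0) (γ0 : γ 0 = 0)
    (l : V →L[ℂ] ℂ) {m : ℕ} (hm : 0 < m)
    (hmem : ∀ᶠ s in 𝓝 (0 : ℂ), f (γ s) = 0 ∧ e (γ s) = 0 ∧ l (γ s) = s ^ m) :
    ∃ (c : ℕ) (u : ℂ → ℂ), 1 ≤ c ∧ AnalyticAt ℂ u 0 ∧ u 0 ≠ 0 ∧
      ∀ᶠ s in 𝓝 (0 : ℂ), s ^ c • deriv γ s = u s • xi f e (γ s) := by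
  have ht : Tendsto γ (𝓝 0) (𝓝 0) := by
    have := hγ.continuousAt.tendsto
    rwa [γ0] at this
  have hmn : (m : ℂ) ≠ 0 := Nat.cast_ne_zero.2 hm.ne'
  -- the velocity is a multiple of the field
  have hline : ∀ᶠ s in 𝓝[≠] (0 : ℂ), ∃ a : ℂ, deriv γ s = a • xi f e (γ s) ∧
      (m : ℂ) * s ^ (m - 1) = a * l (xi f e (γ s)) := by
    filter_upwards [(ht.eventually hf.eventually_analyticAt).filter_mono nhdsWithin_le_nhds,
      (ht.eventually he.eventually_analyticAt).filter_mono nhdsWithin_le_nhds,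
      (ht.eventually hxi).filter_mono nhdsWithin_le_nhds,
      (eventually_eventually_nhds.2 hmem).filter_mono nhdsWithin_le_nhds,
      hγ.eventually_analyticAt.filter_mono nhdsWithin_le_nhds,
      self_mem_nhdsWithin] with s k3 k4 k5 k6 k7 k8
    have hs0 : s ≠ 0 := k8
    have hm' := k6.self_of_nhds
    have hne : γ s ≠ 0 := by
      intro h
      have h1 := hm'.2.2
      rw [h, map_zero] at h1
      exact pow_ne_zero m hs0 h1.symm
    have hx := k5 hm'.1 hm'.2.1 hne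
    have d1 := fderiv_arc_zero k7 k3 (by filter_upwards [k6] with s' hs'; exact hs'.1)
    have d2 := fderiv_arc_zero k7 k4 (by filter_upwards [k6] with s' hs'; exact hs'.2.1)
    obtain ⟨a, ha⟩ := kernel_line hx d1 d2
    refine ⟨a, ha, ?_⟩
    have h3 : HasDerivAt (fun s => l (γ s)) (l (deriv γ s)) s :=
      l.hasFDerivAt.comp_hasDerivAt s k7.differentiableAt.hasDerivAt
    have h4 : HasDerivAt (fun s : ℂ => s ^ m) ((m : ℂ) * s ^ (m - 1)) s := hasDerivAt_pow m s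
    have h5 : (fun s => l (γ s)) =ᶠ[𝓝 s] fun s => s ^ m := by
      filter_upwards [k6] with s' hs'
      exact hs'.2.2
    rw [h4.unique (h3.congr_of_eventuallyEq h5.symm), ha, map_smul, smul_eq_mul]
  -- the order of the field along the branch
  set j : ℂ → ℂ := fun s => l (xi f e (γ s)) with hj
  have hja : AnalyticAt ℂ j 0 := by
    have h1 : AnalyticAt ℂ (fun s => xi f e (γ s)) 0 :=
      AnalyticAt.comp_of_eq (xi_ana hf he) hγ γ0
    exact (l.analyticAt _).comp h1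
  have hjne : analyticOrderAt j 0 ≠ ⊤ := by
    intro h
    rw [analyticOrderAt_eq_top] at h
    have h1 : ∀ᶠ s in 𝓝[≠] (0 : ℂ), False := by
      filter_upwards [hline, h.filter_mono nhdsWithin_le_nhds, self_mem_nhdsWithin] with s k1 k2 k3
      obtain ⟨a, -, ha⟩ := k1
      have hs0 : s ≠ 0 := k3
      have k2' : l (xi f e (γ s)) = 0 := k2
      rw [k2', mul_zero] at ha
      exact mul_ne_zero hmn (pow_ne_zero _ hs0) ha
    exact h1.exists.elim fun _ h => h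
  obtain ⟨v, hv, hv0, hjv⟩ := (hja.analyticOrderAt_ne_top).1 hjne
  set κ := analyticOrderNatAt j 0 with hκ
  have hvne : ∀ᶠ s in 𝓝 (0 : ℂ), v s ≠ 0 := hv.continuousAt.eventually_ne hv0
  -- `κ ≥ m`
  have hκm : m ≤ κ := by
    by_contra hlt
    push Not at hlt
    have hode : ∀ᶠ s in 𝓝[≠] (0 : ℂ), deriv γ s =
        ((m : ℂ) * s ^ (m - 1 - κ) / v s) • xi f e (γ s) := by
      filter_upwards [hline, hjv.filter_mono nhdsWithin_le_nhds,
        hvne.filter_mono nhdsWithin_le_nhds, self_mem_nhdsWithin] with s k1 k2 k3 k4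
      have hs0 : s ≠ 0 := k4
      obtain ⟨a, ha1, ha2⟩ := k1
      rw [ha1]
      congr 1
      rw [eq_div_iff k3]
      have h1 : a * (s ^ κ * v s) = m * s ^ (m - 1) := by
        rw [ha2]
        congr 1
        rw [sub_zero, smul_eq_mul] at k2
        exact k2.symm
      have h2 : s ^ (m - 1) = s ^ (m - 1 - κ) * s ^ κ := by
        rw [← pow_add]
        congr 1
        omega
      rw [h2] at h1
      have h3 : s ^ κ ≠ 0 := pow_ne_zero _ hs0
      apply mul_right_cancel₀ h3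
      linear_combination h1
    have hb : AnalyticAt ℂ (fun s : ℂ => (m : ℂ) * s ^ (m - 1 - κ) / v s) 0 :=
      (analyticAt_const.mul (analyticAt_id.pow _)).div hv hv0
    have hode' : ∀ᶠ s in 𝓝 (0 : ℂ), deriv γ s =
        ((m : ℂ) * s ^ (m - 1 - κ) / v s) • xi f e (γ s) := by
      have h1 : AnalyticAt ℂ (fun s => xi f e (γ s)) 0 :=
        AnalyticAt.comp_of_eq (xi_ana hf he) hγ γ0
      exact (hγ.deriv.frequently_eq_iff_eventually_eq (hb.smul h1)).1 hode.frequently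
    obtain ⟨s, hs1, hs2⟩ := ode_zero hγ γ0 (xi_ana hf he) hxi0 hb.continuousAt hode'
      (U := fun s => s ≠ 0 ∧ l (γ s) = s ^ m) (by
        filter_upwards [hmem.filter_mono nhdsWithin_le_nhds, self_mem_nhdsWithin] with s k1 k2
        exact ⟨k2, k1.2.2⟩)
    have h3 := hs1.2
    rw [hs2, map_zero] at h3
    exact pow_ne_zero m hs1.1 h3.symm
  refine ⟨κ - (m - 1), fun s => m / v s, by omega, analyticAt_const.div hv hv0,
    div_ne_zero hmn hv0, ?_⟩
  have hc : κ - (m - 1) ≠ 0 := by omega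
  have h1 : ∀ᶠ s in 𝓝[≠] (0 : ℂ), s ^ (κ - (m - 1)) • deriv γ s =
      (m / v s) • xi f e (γ s) := by
    filter_upwards [hline, hjv.filter_mono nhdsWithin_le_nhds,
      hvne.filter_mono nhdsWithin_le_nhds, self_mem_nhdsWithin] with s k1 k2 k3 k4
    have hs0 : s ≠ 0 := k4
    obtain ⟨a, ha1, ha2⟩ := k1
    rw [ha1, smul_smul]
    congr 1
    rw [eq_div_iff k3]
    have h1 : a * (s ^ κ * v s) = m * s ^ (m - 1) := by
      rw [ha2]
      congr 1
      rw [sub_zero, smul_eq_mul] at k2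
      exact k2.symm
    have h2 : s ^ κ = s ^ (κ - (m - 1)) * s ^ (m - 1) := by
      rw [← pow_add]
      congr 1
      omega
    rw [h2] at h1
    have h3 : s ^ (m - 1) ≠ 0 := pow_ne_zero _ hs0
    apply mul_right_cancel₀ h3
    linear_combination h1
  filter_upwards [eventually_nhdsWithin_iff.1 h1] with s hs
  by_cases hs0 : s = 0
  · rw [hs0, γ0, hxi0, zero_pow hc, zero_smul, smul_zero]
  · exact hs hs0

end Vale.Agent.P298.H941
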