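import Vale.Agent.P298.H941.Elim

/-!
# P298 (helper941): the number of points of the curve over a point near the origin
-/

open Filter Topology Polynomial

namespace Vale.Agent.P298.H941

open Vale.Agent.P267.H823

theorem norm_E3 (p : E3) : ‖p‖ = max ‖p.1‖ (max ‖p.2.1‖ ‖p.2.2‖) := rfl

theorem hasDerivAt_curve {G : E3 → ℂ} {ζ : ℂ → ℂ} {x y : ℂ} (hζ : AnalyticAt ℂ ζ y)
    (hG : AnalyticAt ℂ G (ζ y, (y, x))) :
    HasDerivAt (fun y' => G (ζ y', (y', x))) (fderiv ℂ G (ζ y, (y, x)) (deriv ζ y, (1, 0))) y := by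
  have h1 : HasDerivAt (fun y' : ℂ => ((ζ y', (y', x)) : E3)) (deriv ζ y, (1, 0)) y :=
    hζ.differentiableAt.hasDerivAt.prodMk ((hasDerivAt_id y).prodMk (hasDerivAt_const y x))
  exact hG.differentiableAt.hasFDerivAt.comp_hasDerivAt y h1

theorem hasDerivAt_line {G : E3 → ℂ} {z : ℂ} {w : ℂ × ℂ} (hG : AnalyticAt ℂ G (z, w)) :
    HasDerivAt (fun z' => G (z', w)) (fderiv ℂ G (z, w) (1, 0)) z := by
  have h1 : HasDerivAt (fun z' : ℂ => ((z', w) : E3)) (1, 0) z :=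
    (hasDerivAt_id z).prodMk (hasDerivAt_const z w)
  exact hG.differentiableAt.hasFDerivAt.comp_hasDerivAt z h1

/-- The elimination theorem: the dimension of `O/(F, E, x)` is finite and at most the number of
the points of the curve over `x`, for small `x`. -/
theorem elim_main {F E : E3 → ℂ} (hF : AnalyticAt ℂ F 0) (hE : AnalyticAt ℂ E 0) {b : ℕ}
    {u : ℂ → ℂ} (hu : AnalyticAt ℂ u 0) (hu0 : u 0 ≠ 0)
    (hFu : ∀ᶠ z in 𝓝 (0 : ℂ), F (z, 0) = z ^ b * u z)
    (h2 : ∀ᶠ p : E3 in 𝓝 0, F p = 0 → E p = 0 → p.2.2 = 0 → p = 0)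
    (h3 : ∀ᶠ p : E3 in 𝓝 0, F p = 0 → E p = 0 → p ≠ 0 → fderiv ℂ F p (1, 0) ≠ 0 ∧
      ∀ w : E3, w.2.2 = 0 → fderiv ℂ F p w = 0 → fderiv ℂ E p w = 0 → w = 0) :
    ∃ N : ℕ, (Module.Finite ℂ (O E3 ⧸ Jd ![F, E, X3] (ana3 hF hE (ana_X3 0))) ∧
      Module.finrank ℂ (O E3 ⧸ Jd ![F, E, X3] (ana3 hF hE (ana_X3 0))) ≤ N) ∧
      ∀ U ∈ 𝓝 (0 : E3), ∀ᶠ x in 𝓝[≠] (0 : ℂ), ∃ T : Finset E3, T.card = N ∧
        ∀ p ∈ T, p ∈ U ∧ F p = 0 ∧ E p = 0 ∧ p.2.2 = x := by
  classical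
  have hF' : AnalyticAt ℂ F ((0 : ℂ), (0 : ℂ × ℂ)) := hF
  have hE' : AnalyticAt ℂ E ((0 : ℂ), (0 : ℂ × ℂ)) := hE
  obtain ⟨P, v, hPm, hPa, hP0, hva, hv0, hFv⟩ := weierstrass hF' hu hu0 hFu
  obtain ⟨v', r, hv'a, hra, hEv⟩ := weierstrass_division hF' hu hu0 hFu hE'
  have hFv' : ∀ᶠ p : E3 in 𝓝 0, F p * v p = (P p.2).eval p.1 := hFv
  have hEv' : ∀ᶠ p : E3 in 𝓝 0, E p = v' p * F p + ∑ i, r i p.2 * p.1 ^ (i : ℕ) := hEv
  have hva' : AnalyticAt ℂ v (0 : E3) := hva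
  have hv'a' : AnalyticAt ℂ v' (0 : E3) := hv'a
  -- the good points
  set Good : E3 → Prop := fun p => AnalyticAt ℂ F p ∧ AnalyticAt ℂ E p ∧ AnalyticAt ℂ v p ∧
    v p ≠ 0 ∧ F p * v p = (P p.2).eval p.1 ∧
    E p = v' p * F p + ∑ i, r i p.2 * p.1 ^ (i : ℕ) ∧
    (F p = 0 → E p = 0 → p.2.2 = 0 → p = 0) ∧
    (F p = 0 → E p = 0 → p ≠ 0 → fderiv ℂ F p (1, 0) ≠ 0 ∧
      ∀ w : E3, w.2.2 = 0 → fderiv ℂ F p w = 0 → fderiv ℂ E p w = 0 → w = 0) with hGood
  have hgood0 : ∀ᶠ p : E3 in 𝓝 0, Good p := by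
    filter_upwards [hF.eventually_analyticAt, hE.eventually_analyticAt,
      hva'.eventually_analyticAt, hva'.continuousAt.eventually_ne hv0, hFv', hEv', h2, h3] with
      p h1 h2 h3 h4 h5 h6 h7 h8
    exact ⟨h1, h2, h3, h4, h5, h6, h7, h8⟩
  obtain ⟨ε, hε, hεG⟩ := Metric.eventually_nhds_iff.1 (eventually_eventually_nhds.2 hgood0)
  have hgood : ∀ p : E3, ‖p‖ < ε → ∀ᶠ q in 𝓝 p, Good q := fun p hp => hεG (by
    rwa [dist_zero_right])
  -- common roots are points of the curve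
  have hcommon : ∀ p : E3, ‖p‖ < ε → ((P p.2).eval p.1 = 0 ∧ (remP r p.2).eval p.1 = 0 ↔
      F p = 0 ∧ E p = 0) := by
    intro p hp
    obtain ⟨-, -, -, g4, g5, g6, -, -⟩ := (hgood p hp).self_of_nhds
    rw [remP_eval]
    constructor
    · rintro ⟨k1, k2⟩
      have k3 : F p = 0 := by
        rw [k1] at g5
        exact (mul_eq_zero.1 g5).resolve_right g4
      exact ⟨k3, by rw [g6, k3, k2, mul_zero, add_zero]⟩
    · rintro ⟨k1, k2⟩
      refine ⟨by rw [← g5, k1, zero_mul], ?_⟩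
      rw [k1, k2, mul_zero, zero_add] at g6
      exact g6.symm
  have hPc : ∀ i, ContinuousAt (fun y => (P y).coeff i) 0 := fun i => (hPa i).continuousAt
  -- the resultant
  set D : ℂ × ℂ → ℂ := fun w => resultant (P w) (remP r w) b b with hD
  have hDa : AnalyticAt ℂ D 0 := analyticAt_resultant hPa (fun i => remP_coeff hra i) b b
  have hDzero : ∀ w, D w = 0 ↔ ∃ z, (P w).eval z = 0 ∧ (remP r w).eval z = 0 := fun w =>
    resultant_monic_eq_zero_iff (hPm w).1 (hPm w).2 (remP_natDegree _ _)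
  have hd0 : AnalyticAt ℂ (fun y : ℂ => D (y, 0)) 0 :=
    AnalyticAt.comp_of_eq (g := D) (f := fun y : ℂ => ((y, 0) : ℂ × ℂ)) hDa (ana_inl 0) rfl
  have hd0ne : ∀ᶠ y : ℂ in 𝓝 0, y ≠ 0 → D (y, 0) ≠ 0 := by
    have k1 : Tendsto (fun y : ℂ => ((y, 0) : ℂ × ℂ)) (𝓝 0) (𝓝 0) := (ana_inl 0).continuousAt
    have k2 : ∀ᶠ y : ℂ in 𝓝 0, ‖y‖ < ε := by
      have := continuous_norm.continuousAt (x := (0 : ℂ))
      exact this.eventually_lt continuousAt_const (by rw [norm_zero]; exact hε)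
    filter_upwards [k1.eventually (roots_small hPm hPc hP0 hε), k2] with y hy1 hy2 hy0 hDy
    obtain ⟨z, hz1, hz2⟩ := (hDzero _).1 hDy
    have hz : ‖z‖ < ε := hy1 z hz1
    have hp : ‖((z, (y, 0)) : E3)‖ < ε := by
      rw [norm_E3]
      simp only [norm_zero]
      exact max_lt hz (max_lt hy2 hε)
    obtain ⟨k3, k4⟩ := (hcommon _ hp).1 ⟨hz1, hz2⟩
    obtain ⟨-, -, -, -, -, -, g7, -⟩ := (hgood _ hp).self_of_nhds
    have k5 := g7 k3 k4 rfl
    exact hy0 (congrArg (fun p : E3 => p.2.1) k5)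
  have hd0top : analyticOrderAt (fun y : ℂ => D (y, 0)) 0 ≠ ⊤ := by
    rw [Ne, analyticOrderAt_eq_top]
    intro hcon
    have k1 : ∀ᶠ y : ℂ in 𝓝[≠] 0, False := by
      filter_upwards [hd0ne.filter_mono nhdsWithin_le_nhds, hcon.filter_mono nhdsWithin_le_nhds,
        self_mem_nhdsWithin] with y k1 k2 k3
      exact k1 k3 k2
    exact k1.exists.elim fun _ h => h
  obtain ⟨N, hN⟩ := ENat.ne_top_iff_exists.1 hd0top
  refine ⟨N, dim_le hF hE hu hu0 hFu hPm hPa hva' hFv' hv'a' hra hEv' hN.symm, ?_⟩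
  intro U hU
  -- the Weierstrass polynomial of the resultant
  obtain ⟨uD, huD, huD0, hDu⟩ := (hd0.analyticOrderAt_eq_natCast).1 hN.symm
  have hDa' : AnalyticAt ℂ D ((0 : ℂ), (0 : ℂ)) := hDa
  obtain ⟨W, vD, hWm, hWa, hW0, hvDa, hvD0, hDW⟩ := weierstrass (p0 := (0 : ℂ)) hDa' huD huD0 (by
    filter_upwards [hDu] with y hy
    rw [hy, sub_zero, smul_eq_mul])
  obtain ⟨ε₁, hε₁, hε₁U⟩ := Metric.mem_nhds_iff.1 hU
  set ε' := min ε ε₁ with hε'
  have hε'0 : 0 < ε' := lt_min hε hε₁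
  set Good2 : ℂ × ℂ → Prop := fun w => (∀ i, AnalyticAt ℂ (fun w => (P w).coeff i) w) ∧
    (∀ i, AnalyticAt ℂ (r i) w) ∧ AnalyticAt ℂ vD w ∧ vD w ≠ 0 ∧
    D w * vD w = (W w.2).eval w.1 ∧ ∀ z, (P w).eval z = 0 → ‖z‖ < ε' with hGood2
  have hPall : ∀ᶠ w : ℂ × ℂ in 𝓝 0, ∀ i, AnalyticAt ℂ (fun w => (P w).coeff i) w := by
    have k1 : ∀ᶠ w : ℂ × ℂ in 𝓝 0, ∀ i : Fin (b + 1), AnalyticAt ℂ (fun w => (P w).coeff i) w :=
      eventually_all.2 fun i => (hPa i).eventually_analyticAt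
    filter_upwards [k1] with w hw i
    rcases lt_or_ge i (b + 1) with hi | hi
    · exact hw ⟨i, hi⟩
    · have k2 : (fun w => (P w).coeff i) = fun _ => 0 := by
        funext w'
        exact coeff_eq_zero_of_natDegree_lt (by rw [(hPm w').2]; omega)
      rw [k2]
      exact analyticAt_const
  have hvDa' : AnalyticAt ℂ vD (0 : ℂ × ℂ) := hvDa
  have hDW' : ∀ᶠ w : ℂ × ℂ in 𝓝 0, D w * vD w = (W w.2).eval w.1 := hDW
  have hgood20 : ∀ᶠ w : ℂ × ℂ in 𝓝 0, Good2 w := by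
    filter_upwards [hPall, eventually_all.2 fun i => (hra i).eventually_analyticAt,
      hvDa'.eventually_analyticAt, hvDa'.continuousAt.eventually_ne hvD0, hDW',
      roots_small hPm hPc hP0 hε'0] with w k1 k2 k3 k4 k5 k6
    exact ⟨k1, k2, k3, k4, k5, k6⟩
  obtain ⟨δ, hδ, hδG⟩ := Metric.eventually_nhds_iff.1 (eventually_eventually_nhds.2 hgood20)
  have hgood2 : ∀ w : ℂ × ℂ, ‖w‖ < δ → ∀ᶠ w' in 𝓝 w, Good2 w' := fun w hw => hδG (by
    rwa [dist_zero_right])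
  set δ' := min δ ε' with hδ'
  have hδ'0 : 0 < δ' := lt_min hδ hε'0
  have hWsmall : ∀ᶠ x : ℂ in 𝓝 0, ∀ y, (W x).eval y = 0 → ‖y‖ < δ' :=
    roots_small hWm (fun i => (hWa i).continuousAt) hW0 hδ'0
  have hxsmall : ∀ᶠ x : ℂ in 𝓝 0, ‖x‖ < δ' := by
    have := continuous_norm.continuousAt (x := (0 : ℂ))
    exact this.eventually_lt continuousAt_const (by rw [norm_zero]; exact hδ'0)
  filter_upwards [hWsmall.filter_mono nhdsWithin_le_nhds,
    hxsmall.filter_mono nhdsWithin_le_nhds, self_mem_nhdsWithin] with x hx1 hx2 hx0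
  have hx0' : x ≠ 0 := hx0
  set Ys := (W x).roots.toFinset with hYs
  set S : ℂ → Finset ℂ := fun y =>
    (P (y, x)).roots.toFinset.filter (fun z => (remP r (y, x)).eval z = 0) with hS
  have hSmem : ∀ y z, z ∈ S y ↔ (P (y, x)).eval z = 0 ∧ (remP r (y, x)).eval z = 0 := by
    intro y z
    rw [hS]
    simp only [Finset.mem_filter, Multiset.mem_toFinset, mem_roots (hPm (y, x)).1.ne_zero,
      IsRoot.def]
  have hYmem : ∀ y ∈ Ys, (W x).eval y = 0 := by
    intro y hy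
    rw [hYs, Multiset.mem_toFinset, mem_roots (hWm x).1.ne_zero] at hy
    exact hy
  -- points are small
  have hsmall : ∀ y ∈ Ys, ∀ z ∈ S y, ‖((z, (y, x)) : E3)‖ < ε' := by
    intro y hy z hz
    have k1 : ‖y‖ < δ' := hx1 y (hYmem y hy)
    have k2 : ‖((y, x) : ℂ × ℂ)‖ < δ := by
      rw [Prod.norm_mk]
      exact (max_lt k1 hx2).trans_le (min_le_left _ _)
    obtain ⟨-, -, -, -, -, g6⟩ := (hgood2 _ k2).self_of_nhds
    have k3 : ‖z‖ < ε' := g6 z ((hSmem y z).1 hz).1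
    rw [norm_E3]
    exact max_lt k3 ((max_lt k1 hx2).trans_le (min_le_right _ _))
  -- the multiplicities
  have hmult : ∀ y ∈ Ys, (W x).rootMultiplicity y = (S y).card := by
    intro y hy
    have k1 : ‖y‖ < δ' := hx1 y (hYmem y hy)
    have k2 : ‖((y, x) : ℂ × ℂ)‖ < δ := by
      rw [Prod.norm_mk]
      exact (max_lt k1 hx2).trans_le (min_le_left _ _)
    obtain ⟨g1, g2, g3, g4, g5, g6⟩ := (hgood2 _ k2).self_of_nhds
    have hin : AnalyticAt ℂ (fun y' : ℂ => ((y', x) : ℂ × ℂ)) y :=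
      analyticAt_id.prod analyticAt_const
    have hPy : ∀ i, AnalyticAt ℂ (fun y' : ℂ => (P (y', x)).coeff i) y := fun i =>
      AnalyticAt.comp_of_eq (g1 i) hin rfl
    have hRy : ∀ i, AnalyticAt ℂ (fun y' : ℂ => (remP r (y', x)).coeff i) y := fun i =>
      AnalyticAt.comp_of_eq (remP_coeff g2 i) hin rfl
    have hord : analyticOrderAt (fun y' : ℂ => resultant (P (y', x)) (remP r (y', x)) b b) y =
        (S y).card := by
      refine order_resultant (R := fun y' : ℂ => remP r (y', x)) (fun y' => remP_natDegree _ _)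
        hRy _ b (fun y' : ℂ => P (y', x)) (S y) rfl (fun y' => hPm _) hPy (hSmem y) ?_ ?_
      · intro z hz
        have hp' := hsmall y hy z hz
        have hp : ‖((z, (y, x)) : E3)‖ < ε := hp'.trans_le (min_le_left _ _)
        obtain ⟨f1, f2, f3, f4, f5, f6, f7, f8⟩ := (hgood _ hp).self_of_nhds
        obtain ⟨k3, k4⟩ := (hcommon _ hp).1 ((hSmem y z).1 hz)
        have hne : ((z, (y, x)) : E3) ≠ 0 := fun h => hx0' (congrArg (fun p : E3 => p.2.2) h)
        obtain ⟨k5, -⟩ := f8 k3 k4 hne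
        refine rootMultiplicity_one (hPm _).1.ne_zero ((hSmem y z).1 hz).1 ?_
        have d1 := hasDerivAt_line f1
        have d2 := hasDerivAt_line f3
        have d3 := d1.mul d2
        have hcont : ContinuousAt (fun z' : ℂ => ((z', (y, x)) : E3)) z :=
          continuousAt_id.prodMk continuousAt_const
        have d4 : (fun z' => (P (y, x)).eval z') =ᶠ[𝓝 z]
            (fun z' => F (z', (y, x))) * fun z' => v (z', (y, x)) := by
          filter_upwards [hcont.eventually (hgood _ hp)] with z' hz'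
          exact hz'.2.2.2.2.1.symm
        have d5 := (d3.congr_of_eventuallyEq d4).unique ((P (y, x)).hasDerivAt z)
        rw [← d5, k3, zero_mul, add_zero]
        exact mul_ne_zero k5 f4
      · intro z hz ζ hζa hζ0 hζP
        have hp' := hsmall y hy z hz
        have hp : ‖((z, (y, x)) : E3)‖ < ε := hp'.trans_le (min_le_left _ _)
        obtain ⟨f1, f2, f3, f4, f5, f6, f7, f8⟩ := (hgood _ hp).self_of_nhds
        obtain ⟨k3, k4⟩ := (hcommon _ hp).1 ((hSmem y z).1 hz)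
        have hne : ((z, (y, x)) : E3) ≠ 0 := fun h => hx0' (congrArg (fun p : E3 => p.2.2) h)
        obtain ⟨-, k5⟩ := f8 k3 k4 hne
        have hcur : AnalyticAt ℂ (fun y' : ℂ => ((ζ y', (y', x)) : E3)) y :=
          hζa.prod (analyticAt_id.prod analyticAt_const)
        have hcont : Tendsto (fun y' : ℂ => ((ζ y', (y', x)) : E3)) (𝓝 y) (𝓝 (z, (y, x))) := by
          have := hcur.continuousAt.tendsto
          rwa [hζ0] at this
        have hnear := hcont.eventually (hgood _ hp)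
        have e1 : (fun y' => F (ζ y', (y', x))) =ᶠ[𝓝 y] fun _ => 0 := by
          filter_upwards [hnear, hζP] with y' h1 h2
          obtain ⟨-, -, -, g4, g5, -, -, -⟩ := h1
          rw [h2] at g5
          exact (mul_eq_zero.1 g5).resolve_right g4
        have e2 : (fun y' => (remP r (y', x)).eval (ζ y')) =ᶠ[𝓝 y]
            fun y' => E (ζ y', (y', x)) := by
          filter_upwards [hnear, e1] with y' h1 h2
          obtain ⟨-, -, -, -, -, g6, -, -⟩ := h1
          rw [remP_eval, g6, h2, mul_zero, zero_add]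
        have hFa : AnalyticAt ℂ F (ζ y, (y, x)) := by rw [hζ0]; exact f1
        have hEa : AnalyticAt ℂ E (ζ y, (y, x)) := by rw [hζ0]; exact f2
        have d1 := hasDerivAt_curve hζa hFa
        have d2 := hasDerivAt_curve hζa hEa
        have d3 : fderiv ℂ F (ζ y, (y, x)) (deriv ζ y, (1, 0)) = 0 :=
          (d1.congr_of_eventuallyEq e1.symm).unique (hasDerivAt_const y 0)
        rw [analyticOrderAt_congr e2]
        have hEc : AnalyticAt ℂ (fun y' => E (ζ y', (y', x))) y :=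
          AnalyticAt.comp_of_eq hEa hcur rfl
        refine hEc.analyticOrderAt_eq_one_of_zero_deriv_ne_zero ?_ ?_
        · rw [hζ0]
          exact k4
        · rw [d2.deriv]
          intro h
          rw [hζ0] at h d3
          have k6 := k5 _ rfl d3 h
          exact one_ne_zero (congrArg (fun p : E3 => p.2.1) k6)
    have hWord := analyticOrderAt_eval (hWm x).1.ne_zero y
    have hDy : AnalyticAt ℂ (fun y' : ℂ => resultant (P (y', x)) (remP r (y', x)) b b) y :=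
      analyticAt_resultant hPy hRy b b
    have hvy : AnalyticAt ℂ (fun y' : ℂ => vD (y', x)) y := AnalyticAt.comp_of_eq g3 hin rfl
    have hcont : ContinuousAt (fun y' : ℂ => ((y', x) : ℂ × ℂ)) y := hin.continuousAt
    have hprod : (fun y' => (W x).eval y') =ᶠ[𝓝 y]
        (fun y' : ℂ => resultant (P (y', x)) (remP r (y', x)) b b) * fun y' => vD (y', x) := by
      filter_upwards [hcont.eventually (hgood2 _ k2)] with y' hy'
      exact hy'.2.2.2.2.1.symm
    rw [analyticOrderAt_congr hprod, analyticOrderAt_mul hDy hvy, hord,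
      hvy.analyticOrderAt_eq_zero.2 g4, add_zero] at hWord
    exact_mod_cast hWord.symm
  refine ⟨(Ys.sigma S).image fun q : (_ : ℂ) × ℂ => ((q.2, (q.1, x)) : E3), ?_, ?_⟩
  · rw [Finset.card_image_of_injective, Finset.card_sigma,
      ← Finset.sum_congr rfl hmult]
    · exact card_roots_sum (hWm x).2
    · rintro ⟨y, z⟩ ⟨y', z'⟩ h
      simp only [Prod.mk.injEq] at h
      obtain ⟨h1, h2, -⟩ := h
      subst h1
      subst h2
      rfl
  · intro p hp
    rw [Finset.mem_image] at hp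
    obtain ⟨⟨y, z⟩, hq, rfl⟩ := hp
    rw [Finset.mem_sigma] at hq
    have k1 := hsmall y hq.1 z hq.2
    have k2 : ‖((z, (y, x)) : E3)‖ < ε := k1.trans_le (min_le_left _ _)
    have k3 := (hcommon _ k2).1 ((hSmem y z).1 hq.2)
    refine ⟨hε₁U ?_, k3.1, k3.2, rfl⟩
    rw [Metric.mem_ball, dist_zero_right]
    exact k1.trans_le (min_le_right _ _)

end Vale.Agent.P298.H941
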