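import Vale.Agent.P298.H941.Iso
import Vale.Agent.P298.H941.Elim2

/-!
# P298 (helper941): the choice of the direction of the first projection
-/

open Filter Topology Polynomial

namespace Vale.Agent.P298.H941

theorem line_zero {G : E3 → ℂ} {ρ : ℝ} (hG : ∀ p : E3, ‖p‖ < ρ → AnalyticAt ℂ G p) {v : E3}
    (hv : ‖v‖ < ρ) (h : ∀ᶠ t in 𝓝 (0 : ℂ), G (t • v) = 0) : G v = 0 := by
  set S : Set ℂ := {t : ℂ | ‖t • v‖ < ρ} with hS
  have hρ : 0 < ρ := (norm_nonneg v).trans_lt hv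
  have hconv : Convex ℝ S := by
    have h1 : S = (fun t : ℂ => t • v) ⁻¹' Metric.ball (0 : E3) ρ := by
      ext t
      rw [Set.mem_preimage, Metric.mem_ball, dist_zero_right]
      rfl
    rw [h1]
    have h2 : IsLinearMap ℝ (fun t : ℂ => t • v) :=
      { map_add := fun a b => add_smul a b v
        map_smul := fun a b => by rw [smul_assoc] }
    exact (convex_ball (0 : E3) ρ).is_linear_preimage h2
  have han : AnalyticOnNhd ℂ (fun t : ℂ => G (t • v)) S := by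
    intro t ht
    have h2 : AnalyticAt ℂ (fun t : ℂ => t • v) t := analyticAt_id.smul analyticAt_const
    exact AnalyticAt.comp_of_eq (g := G) (hG _ ht) h2 rfl
  have h0 : (0 : ℂ) ∈ S := by
    show ‖(0 : ℂ) • v‖ < ρ
    rw [zero_smul, norm_zero]
    exact hρ
  have h1 : (1 : ℂ) ∈ S := by
    show ‖(1 : ℂ) • v‖ < ρ
    rw [one_smul]
    exact hv
  have h3 := han.eqOn_zero_of_preconnected_of_eventuallyEq_zero hconv.isPreconnected h0 h h1
  simpa using h3

theorem exists_ball {G : E3 → ℂ} (hG : AnalyticAt ℂ G 0) :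
    ∃ ρ > 0, ∀ p : E3, ‖p‖ < ρ → AnalyticAt ℂ G p := by
  obtain ⟨ρ, hρ, h⟩ := Metric.eventually_nhds_iff.1 hG.eventually_analyticAt
  exact ⟨ρ, hρ, fun p hp => h (by rwa [dist_zero_right])⟩

theorem exists_dir {F E : E3 → ℂ} (hF : AnalyticAt ℂ F 0) (hE : AnalyticAt ℂ E 0) (hE0 : E 0 = 0)
    (hiso : ∀ᶠ p : E3 in 𝓝 0, F p = 0 → E p = 0 → p.2.2 = 0 → p = 0) :
    ∃ c : ℂ, ¬ ∀ᶠ t in 𝓝 (0 : ℂ), F (t, (c * t, 0)) = 0 := by
  by_contra hcon
  push Not at hcon
  obtain ⟨ρ, hρ, hρF⟩ := exists_ball hF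
  have h1 : ∀ z y : ℂ, z ≠ 0 → ‖((z, (y, 0)) : E3)‖ < ρ → F (z, (y, 0)) = 0 := by
    intro z y hz hzy
    refine line_zero hρF hzy ?_
    have h2 := hcon (y / z)
    have h3 : Tendsto (fun t : ℂ => t * z) (𝓝 0) (𝓝 0) := by
      have : ContinuousAt (fun t : ℂ => t * z) 0 := by fun_prop
      simpa [ContinuousAt] using this
    filter_upwards [h3.eventually h2] with t ht
    have h4 : t • ((z, (y, 0)) : E3) = (t * z, (y / z * (t * z), 0)) := by
      ext
      · rfl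
      · show t * y = y / z * (t * z)
        field_simp
      · show t * 0 = 0
        rw [mul_zero]
    rw [h4]
    exact ht
  have h2 : ∀ z y : ℂ, ‖((z, (y, 0)) : E3)‖ < ρ → F (z, (y, 0)) = 0 := by
    intro z y hzy
    by_cases hz : z = 0
    · subst hz
      have hc : ContinuousAt (fun z : ℂ => F (z, (y, 0))) 0 := by
        have h3 : ContinuousAt (fun z : ℂ => ((z, (y, 0)) : E3)) 0 :=
          continuousAt_id.prodMk continuousAt_const
        exact ContinuousAt.comp (g := F) (hρF _ hzy).continuousAt h3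
      have hn : ∀ᶠ z : ℂ in 𝓝[≠] 0, F (z, (y, 0)) = 0 := by
        have h3 : ContinuousAt (fun z : ℂ => ‖((z, (y, 0)) : E3)‖) 0 :=
          (continuousAt_id.prodMk continuousAt_const).norm
        have h4 := h3.eventually_lt continuousAt_const hzy
        filter_upwards [h4.filter_mono nhdsWithin_le_nhds, self_mem_nhdsWithin] with z k1 k2
        exact h1 z y k2 k1
      have h5 : Tendsto (fun z : ℂ => F (z, (y, 0))) (𝓝[≠] 0) (𝓝 0) :=
        tendsto_const_nhds.congr' (by filter_upwards [hn] with z hz using hz.symm)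
      exact tendsto_nhds_unique (hc.tendsto.mono_left nhdsWithin_le_nhds) h5
    · exact h1 z y hz hzy
  have hin : AnalyticAt ℂ (fun q : ℂ × ℂ => ((q.1, (q.2, 0)) : E3)) 0 :=
    analyticAt_fst.prod (analyticAt_snd.prod analyticAt_const)
  have hg : AnalyticAt ℂ (fun q : ℂ × ℂ => E (q.1, (q.2, 0))) 0 :=
    AnalyticAt.comp_of_eq (g := E) (f := fun q : ℂ × ℂ => ((q.1, (q.2, 0)) : E3)) hE hin rfl
  refine not_isolated hg hE0 ?_
  have ht : Tendsto (fun q : ℂ × ℂ => ((q.1, (q.2, 0)) : E3)) (𝓝 0) (𝓝 0) := hin.continuousAt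
  filter_upwards [ht.eventually hiso, ht.eventually (Metric.ball_mem_nhds (0 : E3) hρ)] with q
    k1 k2 k3
  have k4 := k1 (h2 _ _ (by rwa [← dist_zero_right])) k3 rfl
  ext
  · exact congrArg (fun p : E3 => p.1) k4
  · exact congrArg (fun p : E3 => p.2.1) k4

/-- Choice of a good direction. -/
theorem exists_lambda {F E : E3 → ℂ} (hF : AnalyticAt ℂ F 0) (hE : AnalyticAt ℂ E 0)
    (hE0 : E 0 = 0)
    (hiso : ∀ᶠ p : E3 in 𝓝 0, F p = 0 → E p = 0 → p.2.2 = 0 → p = 0) {ι : Type*} [Finite ι]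
    (G1 G2 : ι → ℂ → ℂ) (hG : ∀ i, ¬ ∀ᶠ s in 𝓝 (0 : ℂ), G1 i s = 0 ∧ G2 i s = 0) :
    ∃ c : ℂ, (¬ ∀ᶠ t in 𝓝 (0 : ℂ), F (t, (c * t, 0)) = 0) ∧
      ∀ i, ¬ ∀ᶠ s in 𝓝 (0 : ℂ), G1 i s + c * G2 i s = 0 := by
  obtain ⟨c0, hc0⟩ := exists_dir hF hE hE0 hiso
  obtain ⟨ρ, hρ, hρF⟩ := exists_ball hF
  -- the first condition is open
  obtain ⟨t0, ht0, ht0ρ⟩ : ∃ t0 : ℂ, F (t0, (c0 * t0, 0)) ≠ 0 ∧
      ‖((t0, (c0 * t0, 0)) : E3)‖ < ρ := by
    have h1 : ContinuousAt (fun t : ℂ => ‖((t, (c0 * t, 0)) : E3)‖) 0 := by fun_prop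
    have h2 : ∀ᶠ t : ℂ in 𝓝 0, ‖((t, (c0 * t, 0)) : E3)‖ < ρ :=
      h1.eventually_lt continuousAt_const (by simpa using hρ)
    rw [not_eventually] at hc0
    obtain ⟨t, ht1, ht2⟩ := (hc0.and_eventually h2).exists
    exact ⟨t, ht1, ht2⟩
  have hopen : ∀ᶠ c : ℂ in 𝓝 c0, ¬ ∀ᶠ t in 𝓝 (0 : ℂ), F (t, (c * t, 0)) = 0 := by
    have hin : ContinuousAt (fun c : ℂ => ((t0, (c * t0, 0)) : E3)) c0 := by fun_prop
    have h1 : ContinuousAt (fun c : ℂ => F (t0, (c * t0, 0))) c0 :=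
      ContinuousAt.comp (g := F) (hρF _ ht0ρ).continuousAt hin
    have h2 := h1.eventually_ne ht0
    have h3 := hin.norm.eventually_lt continuousAt_const ht0ρ
    filter_upwards [h2, h3] with c k1 k2 k3
    apply k1
    refine line_zero hρF k2 ?_
    have h4 : Tendsto (fun t : ℂ => t * t0) (𝓝 0) (𝓝 0) := by
      have : ContinuousAt (fun t : ℂ => t * t0) 0 := by fun_prop
      simpa [ContinuousAt] using this
    filter_upwards [h4.eventually k3] with t ht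
    have h5 : t • ((t0, (c * t0, 0)) : E3) = (t * t0, (c * (t * t0), 0)) := by
      ext
      · rfl
      · show t * (c * t0) = c * (t * t0)
        ring
      · show t * 0 = 0
        rw [mul_zero]
    rw [h5]
    exact ht
  have hbad : ∀ i, ({c : ℂ | ∀ᶠ s in 𝓝 (0 : ℂ), G1 i s + c * G2 i s = 0}).Finite := by
    intro i
    refine Set.Subsingleton.finite fun c hc c' hc' => ?_
    by_contra hne
    apply hG i
    filter_upwards [hc, hc'] with s k1 k2
    have h1 : (c - c') * G2 i s = 0 := by linear_combination k1 - k2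
    have h2 := (mul_eq_zero.1 h1).resolve_left (sub_ne_zero.2 hne)
    rw [h2, mul_zero, add_zero] at k1
    exact ⟨k1, h2⟩
  have hinf : ({c : ℂ | ¬ ∀ᶠ t in 𝓝 (0 : ℂ), F (t, (c * t, 0)) = 0}).Infinite :=
    infinite_of_mem_nhds c0 hopen
  obtain ⟨c, hc1, hc2⟩ := (hinf.sdiff (Set.finite_iUnion hbad)).nonempty
  refine ⟨c, hc1, fun i hi => hc2 ?_⟩
  rw [Set.mem_iUnion]
  exact ⟨i, hi⟩

end Vale.Agent.P298.H941
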