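import Vale.Agent.P298.H941.Trans
import Vale.Agent.P298.H941.Dir

/-!
# P298 (helper941): the colength is at most the number of the arcs, for a generic projection
-/

open Filter Topology Polynomial

namespace Vale.Agent.P298.H941

open Vale.Agent.P298.H462 (xi)

/-! ### Linear changes of coordinates -/

section change

variable {E E' : Type*} [NormedAddCommGroup E] [NormedSpace ℂ E] [NormedAddCommGroup E']
  [NormedSpace ℂ E'] (L : E' ≃L[ℂ] E)

/-- the isomorphism of rings of germs given by a linear change of coordinates -/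
noncomputable def pullEquiv : O E ≃ₐ[ℂ] O E' :=
  AlgEquiv.ofAlgHom (pull (fun x => L x) (L.toContinuousLinearMap.analyticAt 0) (map_zero L))
    (pull (fun x => L.symm x) (L.symm.toContinuousLinearMap.analyticAt 0) (map_zero L.symm))
    (by
      ext a
      obtain ⟨f, hf, rfl⟩ := exists_rep a
      show mk (fun x => f (L.symm (L x))) _ = mk f hf
      exact mk_congr _ _ (Eventually.of_forall fun x => by rw [L.symm_apply_apply]))
    (by
      ext a
      obtain ⟨f, hf, rfl⟩ := exists_rep a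
      show mk (fun x => f (L (L.symm x))) _ = mk f hf
      exact mk_congr _ _ (Eventually.of_forall fun x => by rw [L.apply_symm_apply]))

theorem ana_pull {f : E → ℂ} (hf : AnalyticAt ℂ f 0) : AnalyticAt ℂ (fun x => f (L x)) 0 :=
  AnalyticAt.comp_of_eq hf (L.toContinuousLinearMap.analyticAt 0) (map_zero L)

theorem finrank_pull {k : ℕ} (s : Fin k → E → ℂ) (hs : ∀ j, AnalyticAt ℂ (s j) 0)
    (s' : Fin k → E' → ℂ) (hs' : ∀ j, AnalyticAt ℂ (s' j) 0) (h : ∀ j x, s' j x = s j (L x)) :
    Nonempty ((O E ⧸ Jd s hs) ≃ₗ[ℂ] (O E' ⧸ Jd s' hs')) := by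
  refine ⟨(Ideal.quotientEquivAlg (Jd s hs) (Jd s' hs') (pullEquiv L) ?_).toLinearEquiv⟩
  unfold Jd
  rw [Ideal.map_span]
  congr 1
  ext a
  simp only [Set.mem_range, Set.mem_image]
  have h1 : ∀ j, (pullEquiv L : O E →+* O E') (mk (s j) (hs j)) = mk (s' j) (hs' j) := by
    intro j
    show mk (fun x => s j (L x)) _ = _
    exact mk_congr _ _ (Eventually.of_forall fun x => (h j x).symm)
  constructor
  · rintro ⟨j, rfl⟩
    exact ⟨_, ⟨j, rfl⟩, h1 j⟩
  · rintro ⟨_, ⟨j, rfl⟩, rfl⟩
    exact ⟨j, (h1 j).symm⟩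

end change

/-- Coordinates adapted to a linear form. -/
theorem exists_coord (l : V →L[ℂ] ℂ) (hl : ∃ v, l v ≠ 0) :
    ∃ L : E3 ≃L[ℂ] V, ∀ p : E3, l (L p) = p.2.2 := by
  obtain ⟨v, hv⟩ := hl
  obtain ⟨v2, hv2⟩ : ∃ v2, l v2 = 1 := ⟨(l v)⁻¹ • v, by
    rw [map_smul, smul_eq_mul, inv_mul_cancel₀ hv]⟩
  have hker : Module.finrank ℂ (LinearMap.ker (l : V →ₗ[ℂ] ℂ)) = 2 := by
    have h1 := LinearMap.finrank_range_add_finrank_ker (l : V →ₗ[ℂ] ℂ)
    have h2 : LinearMap.range (l : V →ₗ[ℂ] ℂ) = ⊤ := by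
      rw [LinearMap.range_eq_top]
      intro c
      refine ⟨c • v2, ?_⟩
      show l (c • v2) = c
      rw [map_smul, hv2, smul_eq_mul, mul_one]
    rw [h2, finrank_top, Module.finrank_self, Module.finrank_fin_fun] at h1
    omega
  let B := Module.finBasisOfFinrankEq ℂ (LinearMap.ker (l : V →ₗ[ℂ] ℂ)) hker
  have hB : ∀ i, l (B i) = 0 := fun i => (B i).2
  let T : E3 →ₗ[ℂ] V :=
    { toFun := fun p => p.1 • (B 0 : V) + p.2.1 • (B 1 : V) + p.2.2 • v2
      map_add' := fun p q => by
        simp only [Prod.fst_add, Prod.snd_add, add_smul]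
        abel
      map_smul' := fun c p => by
        simp only [Prod.smul_fst, Prod.smul_snd, smul_eq_mul, mul_smul, smul_add,
          RingHom.id_apply] }
  have hlT : ∀ p : E3, l (T p) = p.2.2 := by
    intro p
    show l (p.1 • (B 0 : V) + p.2.1 • (B 1 : V) + p.2.2 • v2) = p.2.2
    rw [map_add, map_add, map_smul, map_smul, map_smul, hB, hB, hv2]
    simp
  have hinj : Function.Injective T := by
    rw [← LinearMap.ker_eq_bot, LinearMap.ker_eq_bot']
    intro p hp
    have h1 : p.2.2 = 0 := by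
      rw [← hlT, hp, map_zero]
    have h2 : p.1 • (B 0 : V) + p.2.1 • (B 1 : V) = 0 := by
      have h3 : p.1 • (B 0 : V) + p.2.1 • (B 1 : V) + p.2.2 • v2 = 0 := hp
      rwa [h1, zero_smul, add_zero] at h3
    have h3 : ∑ i : Fin 2, (![p.1, p.2.1] i) • B i = 0 := by
      rw [Fin.sum_univ_two]
      exact Subtype.ext h2
    have h4 := Fintype.linearIndependent_iff.1 B.linearIndependent _ h3
    ext
    · exact h4 0
    · exact h4 1
    · exact h1
  have hfr : Module.finrank ℂ E3 = Module.finrank ℂ V := by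
    simp [V, E3]
  refine ⟨(LinearEquiv.ofInjectiveOfFinrankEq T hinj hfr).toContinuousLinearEquiv, ?_⟩
  intro p
  exact hlT p

/-- the shear (z, y, x) ↦ (z, y + c z, x) -/
noncomputable def shear (c : ℂ) : E3 ≃L[ℂ] E3 :=
  LinearEquiv.toContinuousLinearEquiv
    { toFun := fun p => (p.1, (p.2.1 + c * p.1, p.2.2))
      map_add' := fun p q => by
        ext
        · rfl
        · show p.2.1 + q.2.1 + c * (p.1 + q.1) = (p.2.1 + c * p.1) + (q.2.1 + c * q.1)
          ring
        · rfl
      map_smul' := fun a p => by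
        ext
        · rfl
        · show a * p.2.1 + c * (a * p.1) = a * (p.2.1 + c * p.1)
          ring
        · rfl
      invFun := fun p => (p.1, (p.2.1 - c * p.1, p.2.2))
      left_inv := fun p => by
        ext
        · rfl
        · show p.2.1 + c * p.1 - c * p.1 = p.2.1
          ring
        · rfl
      right_inv := fun p => by
        ext
        · rfl
        · show p.2.1 - c * p.1 + c * p.1 = p.2.1
          ring
        · rfl }

theorem shear_apply (c : ℂ) (p : E3) : shear c p = (p.1, (p.2.1 + c * p.1, p.2.2)) := rfl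

section main

variable {f e h : V → ℂ} {N ν : ℕ} {ψ : Fin ν → ℂ → V}

/-- Good coordinates exist, and the number of the points over a point of the line bounds the
dimension. -/
theorem exists_good (A : ArcSys f e h N ν ψ) (hf : AnalyticAt ℂ f 0) (he : AnalyticAt ℂ e 0)
    (hh : AnalyticAt ℂ h 0) (e0 : e 0 = 0) (h0 : h 0 = 0)
    (hxi : ∀ᶠ x in 𝓝 (0 : V), f x = 0 → e x = 0 → x ≠ 0 → xi f e x ≠ 0) :
    ∃ l : V →L[ℂ] ℂ, (∀ᶠ p in 𝓝 (0 : V), f p = 0 → e p = 0 → l p = 0 → p = 0) ∧
      ∃ N' : ℕ, (Module.Finite ℂ (O V ⧸ Jd ![f, e, l] (ana3 hf he (l.analyticAt 0))) ∧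
        Module.finrank ℂ (O V ⧸ Jd ![f, e, l] (ana3 hf he (l.analyticAt 0))) ≤ N') ∧
        ∀ U ∈ 𝓝 (0 : V), ∀ᶠ x in 𝓝[≠] (0 : ℂ), ∃ T : Finset V, T.card = N' ∧
          ∀ p ∈ T, p ∈ U ∧ f p = 0 ∧ e p = 0 ∧ l p = x := by
  classical
  obtain ⟨l, hlv, hl⟩ := exists_linear_form A h0
  have htr := arc_transversal A hf he hh h0 hxi l hl
  obtain ⟨L, hL⟩ := exists_coord l hlv
  have hL0 : Tendsto (fun p : E3 => L p) (𝓝 0) (𝓝 0) := by
    have := L.continuous.continuousAt (x := (0 : E3)).tendsto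
    rwa [map_zero] at this
  set F : E3 → ℂ := fun p => f (L p) with hF
  set E : E3 → ℂ := fun p => e (L p) with hE
  have hFa : AnalyticAt ℂ F 0 := ana_pull L hf
  have hEa : AnalyticAt ℂ E 0 := ana_pull L he
  have hE0 : E 0 = 0 := by
    show e (L 0) = 0
    rw [map_zero, e0]
  have hiso : ∀ᶠ p : E3 in 𝓝 0, F p = 0 → E p = 0 → p.2.2 = 0 → p = 0 := by
    filter_upwards [hL0.eventually htr] with p hp k1 k2 k3
    by_contra hne
    have h1 : L p ≠ 0 := by
      rw [Ne, map_eq_zero_iff L L.injective]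
      exact hne
    exact (hp k1 k2 h1).1 (by rw [hL, k3])
  obtain ⟨c, hc1, hc2⟩ := exists_lambda hFa hEa hE0 hiso
    (fun (i : Fin ν) s => fderiv ℂ f (ψ i s) (L (1, 0)))
    (fun (i : Fin ν) s => fderiv ℂ f (ψ i s) (L (0, (1, 0)))) (by
      intro i hcon
      have h1 : ∀ᶠ s in 𝓝[≠] (0 : ℂ), False := by
        have ht : Tendsto (ψ i) (𝓝 0) (𝓝 0) := by
          have := (A.an i).continuousAt.tendsto
          rwa [A.zero i] at this
        have hne : ∀ᶠ s in 𝓝[≠] (0 : ℂ), ψ i s ≠ 0 := by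
          rcases eventually_eq_zero_or_ne (A.an i) with h | h
          · exact absurd h (arc_ne_zero A h0 i)
          · exact h
        filter_upwards [hcon.filter_mono nhdsWithin_le_nhds,
          (ht.eventually htr).filter_mono nhdsWithin_le_nhds, hne,
          (A.mem i).filter_mono nhdsWithin_le_nhds] with s k1 k2 k3 k4
        obtain ⟨-, k5⟩ := k2 k4.1 k4.2.1 k3
        obtain ⟨k6, k7⟩ := k1
        set a := fderiv ℂ e (ψ i s) (L (1, 0)) with ha
        set b := fderiv ℂ e (ψ i s) (L (0, (1, 0))) with hb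
        have h2 : L (b, (-a, 0)) = b • L (1, 0) + (-a) • L (0, (1, 0)) := by
          rw [← map_smul, ← map_smul, ← map_add]
          congr 1
          ext <;> simp
        have h3 : L (b, (-a, 0)) = 0 := by
          refine k5 _ (by rw [hL]) ?_ ?_
          · rw [h2, map_add, map_smul, map_smul, k6, k7, smul_zero, smul_zero, add_zero]
          · rw [h2, map_add, map_smul, map_smul, ← ha, ← hb, smul_eq_mul, smul_eq_mul]
            ring
        rw [map_eq_zero_iff L L.injective] at h3
        have hb0 : b = 0 := congrArg (fun p : E3 => p.1) h3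
        have ha0 : a = 0 := neg_eq_zero.1 (congrArg (fun p : E3 => p.2.1) h3)
        have h4 : L (1, 0) = 0 := k5 _ (by rw [hL]; rfl) k6 (by rw [← ha]; exact ha0)
        rw [map_eq_zero_iff L L.injective] at h4
        exact one_ne_zero (congrArg (fun p : E3 => p.1) h4)
      exact h1.exists.elim fun _ h => h)
  -- the final coordinates
  set L' : E3 ≃L[ℂ] V := (shear c).trans L with hL'
  have hL'a : ∀ p, L' p = L (shear c p) := fun p => rfl
  have hlL' : ∀ p : E3, l (L' p) = p.2.2 := by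
    intro p
    rw [hL'a, hL, shear_apply]
  have hL'0 : Tendsto (fun p : E3 => L' p) (𝓝 0) (𝓝 0) := by
    have := L'.continuous.continuousAt (x := (0 : E3)).tendsto
    rwa [map_zero] at this
  set F' : E3 → ℂ := fun p => f (L' p) with hF'
  set E' : E3 → ℂ := fun p => e (L' p) with hE'
  have hF'a : AnalyticAt ℂ F' 0 := ana_pull L' hf
  have hE'a : AnalyticAt ℂ E' 0 := ana_pull L' he
  have hiso' : ∀ᶠ p in 𝓝 (0 : V), f p = 0 → e p = 0 → l p = 0 → p = 0 := by
    filter_upwards [htr] with p hp k1 k2 k3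
    by_contra hne
    exact (hp k1 k2 hne).1 k3
  -- the order in the direction of the first axis
  have hline : AnalyticAt ℂ (fun z : ℂ => F' (z, 0)) 0 :=
    AnalyticAt.comp_of_eq (g := F') (f := fun z : ℂ => ((z, 0) : E3)) hF'a
      (analyticAt_id.prod analyticAt_const) rfl
  have htop : analyticOrderAt (fun z : ℂ => F' (z, 0)) 0 ≠ ⊤ := by
    rw [Ne, analyticOrderAt_eq_top]
    intro hcon
    apply hc1
    filter_upwards [hcon] with t ht
    have h1 : F' (t, 0) = F (t, (c * t, 0)) := by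
      show f (L (shear c (t, 0))) = f (L (t, (c * t, 0)))
      rw [shear_apply]
      congr 2
      ext
      · rfl
      · show (0 : ℂ) + c * t = c * t
        rw [zero_add]
      · rfl
    rw [← h1]
    exact ht
  obtain ⟨b, hb⟩ := ENat.ne_top_iff_exists.1 htop
  obtain ⟨u, hu, hu0, hFu⟩ := (hline.analyticOrderAt_eq_natCast).1 hb.symm
  have hfz : ∀ᶠ p in 𝓝 (0 : V), f p = 0 → e p = 0 → p ≠ 0 →
      fderiv ℂ f p (L' (1, 0)) ≠ 0 := by
    refine arc_forall A hh h0 fun i => ?_
    have h1 : ∀ p, fderiv ℂ f p (L' (1, 0)) =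
        fderiv ℂ f p (L (1, 0)) + c * fderiv ℂ f p (L (0, (1, 0))) := by
      intro p
      have h2 : L' (1, 0) = L (1, 0) + c • L (0, (1, 0)) := by
        rw [← map_smul, ← map_add, hL'a, shear_apply]
        congr 1
        ext <;> simp
      rw [h2, map_add, map_smul, smul_eq_mul]
    have h2 : AnalyticAt ℂ (fun s => fderiv ℂ f (ψ i s) (L' (1, 0))) 0 := by
      have h3 : AnalyticAt ℂ (fun p => fderiv ℂ f p (L' (1, 0))) 0 :=
        ((ContinuousLinearMap.apply ℂ ℂ (L' (1, 0))).analyticAt _).comp hf.fderiv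
      exact AnalyticAt.comp_of_eq h3 (A.an i) (A.zero i)
    rcases eventually_eq_zero_or_ne h2 with h | h
    · exfalso
      apply hc2 i
      filter_upwards [h] with s hs
      rw [← h1]
      exact hs
    · exact h
  obtain ⟨N', hN', hT⟩ := elim_main hF'a hE'a hu hu0 (by
    filter_upwards [hFu] with z hz
    rw [hz, sub_zero, smul_eq_mul]) (by
    filter_upwards [hL'0.eventually hiso'] with p hp k1 k2 k3
    have h1 := hp k1 k2 (by rw [hlL', k3])
    exact (map_eq_zero_iff L' L'.injective).1 h1) (by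
    filter_upwards [hL'0.eventually htr, hL'0.eventually hfz] with p hp1 hp2 k1 k2 k3
    have h1 : L' p ≠ 0 := by
      rw [Ne, map_eq_zero_iff L' L'.injective]
      exact k3
    have hd : ∀ (g : V → ℂ) (w : E3), fderiv ℂ (fun p => g (L' p)) p w =
        fderiv ℂ g (L' p) (L' w) := by
      intro g w
      have h2 := L'.comp_right_fderiv (f := g) (x := p)
      have h3 : (g ∘ L') = fun p => g (L' p) := rfl
      rw [h3] at h2
      rw [h2]
      rfl
    refine ⟨?_, fun w w1 w2 w3 => ?_⟩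
    · rw [hd f]
      exact hp2 k1 k2 h1
    · rw [hd f] at w2
      rw [hd e] at w3
      have h2 := (hp1 k1 k2 h1).2 (L' w) (by rw [hlL', w1]) w2 w3
      exact (map_eq_zero_iff L' L'.injective).1 h2)
  refine ⟨l, hiso', N', ?_, ?_⟩
  · obtain ⟨eq⟩ := finrank_pull L' ![f, e, l] (ana3 hf he (l.analyticAt 0)) ![F', E', X3]
      (ana3 hF'a hE'a (ana_X3 0)) (by
        intro j x
        fin_cases j
        · rfl
        · rfl
        · exact (hlL' x).symm)
    have := hN'.1
    refine ⟨Module.Finite.equiv eq.symm, ?_⟩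
    rw [eq.finrank_eq]
    exact hN'.2
  · intro U hU
    filter_upwards [hT _ (hL'0 hU)] with x hx
    obtain ⟨T, hT1, hT2⟩ := hx
    refine ⟨T.image fun p => L' p, ?_, ?_⟩
    · rw [Finset.card_image_of_injective _ L'.injective, hT1]
    · intro q hq
      rw [Finset.mem_image] at hq
      obtain ⟨p, hp, rfl⟩ := hq
      obtain ⟨k1, k2, k3, k4⟩ := hT2 p hp
      exact ⟨k1, k2, k3, by rw [hlL', k4]⟩

end main

end Vale.Agent.P298.H941
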