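import Vale.Agent.P298.H941.Fin
import Vale.Agent.P298.StmtFlag
import Vale.Agent.P267.H823.Puiseux

/-!
# P298 (helper941): arcs covering a space curve
-/

open Filter Topology Polynomial

namespace Vale.Agent.P298.H941

/-- The ambient space. -/
abbrev V := Fin 3 → ℂ

/-! ### Ideals and colengths -/

section ideals

variable {E : Type*} [NormedAddCommGroup E] [NormedSpace ℂ E]

/-- the ideal generated by finitely many germs -/
noncomputable def Jd {k : ℕ} (s : Fin k → E → ℂ) (hs : ∀ j, AnalyticAt ℂ (s j) 0) :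
    Ideal (O E) :=
  Ideal.span (Set.range fun j => mk (s j) (hs j))

theorem mk_mem_Jd {k : ℕ} {s : Fin k → E → ℂ} (hs : ∀ j, AnalyticAt ℂ (s j) 0) {f : E → ℂ}
    (hf : AnalyticAt ℂ f 0) :
    mk f hf ∈ Jd s hs ↔
      ∃ a : Fin k → E → ℂ, (∀ j, AnalyticAt ℂ (a j) 0) ∧ ∀ᶠ x in 𝓝 0, f x = ∑ j, a j x * s j x :=
  mk_mem_span hs hf

/-- An element of finite dimensional quotient of a ring of germs with value zero is nilpotent. -/
theorem exists_pow_mem (J : Ideal (O E)) (hJ : Module.Finite ℂ (O E ⧸ J)) {a : O E}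
    (ha : ev0 E a = 0) : ∃ k : ℕ, a ^ k ∈ J := by
  have hart : IsArtinianRing (O E ⧸ J) := IsArtinianRing.of_finite ℂ _
  obtain ⟨n, y, hy⟩ := IsArtinian.exists_pow_succ_smul_dvd
    (M := O E ⧸ J) (Ideal.Quotient.mk J a) (1 : O E ⧸ J)
  obtain ⟨b, rfl⟩ := Ideal.Quotient.mk_surjective y
  refine ⟨n, ?_⟩
  rw [smul_eq_mul, smul_eq_mul, mul_one, ← map_pow, ← map_pow, ← map_mul,
    Ideal.Quotient.eq] at hy
  have h1 : a ^ n * (1 - a * b) ∈ J := by
    have h2 : a ^ n * (1 - a * b) = -(a ^ n.succ * b - a ^ n) := by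
      rw [pow_succ]
      ring
    rw [h2]
    exact neg_mem hy
  have h3 : IsUnit (1 - a * b) := by
    rw [isUnit_iff, map_sub, map_mul, ha, zero_mul, sub_zero, map_one]
    exact one_ne_zero
  obtain ⟨c, hc⟩ := h3.exists_right_inv
  have h4 : a ^ n = a ^ n * (1 - a * b) * c := by
    rw [mul_assoc, hc, mul_one]
  rw [h4]
  exact Ideal.mul_mem_right _ _ h1

theorem exists_pow_mem_fin (J : Ideal (O E)) (hJ : Module.Finite ℂ (O E ⧸ J)) {ι : Type*}
    [Finite ι] (a : ι → O E) (ha : ∀ i, ev0 E (a i) = 0) : ∃ k : ℕ, ∀ i, a i ^ k ∈ J := by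
  have := Fintype.ofFinite ι
  choose k hk using fun i => exists_pow_mem J hJ (ha i)
  refine ⟨∑ i, k i, fun i => ?_⟩
  have h1 : k i ≤ ∑ i, k i := Finset.single_le_sum (fun _ _ => Nat.zero_le _) (Finset.mem_univ i)
  obtain ⟨m, hm⟩ := Nat.exists_eq_add_of_le h1
  rw [hm, pow_add]
  exact Ideal.mul_mem_right _ _ (hk i)

end ideals

section colength

variable {n k : ℕ}

/-- The colength in the sense of the problem is the dimension of the quotient of the ring of
germs. -/
theorem colength_iff {s : Fin k → (Fin n → ℂ) → ℂ} (hs : ∀ j, AnalyticAt ℂ (s j) 0) (d : ℕ) :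
    Colength s d ↔ Module.Finite ℂ (O (Fin n → ℂ) ⧸ Jd s hs) ∧
      Module.finrank ℂ (O (Fin n → ℂ) ⧸ Jd s hs) = d := by
  set I := Jd s hs with hI
  constructor
  · rintro ⟨b, hb', H⟩
    have hb : ∀ i, AnalyticAt ℂ (b i) 0 := hb'
    set T : (Fin d → ℂ) →ₗ[ℂ] O (Fin n → ℂ) ⧸ I :=
      Fintype.linearCombination ℂ (fun i => (Ideal.Quotient.mk I (mk (b i) (hb i)))) with hT
    have hTapp : ∀ c : Fin d → ℂ, T c = Ideal.Quotient.mk I (mk (fun x => ∑ i, c i * b i x)
        (Finset.analyticAt_fun_sum _ fun i _ => analyticAt_const.mul (hb i))) := by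
      intro c
      rw [hT, Fintype.linearCombination_apply]
      have h1 : mk (fun x => ∑ i, c i * b i x)
          (Finset.analyticAt_fun_sum _ fun i _ => analyticAt_const.mul (hb i)) =
          ∑ i, c i • mk (b i) (hb i) := by
        simp only [smul_mk]
        rw [mk_sum]
      rw [h1, map_sum]
      rfl
    have key : ∀ (f : (Fin n → ℂ) → ℂ) (hf : AnalyticAt ℂ f 0) (c : Fin d → ℂ),
        InIdeal s (fun x => f x - ∑ i, c i * b i x) ↔ T c = Ideal.Quotient.mk I (mk f hf) := by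
      intro f hf c
      rw [hTapp, eq_comm, Ideal.Quotient.eq, mk_sub, hI, mk_mem_Jd]
      rfl
    have hinj : Function.Injective T := by
      rw [← LinearMap.ker_eq_bot, LinearMap.ker_eq_bot']
      intro c hc
      obtain ⟨c₀, _, hu⟩ := H (fun _ => 0) analyticAt_const
      have h1 : c = c₀ := hu _ ((key _ analyticAt_const c).2 (by rw [hc]; rfl))
      have h2 : (0 : Fin d → ℂ) = c₀ := hu _ ((key _ analyticAt_const 0).2 (by
        rw [map_zero]; rfl))
      rw [h1, ← h2]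
    have hsurj : Function.Surjective T := by
      intro q
      obtain ⟨a, rfl⟩ := Ideal.Quotient.mk_surjective q
      obtain ⟨f, hf, rfl⟩ := exists_rep a
      obtain ⟨c, hc, _⟩ := H f hf
      exact ⟨c, (key f hf c).1 hc⟩
    let e := LinearEquiv.ofBijective T ⟨hinj, hsurj⟩
    refine ⟨Module.Finite.equiv e, ?_⟩
    rw [← e.finrank_eq, Module.finrank_fin_fun]
  · rintro ⟨hfin, hd⟩
    let B := Module.finBasisOfFinrankEq ℂ (O (Fin n → ℂ) ⧸ I) hd
    choose a ha using fun i => Ideal.Quotient.mk_surjective (B i)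
    choose b hb hab using fun i => exists_rep (a i)
    refine ⟨b, hb, fun f hf' => ?_⟩
    have hf : AnalyticAt ℂ f 0 := hf'
    have hsum : ∀ c : Fin d → ℂ, Ideal.Quotient.mk I (mk (fun x => ∑ i, c i * b i x)
        (Finset.analyticAt_fun_sum _ fun i _ => analyticAt_const.mul (hb i))) =
          ∑ i, c i • B i := by
      intro c
      have h1 : mk (fun x => ∑ i, c i * b i x)
          (Finset.analyticAt_fun_sum _ fun i _ => analyticAt_const.mul (hb i)) =
          ∑ i, c i • mk (b i) (hb i) := by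
        simp only [smul_mk]
        rw [mk_sum]
      rw [h1, map_sum]
      refine Finset.sum_congr rfl fun i _ => ?_
      rw [hab, ← ha]
      rfl
    have key : ∀ c : Fin d → ℂ,
        InIdeal s (fun x => f x - ∑ i, c i * b i x) ↔
          ∑ i, c i • B i = Ideal.Quotient.mk I (mk f hf) := by
      intro c
      rw [← hsum, eq_comm, Ideal.Quotient.eq, mk_sub, hI, mk_mem_Jd]
      rfl
    refine ⟨fun i => B.repr (Ideal.Quotient.mk I (mk f hf)) i, ?_, fun c hc => ?_⟩
    · exact (key _).2 (B.sum_repr _)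
    · funext i
      have h1 := (key c).1 hc
      rw [← h1, B.repr_sum_self]

end colength

theorem ana2 {E : Type*} [NormedAddCommGroup E] [NormedSpace ℂ E] {f e : E → ℂ}
    (hf : AnalyticAt ℂ f 0) (he : AnalyticAt ℂ e 0) : ∀ j, AnalyticAt ℂ (![f, e] j) 0 := by
  intro j
  fin_cases j
  · exact hf
  · exact he

theorem ana3 {E : Type*} [NormedAddCommGroup E] [NormedSpace ℂ E] {f e g : E → ℂ}
    (hf : AnalyticAt ℂ f 0) (he : AnalyticAt ℂ e 0) (hg : AnalyticAt ℂ g 0) :
    ∀ j, AnalyticAt ℂ (![f, e, g] j) 0 := by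
  intro j
  fin_cases j
  · exact hf
  · exact he
  · exact hg

theorem Jd3_eq {E : Type*} [NormedAddCommGroup E] [NormedSpace ℂ E] {f e g : E → ℂ}
    (hf : AnalyticAt ℂ f 0) (he : AnalyticAt ℂ e 0) (hg : AnalyticAt ℂ g 0) :
    Jd ![f, e, g] (ana3 hf he hg) =
      Jd ![f, e] (ana2 hf he) ⊔ Ideal.span ({mk g hg} : Set (O E)) := by
  unfold Jd
  rw [← Ideal.span_union]
  congr 1
  ext a
  simp only [Set.mem_range, Set.mem_union, Set.mem_singleton_iff]
  constructor
  · rintro ⟨j, rfl⟩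
    fin_cases j
    · exact Or.inl ⟨0, rfl⟩
    · exact Or.inl ⟨1, rfl⟩
    · exact Or.inr rfl
  · rintro (⟨j, rfl⟩ | rfl)
    · fin_cases j
      · exact ⟨0, rfl⟩
      · exact ⟨1, rfl⟩
    · exact ⟨2, rfl⟩

theorem eq_zero_of_mem_Jd2 {E : Type*} [NormedAddCommGroup E] [NormedSpace ℂ E] {f e g : E → ℂ}
    (hf : AnalyticAt ℂ f 0) (he : AnalyticAt ℂ e 0) {hg : AnalyticAt ℂ g 0}
    (h : mk g hg ∈ Jd ![f, e] (ana2 hf he)) :
    ∀ᶠ x in 𝓝 0, f x = 0 → e x = 0 → g x = 0 := by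
  rw [mk_mem_Jd] at h
  obtain ⟨a, -, h⟩ := h
  filter_upwards [h] with x hx h1 h2
  rw [hx, Fin.sum_univ_two]
  simp [h1, h2]

/-! ### Integral equations -/

section integral

variable {f e h : V → ℂ} {hf : AnalyticAt ℂ f 0} {he : AnalyticAt ℂ e 0} {hh : AnalyticAt ℂ h 0}
  {h0 : h 0 = 0}

/-- The map to the line is finite. -/
def FinMap (f e h : V → ℂ) (hf : AnalyticAt ℂ f 0) (he : AnalyticAt ℂ e 0)
    (hh : AnalyticAt ℂ h 0) (h0 : h 0 = 0) : Prop :=
  ((Ideal.Quotient.mk (Jd ![f, e] (ana2 hf he))).comp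
    (pull h hh h0 : O ℂ →+* O (Fin 3 → ℂ))).Finite

theorem finMap_of_finite (hfin : Module.Finite ℂ (O V ⧸ Jd ![f, e, h] (ana3 hf he hh))) :
    FinMap f e h hf he hh h0 := by
  obtain ⟨k, hk⟩ := exists_pow_mem_fin _ hfin xx fun i => rfl
  refine finite_of_nilp _ hh h0 k fun i => ?_
  rw [← Jd3_eq hf he hh]
  exact hk i

theorem exists_integral_eqn (H : FinMap f e h hf he hh h0) (a : V → ℂ) (ha : AnalyticAt ℂ a 0) :
    ∃ (d : ℕ) (P : ℂ → ℂ[X]), (∀ c, (P c).Monic ∧ (P c).natDegree = d) ∧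
      (∀ j, AnalyticAt ℂ (fun c => (P c).coeff j) 0) ∧
      ∀ᶠ x in 𝓝 (0 : V), f x = 0 → e x = 0 → (P (h x)).eval (a x) = 0 := by
  set I := Jd ![f, e] (ana2 hf he) with hI
  set φ := ((Ideal.Quotient.mk I).comp (pull h hh h0 : O ℂ →+* O (Fin 3 → ℂ))) with hφ
  obtain ⟨p, hp, hp0⟩ := H.to_isIntegral (Ideal.Quotient.mk I (mk a ha))
  choose c hc hcp using fun j => exists_rep (p.coeff j)
  set d := p.natDegree with hd
  set P : ℂ → ℂ[X] := fun z => X ^ d + ∑ n ∈ Finset.range d, C (c n z) * X ^ n with hP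
  have hdeg : ∀ z, (∑ n ∈ Finset.range d, C (c n z) * X ^ n).degree < (d : WithBot ℕ) := by
    intro z
    rw [degree_lt_iff_coeff_zero]
    intro m hm
    rw [finsetSum_coeff]
    simp only [coeff_C_mul_X_pow]
    rw [Finset.sum_ite_eq, if_neg]
    rw [Finset.mem_range]
    omega
  have hmonic : ∀ z, (P z).Monic := fun z => monic_X_pow_add (hdeg z)
  have hcoef : ∀ z i, (P z).coeff i = (if i = d then 1 else 0) + if i < d then c i z else 0 := by
    intro z i
    rw [hP]
    simp only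
    rw [coeff_add, coeff_X_pow, finsetSum_coeff]
    congr 1
    simp only [coeff_C_mul_X_pow]
    rw [Finset.sum_ite_eq]
    simp only [Finset.mem_range]
  refine ⟨d, P, fun z => ⟨hmonic z, ?_⟩, fun j => ?_, ?_⟩
  · apply natDegree_eq_of_degree_eq_some
    rw [hP]
    simp only
    rw [degree_add_eq_left_of_degree_lt, degree_X_pow]
    rw [degree_X_pow]
    exact hdeg z
  · simp only [hcoef]
    by_cases h : j < d
    · simp only [h, if_true]
      exact analyticAt_const.add (hc j)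
    · simp only [h, if_false]
      exact analyticAt_const
  · have hG : ∀ x, (P (h x)).eval (a x) = a x ^ d + ∑ n ∈ Finset.range d, c n (h x) * a x ^ n := by
      intro x
      rw [hP]
      simp only
      rw [eval_add, eval_pow, eval_X, eval_finsetSum]
      congr 1
      refine Finset.sum_congr rfl fun n _ => ?_
      rw [eval_mul, eval_C, eval_pow, eval_X]
    have hch : ∀ n, AnalyticAt ℂ (fun x => c n (h x)) 0 := fun n =>
      AnalyticAt.comp_of_eq (hc n) hh h0
    have hGa : AnalyticAt ℂ (fun x => a x ^ d + ∑ n ∈ Finset.range d, c n (h x) * a x ^ n) 0 :=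
      (ha.pow d).add (Finset.analyticAt_fun_sum _ fun n _ => (hch n).mul (ha.pow n))
    have hmem : mk _ hGa ∈ I := by
      have h1 : mk _ hGa = p.eval₂ (pull h hh h0 : O ℂ →+* O V) (mk a ha) := by
        rw [eval₂_eq_sum_range, Finset.sum_range_succ, ← hd, hp.coeff_natDegree, map_one,
          one_mul, mk_pow]
        have h2 : ∀ n, (pull h hh h0 : O ℂ →+* O V) (p.coeff n) * mk a ha ^ n =
            mk (fun x => c n (h x) * a x ^ n) ((hch n).mul (ha.pow n)) := by
          intro n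
          rw [← hcp n]
          rfl
        rw [Finset.sum_congr rfl fun n _ => h2 n, mk_sum, mk_add]
        refine mk_congr _ _ (Eventually.of_forall fun x => ?_)
        rw [add_comm]
      rw [h1, ← Ideal.Quotient.eq_zero_iff_mem, Polynomial.hom_eval₂]
      exact hp0
    have h3 := eq_zero_of_mem_Jd2 hf he hmem
    filter_upwards [h3] with x hx h4 h5
    rw [hG]
    exact hx h4 h5

end integral

/-- The arcs `ψ i`, `i < ν`, are the points of the curve `f = e = 0` over the points `s ^ N`. -/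
structure ArcSys (f e h : V → ℂ) (N ν : ℕ) (ψ : Fin ν → ℂ → V) : Prop where
  pos : 0 < N
  an : ∀ i, AnalyticAt ℂ (ψ i) 0
  zero : ∀ i, ψ i 0 = 0
  mem : ∀ i, ∀ᶠ s in 𝓝 (0 : ℂ), f (ψ i s) = 0 ∧ e (ψ i s) = 0 ∧ h (ψ i s) = s ^ N
  ne : ∀ i j, i ≠ j → ∀ᶠ s in 𝓝[≠] (0 : ℂ), ψ i s ≠ ψ j s
  cover : ∀ᶠ p : V × ℂ in 𝓝 (0, 0), f p.1 = 0 → e p.1 = 0 → h p.1 = p.2 ^ N →
    p.1 = 0 ∨ ∃ i, p.1 = ψ i p.2

end Vale.Agent.P298.H941
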