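import Mathlib

/-!
# P298 (helper941): the length of the cokernel is the order of the determinant
-/

namespace Vale.Agent.P298.H941

open Module Submodule

variable {R M F : Type*} [CommRing R] [IsDomain R] [IsPrincipalIdealRing R] [Field F]
  [Algebra F R] [AddCommGroup M] [Module R M] [Module F M] [IsScalarTower F R M]

/-- Over a principal ideal domain the dimension of the cokernel of an endomorphism of a free
module is the value at the determinant of the length function. -/
theorem finrank_coker {ι : Type*} [Fintype ι] (b : Basis ι R M) (v : R → ℕ)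
    (hv : ∀ x y : R, x ≠ 0 → y ≠ 0 → v (x * y) = v x + v y)
    (hq : ∀ x : R, x ≠ 0 → Module.Finite F (R ⧸ Ideal.span ({x} : Set R)) ∧
      finrank F (R ⧸ Ideal.span ({x} : Set R)) = v x)
    (φ : M →ₗ[R] M) (hφ : LinearMap.det φ ≠ 0) :
    Module.Finite F (M ⧸ LinearMap.range φ) ∧
      finrank F (M ⧸ LinearMap.range φ) = v (LinearMap.det φ) := by
  classical
  have hfree : Module.Free R M := Module.Free.of_basis b
  have hfin : Module.Finite R M := Module.Finite.of_basis b
  have hinj : Function.Injective φ := by
    rw [← LinearMap.ker_eq_bot]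
    by_contra hne
    exact hφ (LinearMap.det_eq_zero_iff_ker_ne_bot.2 hne)
  set N := LinearMap.range φ with hN
  have h : finrank R N = finrank R M := LinearMap.finrank_range_of_inj hinj
  have h1 : ∀ i, smithNormalFormCoeffs b h i ≠ 0 := smithNormalFormCoeffs_ne_zero b h
  have hfq : ∀ i, Module.Finite F (R ⧸ Ideal.span ({smithNormalFormCoeffs b h i} : Set R)) :=
    fun i => (hq _ (h1 i)).1
  have hprod : Associated (LinearMap.det φ) (∏ i, smithNormalFormCoeffs b h i) := by
    rw [← Matrix.det_diagonal, ← LinearMap.det_toLin (smithNormalFormTopBasis b h)]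
    let e : M ≃ₗ[R] M :=
      ((smithNormalFormTopBasis b h).equiv (smithNormalFormBotBasis b h) (Equiv.refl _)).trans
        (LinearEquiv.ofInjective φ hinj).symm
    refine (LinearMap.associated_det_of_eq_comp e _ _ fun x => ?_).symm
    have h2 : ∀ x, φ (e x) = ((smithNormalFormTopBasis b h).equiv (smithNormalFormBotBasis b h)
        (Equiv.refl _) x : M) := by
      intro x
      have h3 := (LinearEquiv.ofInjective φ hinj).apply_symm_apply
        ((smithNormalFormTopBasis b h).equiv (smithNormalFormBotBasis b h) (Equiv.refl _) x)
      exact congrArg Subtype.val h3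
    rw [h2]
    have h4 : (Matrix.toLin (smithNormalFormTopBasis b h) (smithNormalFormTopBasis b h)
        (Matrix.diagonal (smithNormalFormCoeffs b h))) =
        N.subtype ∘ₗ ((smithNormalFormTopBasis b h).equiv (smithNormalFormBotBasis b h)
          (Equiv.refl _)).toLinearMap := by
      refine (smithNormalFormTopBasis b h).ext fun i => ?_
      rw [Matrix.toLin_self, LinearMap.comp_apply, LinearEquiv.coe_coe, Basis.equiv_apply,
        Equiv.refl_apply, Submodule.subtype_apply, smithNormalFormBotBasis_def]
      rw [Finset.sum_eq_single i]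
      · rw [Matrix.diagonal_apply_eq]
      · intro j _ hj
        rw [Matrix.diagonal_apply_ne _ hj, zero_smul]
      · intro hi
        exact absurd (Finset.mem_univ i) hi
    rw [h4]
    rfl
  have hvone : v 1 = 0 := by
    have := hv 1 1 one_ne_zero one_ne_zero
    rw [mul_one] at this
    omega
  have hvprod : ∀ s : Finset ι, v (∏ i ∈ s, smithNormalFormCoeffs b h i) =
      ∑ i ∈ s, v (smithNormalFormCoeffs b h i) := by
    intro s
    induction s using Finset.induction_on with
    | empty => simpa using hvone
    | insert a s ha ih =>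
      rw [Finset.prod_insert ha, Finset.sum_insert ha,
        hv _ _ (h1 a) (Finset.prod_ne_zero_iff.2 fun i _ => h1 i), ih]
  have hvdet : v (LinearMap.det φ) = v (∏ i, smithNormalFormCoeffs b h i) := by
    have h5 : (∏ i, smithNormalFormCoeffs b h i) ≠ 0 := Finset.prod_ne_zero_iff.2 fun i _ => h1 i
    rw [← (hq _ hφ).2, ← (hq _ h5).2]
    rw [Ideal.span_singleton_eq_span_singleton.2 hprod]
  constructor
  · exact Module.Finite.equiv ((N.quotientEquivPiSpan b h).restrictScalars F).symm
  · rw [finrank_quotient_eq_sum F b h, hvdet, hvprod]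
    exact Finset.sum_congr rfl fun i _ => (hq _ (h1 i)).2

end Vale.Agent.P298.H941
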