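import Vale.Agent.P267.H823.Weier

/-!
# P298 (helper941): Weierstrass division for holomorphic functions with parameters
-/

open Filter Topology
open Vale.Agent.P267.H823 Vale.Agent.P267.H823.WP

namespace Vale.Agent.P298.H941

variable {Y : Type} [NormedAddCommGroup Y] [NormedSpace ℂ Y]

/-- Weierstrass division theorem for holomorphic functions. -/
theorem weierstrass_division {F : ℂ × Y → ℂ} {p0 : Y} (hF : AnalyticAt ℂ F (0, p0)) {b : ℕ}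
    {u : ℂ → ℂ} (hu : AnalyticAt ℂ u 0) (hu0 : u 0 ≠ 0)
    (hFu : ∀ᶠ x in 𝓝 (0 : ℂ), F (x, p0) = x ^ b * u x)
    {g : ℂ × Y → ℂ} (hg : AnalyticAt ℂ g (0, p0)) :
    ∃ (v : ℂ × Y → ℂ) (r : Fin b → Y → ℂ), AnalyticAt ℂ v (0, p0) ∧
      (∀ i, AnalyticAt ℂ (r i) p0) ∧
      ∀ᶠ z : ℂ × Y in 𝓝 (0, p0), g z = v z * F z + ∑ i, r i z.2 * z.1 ^ (i : ℕ) := by
  have hU : AnalyticAt ℂ (fun z : ℂ × Y => u z.1) (0, p0) :=
    AnalyticAt.comp_of_eq hu analyticAt_fst rfl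
  have hV : AnalyticAt ℂ (fun z : ℂ × Y => (u z.1)⁻¹) (0, p0) := hU.inv hu0
  obtain ⟨ρ1, hρ1, H1⟩ := exists_G hF
  obtain ⟨ρ2, hρ2, H2⟩ := exists_G hU
  obtain ⟨ρ3, hρ3, H3⟩ := exists_G hV
  obtain ⟨ρ4, hρ4, H4⟩ := exists_G hg
  have hune : ∀ᶠ x in 𝓝 (0 : ℂ), u x ≠ 0 := hu.continuousAt.eventually_ne hu0
  obtain ⟨δ, hδ, hδ'⟩ := Metric.eventually_nhds_iff.1 (hFu.and hune)
  obtain ⟨ρ, hρpos, hρle1, hρle2, hρle3, hρδ, hρle4⟩ : ∃ ρ : NNReal, 0 < ρ ∧ ρ ≤ ρ1 ∧ ρ ≤ ρ2 ∧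
      ρ ≤ ρ3 ∧ (ρ : ℝ) ≤ δ ∧ ρ ≤ ρ4 := by
    refine ⟨min (min (min ρ1 ρ2) (min ρ3 ⟨δ, hδ.le⟩)) ρ4, ?_, ?_, ?_, ?_, ?_, ?_⟩
    · exact lt_min (lt_min (lt_min hρ1 hρ2) (lt_min hρ3 hδ)) hρ4
    · exact ((min_le_left _ _).trans (min_le_left _ _)).trans (min_le_left _ _)
    · exact ((min_le_left _ _).trans (min_le_left _ _)).trans (min_le_right _ _)
    · exact ((min_le_left _ _).trans (min_le_right _ _)).trans (min_le_left _ _)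
    · exact (NNReal.coe_le_coe.2 (((min_le_left _ _).trans (min_le_right _ _)).trans
        (min_le_right _ _)))
    · exact min_le_right _ _
  have hρ0 : (0 : ℝ) < ρ := hρpos
  obtain ⟨G, hGa, hG⟩ := H1 ρ hρle1
  obtain ⟨GU, -, hGU⟩ := H2 ρ hρle2
  obtain ⟨GV, -, hGV⟩ := H3 ρ hρle3
  obtain ⟨GG, hGGa, hGG⟩ := H4 ρ hρle4
  have hG0 := hG.self_of_nhds
  have hU0 := hGU.self_of_nhds
  have hV0 := hGV.self_of_nhds
  obtain ⟨U, hUdef⟩ : ∃ U, U = GU p0 := ⟨_, rfl⟩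
  obtain ⟨V, hVdef⟩ : ∃ V, V = GV p0 := ⟨_, rfl⟩
  rw [← hUdef] at hU0
  rw [← hVdef] at hV0
  have hsmall : ∀ ξ : ℂ, ‖ξ‖ ≤ 1 / 2 →
      F (ρ * ξ, p0) = (ρ * ξ) ^ b * u (ρ * ξ) ∧ u (ρ * ξ) ≠ 0 := by
    intro ξ hξ
    refine hδ' ?_
    rw [dist_zero_right, norm_mul, norm_nn]
    nlinarith only [hδ, hρδ, hξ, norm_nonneg ξ]
  have hUV : U * V = 1 := by
    refine op_ext fun ξ _ hξ f => ?_
    show ev ξ (U (V f)) = ev ξ f
    rw [hU0 ξ hξ, hV0 ξ hξ, ← mul_assoc, mul_inv_cancel₀ (hsmall ξ hξ).2, one_mul]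
  have hVU : V * U = 1 := by
    refine op_ext fun ξ _ hξ f => ?_
    show ev ξ (V (U f)) = ev ξ f
    rw [hV0 ξ hξ, hU0 ξ hξ, ← mul_assoc, inv_mul_cancel₀ (hsmall ξ hξ).2, one_mul]
  have hGp : G p0 = (ρ : ℂ) ^ b • (S ^ b * U) := by
    refine op_ext fun ξ _ hξ f => ?_
    have h1 : ((ρ : ℂ) ^ b • (S ^ b * U)) f = (ρ : ℂ) ^ b • (S ^ b) (U f) := rfl
    rw [hG0 ξ hξ, h1, ev_smul, ev_S_pow hξ, hU0 ξ hξ, (hsmall ξ hξ).1]
    ring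
  obtain ⟨K, hK⟩ : ∃ K : Y → (A →L[ℂ] A), K = fun y => T ^ b * G y := ⟨_, rfl⟩
  have hKa : AnalyticAt ℂ K p0 := by
    rw [hK]
    exact analyticAt_const.mul hGa
  have hKp : K p0 = (ρ : ℂ) ^ b • U := by
    rw [hK]
    simp only
    rw [hGp, mul_smul_comm, ← mul_assoc, T_pow_mul_S_pow, one_mul]
  have hρc : (ρ : ℂ) ≠ 0 := by
    rw [← norm_pos_iff, norm_nn]
    exact hρ0
  have hρb : (ρ : ℂ) ^ b ≠ 0 := pow_ne_zero _ hρc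
  let κ : (A →L[ℂ] A)ˣ := ⟨K p0, ((ρ : ℂ) ^ b)⁻¹ • V, by
    rw [hKp, smul_mul_smul_comm, hUV, mul_inv_cancel₀ hρb, one_smul], by
    rw [hKp, smul_mul_smul_comm, hVU, inv_mul_cancel₀ hρb, one_smul]⟩
  have hinv : AnalyticAt ℂ (fun y => Ring.inverse (K y)) p0 :=
    AnalyticAt.comp_of_eq (analyticAt_inverse κ) hKa rfl
  obtain ⟨q, hq⟩ : ∃ q : Y → A, q = fun y => (Ring.inverse (K y) * (T ^ b * GG y)) e0 := ⟨_, rfl⟩
  obtain ⟨w, hw⟩ : ∃ w : Y → A, w = fun y => (GG y - G y * (Ring.inverse (K y) *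
    (T ^ b * GG y))) e0 := ⟨_, rfl⟩
  have hTG : AnalyticAt ℂ (fun y => T ^ b * GG y) p0 := analyticAt_const.mul hGGa
  have hwa : ∀ n, AnalyticAt ℂ (fun y => w y n) p0 := by
    intro n
    have h1 : AnalyticAt ℂ (fun y => GG y - G y * (Ring.inverse (K y) * (T ^ b * GG y))) p0 :=
      hGGa.sub (hGa.mul (hinv.mul hTG))
    have h2 := ((cf n) ∘L (ContinuousLinearMap.apply ℂ A e0)).analyticAt (GG p0 - G p0 *
      (Ring.inverse (K p0) * (T ^ b * GG p0)))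
    have h3 := AnalyticAt.comp_of_eq h2 h1 rfl
    rw [hw]
    exact h3
  have hunit : ∀ᶠ y in 𝓝 p0, IsUnit (K y) :=
    hKa.continuousAt.eventually (Units.isOpen.mem_nhds ⟨κ, rfl⟩)
  have hwb : ∀ y, IsUnit (K y) → ∀ n, w y (n + b) = 0 := by
    intro y hy n
    rw [← T_pow_apply]
    have h1 : (T ^ b) (w y) = (T ^ b * GG y - K y * Ring.inverse (K y) * (T ^ b * GG y)) e0 := by
      rw [hw, hK]
      simp only [mul_assoc]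
      rw [_root_.sub_apply, _root_.sub_apply, map_sub]
      rfl
    rw [h1, Ring.mul_inverse_cancel _ hy, one_mul, sub_self]
    rfl
  have hgw : ∀ᶠ y in 𝓝 p0, ∀ ξ : ℂ, ‖ξ‖ ≤ 1 / 2 →
      ev ξ (w y) = g (ρ * ξ, y) - F (ρ * ξ, y) * ev ξ (q y) := by
    filter_upwards [hG, hGG] with y hy hy' ξ hξ
    have h1 : w y = GG y e0 - G y (q y) := by
      rw [hw, hq]
      rfl
    have h2 := (evL hξ).map_sub (GG y e0) (G y (q y))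
    rw [evL_apply, evL_apply, evL_apply] at h2
    rw [h1, h2, hy ξ hξ (q y), hy' ξ hξ e0, ev_e0, mul_one]
  have hqa : AnalyticAt ℂ q p0 := by
    have h2 := (ContinuousLinearMap.apply ℂ A e0).analyticAt (Ring.inverse (K p0) *
      (T ^ b * GG p0))
    have h3 := AnalyticAt.comp_of_eq h2 (hinv.mul hTG) rfl
    rw [hq]
    exact h3
  have hva : AnalyticAt ℂ (fun z : ℂ × Y => evM (z.1 / ρ) (q z.2)) (0, p0) := by
    have h1 : AnalyticAt ℂ (fun z : ℂ × Y => evM (z.1 / ρ)) (0, p0) := by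
      refine AnalyticAt.comp_of_eq analyticAt_evM (analyticAt_fst.div_const) ?_
      simp
    have h2 : AnalyticAt ℂ (fun z : ℂ × Y => q z.2) (0, p0) :=
      AnalyticAt.comp_of_eq hqa analyticAt_snd rfl
    exact AnalyticAt.comp_of_eq
      ((ContinuousLinearMap.id ℂ (A →L[ℂ] ℂ)).analyticAt_bilinear
        (evM ((0 : ℂ × Y).1 / ρ), q p0)) (h1.prod h2) rfl
  have hevw : ∀ y, IsUnit (K y) → ∀ ξ : ℂ, ev ξ (w y) =
      ∑ i : Fin b, w y i * ξ ^ (i : ℕ) := by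
    intro y hy ξ
    unfold ev
    rw [tsum_eq_sum (s := Finset.range b), Finset.sum_range]
    intro n hn
    rw [Finset.mem_range, not_lt] at hn
    obtain ⟨m, rfl⟩ := Nat.exists_eq_add_of_le hn
    rw [add_comm, hwb y hy m, zero_mul]
  refine ⟨fun z => evM (z.1 / ρ) (q z.2), fun i y => w y i * ((ρ : ℂ) ^ (i : ℕ))⁻¹, hva,
    fun i => (hwa i).mul analyticAt_const, ?_⟩
  have hsm : ∀ᶠ z : ℂ × Y in 𝓝 (0, p0), ‖z.1 / (ρ : ℂ)‖ < 1 / 2 := by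
    have h1 : ContinuousAt (fun z : ℂ × Y => ‖z.1 / (ρ : ℂ)‖) (0, p0) := by fun_prop
    refine h1.eventually_lt continuousAt_const ?_
    simp
  have hsnd : Tendsto (Prod.snd : ℂ × Y → Y) (𝓝 (0, p0)) (𝓝 p0) := continuousAt_snd
  filter_upwards [hsnd.eventually hunit, hsnd.eventually hgw, hsm] with z hy1 hy2 hz
  obtain ⟨ξ, hξdef⟩ : ∃ ξ : ℂ, ξ = z.1 / ρ := ⟨_, rfl⟩
  have hxξ : z.1 = ρ * ξ := by
    rw [hξdef]
    field_simp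
  have hξ : ‖ξ‖ ≤ 1 / 2 := by
    rw [hξdef]
    exact hz.le
  have h1 := hy2 ξ hξ
  rw [hevw _ hy1] at h1
  have h3 : (z : ℂ × Y) = (ρ * ξ, z.2) := by
    rw [← hxξ]
  have h4 : ∑ i : Fin b, w z.2 i * ((ρ : ℂ) ^ (i : ℕ))⁻¹ * z.1 ^ (i : ℕ) =
      ∑ i : Fin b, w z.2 i * ξ ^ (i : ℕ) := by
    refine Finset.sum_congr rfl fun i _ => ?_
    rw [hxξ, mul_pow]
    field_simp
  rw [h4, h1, ← hξdef, evM_apply hξ]
  rw [← hxξ]
  ring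

end Vale.Agent.P298.H941
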