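import Vale.Agent.P298.H941.One
import Vale.Agent.P298.H941.Poly

/-!
# P298 (helper941): resultants of polynomials whose coefficients are germs
-/

open Filter Topology Polynomial

namespace Vale.Agent.P298.H941

theorem intCast_eq_mk (n : ℤ) : ((n : ℤ) : O ℂ) = mk (fun _ : ℂ => (n : ℂ)) analyticAt_const := by
  rw [← algebraMap_eq]
  exact (map_intCast (algebraMap ℂ (O ℂ)) n).symm

theorem det_mk {m : ℕ} (A : ℂ → Matrix (Fin m) (Fin m) ℂ)
    (hA : ∀ i j, AnalyticAt ℂ (fun y => A y i j) 0) :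
    (Matrix.of fun i j => mk (fun y => A y i j) (hA i j)).det =
      mk (fun y => (A y).det) (analyticAt_det hA) := by
  rw [Matrix.det_apply']
  have h1 : ∀ σ : Equiv.Perm (Fin m), (((Equiv.Perm.sign σ : ℤ) : O ℂ)) *
      ∏ i, (Matrix.of fun i j => mk (fun y => A y i j) (hA i j)) (σ i) i =
      mk (fun y => ((Equiv.Perm.sign σ : ℤ) : ℂ) * ∏ i, A y (σ i) i)
        (analyticAt_const.mul (Finset.analyticAt_fun_prod _ fun i _ => hA _ _)) := by
    intro σ
    rw [intCast_eq_mk]
    simp only [Matrix.of_apply]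
    rw [mk_prod, mk_mul]
  rw [Finset.sum_congr rfl fun σ _ => h1 σ, mk_sum]
  refine mk_congr _ _ (Eventually.of_forall fun y => ?_)
  rw [Matrix.det_apply']

/-- the polynomial with germ coefficients of a family of polynomials -/
noncomputable def polyG (m : ℕ) (P : ℂ → ℂ[X]) (hP : ∀ i, AnalyticAt ℂ (fun y => (P y).coeff i) 0) :
    (O ℂ)[X] := ∑ i ∈ Finset.range (m + 1), C (mk _ (hP i)) * X ^ i

theorem polyG_natDegree (m : ℕ) (P : ℂ → ℂ[X])
    (hP : ∀ i, AnalyticAt ℂ (fun y => (P y).coeff i) 0) : (polyG m P hP).natDegree ≤ m := by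
  refine natDegree_sum_le_of_forall_le _ _ fun i hi => ?_
  rw [Finset.mem_range] at hi
  exact (natDegree_C_mul_X_pow_le _ _).trans (by omega)

theorem polyG_coeff {m : ℕ} {P : ℂ → ℂ[X]} {hP : ∀ i, AnalyticAt ℂ (fun y => (P y).coeff i) 0}
    (hm : ∀ y, (P y).natDegree ≤ m) (k : ℕ) : (polyG m P hP).coeff k = mk _ (hP k) := by
  unfold polyG
  rw [finsetSum_coeff]
  simp only [coeff_C_mul_X_pow]
  rw [Finset.sum_ite_eq]
  split_ifs with h
  · rfl
  · rw [Finset.mem_range] at h
    rw [eq_comm, mk_eq_zero_iff]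
    exact Eventually.of_forall fun y => coeff_eq_zero_of_natDegree_lt (by have := hm y; omega)

theorem polyG_eval₂ {m : ℕ} {P : ℂ → ℂ[X]} {hP : ∀ i, AnalyticAt ℂ (fun y => (P y).coeff i) 0}
    {B : Type*} [CommRing B] (φ : O ℂ →+* B) (z : B) :
    (polyG m P hP).eval₂ φ z = ∑ i ∈ Finset.range (m + 1), φ (mk _ (hP i)) * z ^ i := by
  unfold polyG
  rw [eval₂_finsetSum]
  refine Finset.sum_congr rfl fun i _ => ?_
  rw [eval₂_mul, eval₂_C, eval₂_X_pow]

theorem resultant_mk {m n : ℕ} {P R : ℂ → ℂ[X]}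
    (hP : ∀ i, AnalyticAt ℂ (fun y => (P y).coeff i) 0)
    (hR : ∀ i, AnalyticAt ℂ (fun y => (R y).coeff i) 0)
    (hm : ∀ y, (P y).natDegree ≤ m) (hn : ∀ y, (R y).natDegree ≤ n) :
    resultant (polyG m P hP) (polyG n R hR) m n =
      mk (fun y => resultant (P y) (R y) m n) (analyticAt_resultant hP hR m n) := by
  have hA : ∀ i j, AnalyticAt ℂ (fun y => sylvester (P y) (R y) m n i j) 0 := by
    intro i j
    refine Fin.addCases (fun j₁ => ?_) (fun j₁ => ?_) j
    · simp only [sylvester, Matrix.of_apply, Fin.addCases_left]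
      split_ifs
      · exact hR _
      · exact analyticAt_const
    · simp only [sylvester, Matrix.of_apply, Fin.addCases_right]
      split_ifs
      · exact hP _
      · exact analyticAt_const
  have h1 : sylvester (polyG m P hP) (polyG n R hR) m n =
      Matrix.of fun i j => mk (fun y => sylvester (P y) (R y) m n i j) (hA i j) := by
    ext i j
    rw [Matrix.of_apply]
    refine Fin.addCases (fun j₁ => ?_) (fun j₁ => ?_) j
    · simp only [sylvester, Matrix.of_apply, Fin.addCases_left]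
      split_ifs
      · exact polyG_coeff hn _
      · rfl
    · simp only [sylvester, Matrix.of_apply, Fin.addCases_right]
      split_ifs
      · exact polyG_coeff hm _
      · rfl
  have h2 := det_mk (fun y => sylvester (P y) (R y) m n) hA
  unfold resultant
  rw [h1]
  exact h2

end Vale.Agent.P298.H941
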