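import Vale.Agent.P298.H941.Syl
import Vale.Agent.P298.H941.ResG
import Vale.Agent.P298.H941.Curve

/-!
# P298 (helper941): elimination of two variables
-/

open Filter Topology Polynomial

namespace Vale.Agent.P298.H941

open Vale.Agent.P267.H823

/-- the space with the coordinates (z, (y, x)) -/
abbrev E3 := ℂ × (ℂ × ℂ)

/-- the third coordinate -/
def X3 : E3 → ℂ := fun p => p.2.2

theorem ana_X3 (p : E3) : AnalyticAt ℂ X3 p := by
  have h1 : AnalyticAt ℂ (fun q : ℂ × ℂ => q.2) p.2 := analyticAt_snd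
  exact AnalyticAt.comp_of_eq (g := fun q : ℂ × ℂ => q.2) h1 analyticAt_snd rfl

theorem ana_Y3 (p : E3) : AnalyticAt ℂ (fun p : E3 => p.2.1) p := by
  have h1 : AnalyticAt ℂ (fun q : ℂ × ℂ => q.1) p.2 := analyticAt_fst
  exact AnalyticAt.comp_of_eq (g := fun q : ℂ × ℂ => q.1) h1 analyticAt_snd rfl

theorem ana_inl (y : ℂ) : AnalyticAt ℂ (fun y : ℂ => ((y, 0) : ℂ × ℂ)) y :=
  analyticAt_id.prod analyticAt_const

/-- restriction to the line `x = 0` -/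
noncomputable def inl2 : O (ℂ × ℂ) →ₐ[ℂ] O ℂ :=
  pull (fun y : ℂ => ((y, 0) : ℂ × ℂ)) (ana_inl 0) rfl

/-- functions of `y` as functions of all variables -/
noncomputable def yH : O ℂ →ₐ[ℂ] O E3 := pull (fun p : E3 => p.2.1) (ana_Y3 0) rfl

theorem hadamard (r : O (ℂ × ℂ)) : ∃ v : O (ℂ × ℂ),
    r = pull (fun q : ℂ × ℂ => q.1) analyticAt_fst rfl (inl2 r) +
      v * mk (fun q : ℂ × ℂ => q.2) analyticAt_snd := by
  have hsw : AnalyticAt ℂ (fun q : ℂ × ℂ => (q.2, q.1)) 0 := analyticAt_snd.prod analyticAt_fst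
  have hsw0 : (fun q : ℂ × ℂ => (q.2, q.1)) 0 = 0 := rfl
  obtain ⟨v, c, h⟩ := germ_division (Y := ℂ) (fstG ℂ) (b := 1) (u := 1) isUnit_one
    (by rw [inlH_fstG, pow_one, mul_one]) (pull _ hsw hsw0 r)
  rw [Fin.sum_univ_one, Fin.val_zero, pow_zero, mul_one] at h
  have h1 := congrArg (pull _ hsw hsw0) h
  rw [map_add, map_mul] at h1
  have e1 : pull _ hsw hsw0 (pull _ hsw hsw0 r) = r := by
    obtain ⟨f, hf, rfl⟩ := exists_rep r
    rfl
  have e2 : pull _ hsw hsw0 (fstG ℂ) = mk (fun q : ℂ × ℂ => q.2) analyticAt_snd := rfl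
  have e3 : pull _ hsw hsw0 (sndH ℂ (c 0)) =
      pull (fun q : ℂ × ℂ => q.1) analyticAt_fst rfl (c 0) := by
    obtain ⟨f, hf, hfc⟩ := exists_rep (c 0)
    rw [← hfc]
    rfl
  rw [e1, e2, e3] at h1
  have e4 : inl2 r = c 0 := by
    rw [h1, map_add, map_mul]
    have e5 : inl2 (mk (fun q : ℂ × ℂ => q.2) analyticAt_snd) = 0 := rfl
    have e6 : inl2 (pull (fun q : ℂ × ℂ => q.1) analyticAt_fst rfl (c 0)) = c 0 := by
      obtain ⟨f, hf, hfc⟩ := exists_rep (c 0)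
      rw [← hfc]
      rfl
    rw [e5, e6, mul_zero, zero_add]
  refine ⟨pull _ hsw hsw0 v, ?_⟩
  rw [e4, add_comm]
  exact h1

theorem sndH_mod (J : Ideal (O E3)) (hX : mk X3 (ana_X3 0) ∈ J) (c : O (ℂ × ℂ)) :
    Ideal.Quotient.mk J (sndH (ℂ × ℂ) c) = Ideal.Quotient.mk J (yH (inl2 c)) := by
  obtain ⟨v, hv⟩ := hadamard c
  have h1 : sndH (ℂ × ℂ) c = yH (inl2 c) + sndH (ℂ × ℂ) v * mk X3 (ana_X3 0) := by
    conv_lhs => rw [hv]
    rw [map_add, map_mul]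
    congr 1
    obtain ⟨f, hf, hfc⟩ := exists_rep (inl2 c)
    rw [← hfc]
    rfl
  rw [h1, map_add, map_mul, Ideal.Quotient.eq_zero_iff_mem.2 hX, mul_zero, add_zero]

/-- the remainder of the division -/
noncomputable def remP {b : ℕ} (r : Fin b → ℂ × ℂ → ℂ) (w : ℂ × ℂ) : ℂ[X] :=
  ∑ i : Fin b, C (r i w) * X ^ (i : ℕ)

theorem remP_natDegree {b : ℕ} (r : Fin b → ℂ × ℂ → ℂ) (w : ℂ × ℂ) :
    (remP r w).natDegree ≤ b := by
  refine natDegree_sum_le_of_forall_le _ _ fun i _ => ?_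
  exact (natDegree_C_mul_X_pow_le _ _).trans i.2.le

theorem remP_eval {b : ℕ} (r : Fin b → ℂ × ℂ → ℂ) (w : ℂ × ℂ) (z : ℂ) :
    (remP r w).eval z = ∑ i, r i w * z ^ (i : ℕ) := by
  unfold remP
  rw [eval_finsetSum]
  simp

theorem remP_coeff {b : ℕ} {r : Fin b → ℂ × ℂ → ℂ} {w : ℂ × ℂ}
    (hr : ∀ i, AnalyticAt ℂ (r i) w) (k : ℕ) : AnalyticAt ℂ (fun w => (remP r w).coeff k) w := by
  unfold remP
  simp only [finsetSum_coeff, coeff_C_mul_X_pow]
  refine Finset.analyticAt_fun_sum _ fun i _ => ?_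
  split_ifs
  · exact hr i
  · exact analyticAt_const

section dim

variable {F E : E3 → ℂ} (hF : AnalyticAt ℂ F 0) (hE : AnalyticAt ℂ E 0) {b : ℕ} {u : ℂ → ℂ}
  (hu : AnalyticAt ℂ u 0) (hu0 : u 0 ≠ 0) (hFu : ∀ᶠ z in 𝓝 (0 : ℂ), F (z, 0) = z ^ b * u z)
  {P : ℂ × ℂ → ℂ[X]} {v : E3 → ℂ} (hPm : ∀ y, (P y).Monic ∧ (P y).natDegree = b)
  (hPa : ∀ i, AnalyticAt ℂ (fun y => (P y).coeff i) 0) (hva : AnalyticAt ℂ v 0)
  (hFv : ∀ᶠ p : E3 in 𝓝 0, F p * v p = (P p.2).eval p.1)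
  {v' : E3 → ℂ} {r : Fin b → ℂ × ℂ → ℂ} (hv'a : AnalyticAt ℂ v' 0)
  (hra : ∀ i, AnalyticAt ℂ (r i) 0)
  (hEv : ∀ᶠ p : E3 in 𝓝 0, E p = v' p * F p + ∑ i, r i p.2 * p.1 ^ (i : ℕ))

include hu hu0 hFu hPm hPa hva hFv hv'a hra hEv

/-- The dimension of `O/(F, E, x)` is at most the order of the resultant at `x = 0`. -/
theorem dim_le {N : ℕ}
    (hN : analyticOrderAt (fun y : ℂ => resultant (P (y, 0)) (remP r (y, 0)) b b) 0 = N) :
    Module.Finite ℂ (O E3 ⧸ Jd ![F, E, X3] (ana3 hF hE (ana_X3 0))) ∧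
      Module.finrank ℂ (O E3 ⧸ Jd ![F, E, X3] (ana3 hF hE (ana_X3 0))) ≤ N := by
  set J := Jd ![F, E, X3] (ana3 hF hE (ana_X3 0)) with hJ
  have memF : mk F hF ∈ J := Ideal.subset_span ⟨0, rfl⟩
  have memE : mk E hE ∈ J := Ideal.subset_span ⟨1, rfl⟩
  have memX : mk X3 (ana_X3 0) ∈ J := Ideal.subset_span ⟨2, rfl⟩
  set φ : O ℂ →ₐ[ℂ] O E3 ⧸ J := (Ideal.Quotient.mkₐ ℂ J).comp yH with hφ
  have hφa : ∀ a, φ a = Ideal.Quotient.mk J (yH a) := fun a => rfl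
  set z := Ideal.Quotient.mk J (fstG (ℂ × ℂ)) with hz
  -- the restricted families of polynomials
  have hP0 : ∀ i, AnalyticAt ℂ (fun y : ℂ => (P (y, 0)).coeff i) 0 := fun i =>
    AnalyticAt.comp_of_eq (hPa i) (ana_inl 0) rfl
  have hR0 : ∀ i, AnalyticAt ℂ (fun y : ℂ => (remP r (y, 0)).coeff i) 0 := fun i =>
    AnalyticAt.comp_of_eq (remP_coeff hra i) (ana_inl 0) rfl
  have hPn : ∀ y : ℂ, (P (y, 0)).natDegree ≤ b := fun y => (hPm _).2.le
  have hRn : ∀ y : ℂ, (remP r (y, 0)).natDegree ≤ b := fun y => remP_natDegree _ _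
  have hres := resultant_mk hP0 hR0 hPn hRn
  -- evaluation of the polynomials
  have key : ∀ {S : ℂ × ℂ → ℂ[X]} (hS : ∀ i, AnalyticAt ℂ (fun w => (S w).coeff i) 0)
      (hSn : ∀ w, (S w).natDegree ≤ b)
      (hS0 : ∀ i, AnalyticAt ℂ (fun y : ℂ => (S (y, 0)).coeff i) 0)
      {g : E3 → ℂ} (hg : AnalyticAt ℂ g 0) (hgS : ∀ᶠ p : E3 in 𝓝 0, g p = (S p.2).eval p.1),
      mk g hg ∈ J →
      (polyG b (fun y : ℂ => S (y, 0)) hS0).eval₂ (φ : O ℂ →+* O E3 ⧸ J) z = 0 := by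
    intro S hS hSn hS0 g hg hgS hmem
    rw [polyG_eval₂]
    have h1 : ∀ i, (φ : O ℂ →+* O E3 ⧸ J) (mk _ (hS0 i)) * z ^ i =
        Ideal.Quotient.mk J (sndH (ℂ × ℂ) (mk _ (hS i)) * fstG (ℂ × ℂ) ^ i) := by
      intro i
      rw [map_mul, map_pow, sndH_mod J memX]
      rfl
    rw [Finset.sum_congr rfl fun i _ => h1 i, ← map_sum, Ideal.Quotient.eq_zero_iff_mem]
    have h2 : ∑ i ∈ Finset.range (b + 1), sndH (ℂ × ℂ) (mk _ (hS i)) * fstG (ℂ × ℂ) ^ i =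
        mk g hg := by
      have h3 : ∀ i, sndH (ℂ × ℂ) (mk _ (hS i)) * fstG (ℂ × ℂ) ^ i =
          mk (fun p : E3 => (S p.2).coeff i * p.1 ^ i)
            ((AnalyticAt.comp_of_eq (hS i) analyticAt_snd rfl).mul (analyticAt_fst.pow i)) :=
        fun i => rfl
      rw [Finset.sum_congr rfl fun i _ => h3 i, mk_sum]
      refine mk_congr _ _ ?_
      filter_upwards [hgS] with p hp
      rw [hp]
      exact (eval_eq_sum_range' (Nat.lt_succ_of_le (hSn p.2)) p.1).symm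
    rw [h2]
    exact hmem
  have hPz : (polyG b (fun y : ℂ => P (y, 0)) hP0).eval₂ (φ : O ℂ →+* O E3 ⧸ J) z = 0 := by
    refine key hPa (fun w => (hPm w).2.le) hP0 (hF.mul hva) hFv ?_
    have h1 : mk _ (hF.mul hva) = mk F hF * mk v hva := rfl
    rw [h1]
    exact Ideal.mul_mem_right _ _ memF
  have hRz : (polyG b (fun y : ℂ => remP r (y, 0)) hR0).eval₂ (φ : O ℂ →+* O E3 ⧸ J) z = 0 := by
    refine key (fun i => remP_coeff hra i) (fun w => remP_natDegree _ _) hR0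
      (hE.sub (hv'a.mul hF)) ?_ ?_
    · filter_upwards [hEv] with p hp
      rw [remP_eval]
      show E p - v' p * F p = _
      rw [hp]
      ring
    · have h1 : mk _ (hE.sub (hv'a.mul hF)) = mk E hE - mk v' hv'a * mk F hF := rfl
      rw [h1]
      exact sub_mem memE (Ideal.mul_mem_left _ _ memF)
  -- surjectivity
  have hsurj : ∀ q : O E3 ⧸ J, ∃ c : Fin (b + b) → O ℂ, q = ∑ i, φ (c i) * z ^ (i : ℕ) := by
    intro q
    obtain ⟨G, rfl⟩ := Ideal.Quotient.mk_surjective q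
    obtain ⟨w, c, hc⟩ := germ_division (mk F hF) (b := b) (u := mk u hu)
      ((isUnit_iff _).2 hu0) (by
        unfold inlH zz
        rw [pull_mk, mk_pow, mk_mul]
        exact mk_congr _ _ hFu) G
    refine ⟨Fin.addCases (fun i => inl2 (c i)) (fun _ => 0), ?_⟩
    rw [Fin.sum_univ_add]
    simp only [Fin.addCases_left, Fin.addCases_right, map_zero, zero_mul, Finset.sum_const_zero,
      add_zero, Fin.val_castAdd]
    rw [hc, map_add, map_mul, Ideal.Quotient.eq_zero_iff_mem.2 memF, mul_zero, zero_add, map_sum]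
    refine Finset.sum_congr rfl fun i _ => ?_
    rw [map_mul, map_pow, sndH_mod J memX]
    rfl
  have hne : mk _ (analyticAt_resultant hP0 hR0 b b) ≠ 0 := by
    rw [ne_zero_iff, hN]
    exact ENat.natCast_ne_top N
  obtain ⟨h1, h2⟩ := finrank_le_of_resultant φ z hsurj (polyG_natDegree b _ hP0)
    (polyG_natDegree b _ hR0) hPz hRz (by
      rw [hres]
      exact hne)
  refine ⟨h1, h2.trans (le_of_eq ?_)⟩
  rw [hres, ordG_mk, hN]
  rfl

end dim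

end Vale.Agent.P298.H941
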