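import Vale.Agent.P298.H941.Germ
import Vale.Agent.P298.H941.DetLen

/-!
# P298 (helper941): germs of functions of one variable form a discrete valuation ring
-/

open Filter Topology

namespace Vale.Agent.P298.H941

/-- the coordinate -/
noncomputable def zz : O ℂ := mk (fun z => z) analyticAt_id

/-- the order of vanishing -/
noncomputable def ordG (a : O ℂ) : ℕ := (analyticOrderAt (exists_rep a).choose 0).toNat

theorem ordG_mk {f : ℂ → ℂ} (hf : AnalyticAt ℂ f 0) :
    ordG (mk f hf) = (analyticOrderAt f 0).toNat := by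
  unfold ordG
  have h1 := (exists_rep (mk f hf)).choose_spec.choose_spec
  rw [mk_eq_iff] at h1
  rw [analyticOrderAt_congr h1]

theorem ne_zero_iff {f : ℂ → ℂ} (hf : AnalyticAt ℂ f 0) :
    mk f hf ≠ 0 ↔ analyticOrderAt f 0 ≠ ⊤ := by
  rw [Ne, mk_eq_zero_iff, Ne, analyticOrderAt_eq_top]

theorem order_mk {f : ℂ → ℂ} (hf : AnalyticAt ℂ f 0) (h : mk f hf ≠ 0) :
    analyticOrderAt f 0 = (ordG (mk f hf) : ℕ) := by
  rw [ordG_mk]
  rw [ne_zero_iff] at h
  exact (ENat.natCast_toNat h).symm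

theorem exists_unit_mul {a : O ℂ} (ha : a ≠ 0) : ∃ u : O ℂ, IsUnit u ∧ a = zz ^ ordG a * u := by
  obtain ⟨f, hf, rfl⟩ := exists_rep a
  obtain ⟨g, hg, hg0, hfg⟩ := (hf.analyticOrderAt_eq_natCast).1 (order_mk hf ha)
  refine ⟨mk g hg, ?_, ?_⟩
  · rw [isUnit_iff, ev0_mk]
    exact hg0
  · unfold zz
    rw [mk_pow, mk_mul]
    refine mk_congr _ _ ?_
    filter_upwards [hfg] with z hz
    rw [hz, sub_zero, smul_eq_mul]

instance : NoZeroDivisors (O ℂ) where
  eq_zero_or_eq_zero_of_mul_eq_zero := by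
    intro a b hab
    obtain ⟨f, hf, rfl⟩ := exists_rep a
    obtain ⟨g, hg, rfl⟩ := exists_rep b
    by_contra hne
    rw [not_or] at hne
    have h1 := (ne_zero_iff hf).1 hne.1
    have h2 := (ne_zero_iff hg).1 hne.2
    rw [mk_mul, mk_eq_zero_iff, ← analyticOrderAt_eq_top] at hab
    have h3 := analyticOrderAt_mul hf hg
    have h4 : (f * g) = fun x => f x * g x := rfl
    rw [h4, hab] at h3
    have h5 := (ENat.add_eq_top).1 h3.symm
    rcases h5 with h5 | h5
    · exact h1 h5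
    · exact h2 h5

instance : IsDomain (O ℂ) := NoZeroDivisors.to_isDomain _

theorem ordG_mul {a b : O ℂ} (ha : a ≠ 0) (hb : b ≠ 0) : ordG (a * b) = ordG a + ordG b := by
  obtain ⟨f, hf, rfl⟩ := exists_rep a
  obtain ⟨g, hg, rfl⟩ := exists_rep b
  have hab := mul_ne_zero ha hb
  have h3 := analyticOrderAt_mul hf hg
  have h4 : (f * g) = fun x => f x * g x := rfl
  rw [h4] at h3
  rw [mk_mul] at hab ⊢
  rw [order_mk _ hab, order_mk _ ha, order_mk _ hb] at h3
  exact_mod_cast h3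

theorem zz_ne_zero : zz ≠ 0 := by
  unfold zz
  rw [ne_zero_iff]
  have h1 : analyticOrderAt (fun z : ℂ => z) 0 = (1 : ℕ) := by
    have hid : AnalyticAt ℂ (fun z : ℂ => z) 0 := analyticAt_id
    rw [hid.analyticOrderAt_eq_natCast]
    exact ⟨fun _ => 1, analyticAt_const, one_ne_zero, Eventually.of_forall fun z => by simp⟩
  rw [h1]
  exact ENat.natCast_ne_top 1

theorem ordG_zz : ordG zz = 1 := by
  have h := zz_ne_zero
  unfold zz at h ⊢
  have h1 : analyticOrderAt (fun z : ℂ => z) 0 = (1 : ℕ) := by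
    have hid : AnalyticAt ℂ (fun z : ℂ => z) 0 := analyticAt_id
    rw [hid.analyticOrderAt_eq_natCast]
    exact ⟨fun _ => 1, analyticAt_const, one_ne_zero, Eventually.of_forall fun z => by simp⟩
  rw [order_mk _ h] at h1
  exact_mod_cast h1

theorem ev0_zz : ev0 ℂ zz = 0 := rfl

theorem ordG_eq_zero_iff {a : O ℂ} (ha : a ≠ 0) : ordG a = 0 ↔ IsUnit a := by
  constructor
  · intro h
    obtain ⟨u, hu, h1⟩ := exists_unit_mul ha
    rw [h, pow_zero, one_mul] at h1
    rwa [h1]
  · intro h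
    obtain ⟨b, hb⟩ := h.exists_right_inv
    have hb0 : b ≠ 0 := by
      rintro rfl
      rw [mul_zero] at hb
      exact zero_ne_one hb
    have h1 := ordG_mul ha hb0
    have h2 := ordG_mul (one_ne_zero (α := O ℂ)) (one_ne_zero (α := O ℂ))
    rw [mul_one] at h2
    rw [hb] at h1
    omega

theorem ordG_pow {a : O ℂ} (ha : a ≠ 0) (n : ℕ) : ordG (a ^ n) = n * ordG a := by
  induction n with
  | zero =>
    rw [pow_zero, zero_mul]
    exact (ordG_eq_zero_iff one_ne_zero).2 isUnit_one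
  | succ n ih =>
    rw [pow_succ, ordG_mul (pow_ne_zero n ha) ha, ih]
    ring

theorem irreducible_zz : Irreducible zz := by
  constructor
  · rw [isUnit_iff, ev0_zz]
    exact fun h => h rfl
  · intro a b hab
    have ha : a ≠ 0 := by
      rintro rfl
      rw [zero_mul] at hab
      exact zz_ne_zero hab
    have hb : b ≠ 0 := by
      rintro rfl
      rw [mul_zero] at hab
      exact zz_ne_zero hab
    have h1 := ordG_mul ha hb
    rw [← hab, ordG_zz] at h1
    rcases Nat.eq_zero_or_pos (ordG a) with h2 | h2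
    · exact Or.inl ((ordG_eq_zero_iff ha).1 h2)
    · exact Or.inr ((ordG_eq_zero_iff hb).1 (by omega))

instance : IsDiscreteValuationRing (O ℂ) :=
  IsDiscreteValuationRing.ofHasUnitMulPowIrreducibleFactorization
    ⟨zz, irreducible_zz, fun {x} hx => by
      obtain ⟨u, hu, h⟩ := exists_unit_mul hx
      exact ⟨ordG x, hu.unit, h.symm⟩⟩

theorem exists_eq_add_zz (a : O ℂ) : ∃ b : O ℂ, a = algebraMap ℂ (O ℂ) (ev0 ℂ a) + zz * b := by
  by_cases h : a - algebraMap ℂ (O ℂ) (ev0 ℂ a) = 0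
  · exact ⟨0, by rw [mul_zero, add_zero]; exact sub_eq_zero.1 h⟩
  · obtain ⟨u, hu, h1⟩ := exists_unit_mul h
    have h2 : ordG (a - algebraMap ℂ (O ℂ) (ev0 ℂ a)) ≠ 0 := by
      rw [Ne, ordG_eq_zero_iff h, isUnit_iff, not_not, map_sub, AlgHom.commutes]
      exact sub_self _
    obtain ⟨n, hn⟩ := Nat.exists_eq_succ_of_ne_zero h2
    refine ⟨zz ^ n * u, ?_⟩
    rw [hn, pow_succ'] at h1
    rw [← mul_assoc, ← h1]
    ring

/-- Taylor expansion of order `n` -/
theorem exists_taylor1 (n : ℕ) (a : O ℂ) : ∃ (c : Fin n → ℂ) (b : O ℂ),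
    a = ∑ i, c i • zz ^ (i : ℕ) + zz ^ n * b := by
  induction n with
  | zero => exact ⟨fun i => i.elim0, a, by simp⟩
  | succ n ih =>
    obtain ⟨c, b, h⟩ := ih
    obtain ⟨b', hb'⟩ := exists_eq_add_zz b
    refine ⟨Fin.snoc c (ev0 ℂ b), b', ?_⟩
    rw [Fin.sum_univ_castSucc]
    simp only [Fin.snoc_castSucc, Fin.snoc_last, Fin.val_castSucc, Fin.val_last]
    conv_lhs => rw [h, hb']
    rw [Algebra.smul_def (ev0 ℂ b)]
    ring

theorem taylor1_unique (n : ℕ) (c : Fin n → ℂ) (b : O ℂ)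
    (h : ∑ i, c i • zz ^ (i : ℕ) = zz ^ n * b) : c = 0 := by
  induction n with
  | zero => exact Subsingleton.elim _ _
  | succ n ih =>
    rw [Fin.sum_univ_succ] at h
    simp only [Fin.val_zero, pow_zero, Fin.val_succ, pow_succ'] at h
    have h1 : ∑ i : Fin n, c i.succ • (zz * zz ^ (i : ℕ)) =
        zz * ∑ i : Fin n, c i.succ • zz ^ (i : ℕ) := by
      rw [Finset.mul_sum]
      exact Finset.sum_congr rfl fun i _ => by rw [mul_smul_comm]
    rw [h1] at h
    have h2 : c 0 = 0 := by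
      have h3 := congrArg (ev0 ℂ) h
      rw [map_add, map_smul, map_one, map_mul, map_mul, map_mul, ev0_zz] at h3
      simpa using h3
    rw [h2, zero_smul, zero_add, mul_assoc] at h
    have h4 := ih (fun i => c i.succ) (mul_left_cancel₀ zz_ne_zero h)
    funext i
    refine Fin.cases h2 (fun j => ?_) i
    exact congrFun h4 j

/-- The dimension of the quotient by a nonzero germ is its order of vanishing. -/
theorem finrank_quot (a : O ℂ) (ha : a ≠ 0) :
    Module.Finite ℂ (O ℂ ⧸ Ideal.span ({a} : Set (O ℂ))) ∧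
      Module.finrank ℂ (O ℂ ⧸ Ideal.span ({a} : Set (O ℂ))) = ordG a := by
  obtain ⟨u, hu, h⟩ := exists_unit_mul ha
  have hspan : Ideal.span ({a} : Set (O ℂ)) = Ideal.span ({zz ^ ordG a} : Set (O ℂ)) := by
    refine Ideal.span_singleton_eq_span_singleton.2 ?_
    exact Associated.symm ⟨hu.unit, h.symm⟩
  rw [hspan]
  obtain ⟨n, hn⟩ : ∃ n, n = ordG a := ⟨_, rfl⟩
  rw [← hn]
  set I := Ideal.span ({zz ^ n} : Set (O ℂ)) with hI
  set T : (Fin n → ℂ) →ₗ[ℂ] O ℂ ⧸ I :=
    Fintype.linearCombination ℂ (fun i : Fin n => (Ideal.Quotient.mk I (zz ^ (i : ℕ)) : O ℂ ⧸ I))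
    with hT
  have hTapp : ∀ c : Fin n → ℂ, T c = Ideal.Quotient.mk I (∑ i : Fin n, c i • zz ^ (i : ℕ)) := by
    intro c
    rw [hT, Fintype.linearCombination_apply, map_sum]
    rfl
  have hinj : Function.Injective T := by
    rw [← LinearMap.ker_eq_bot, LinearMap.ker_eq_bot']
    intro c hc
    rw [hTapp, Ideal.Quotient.eq_zero_iff_mem, hI, Ideal.mem_span_singleton'] at hc
    obtain ⟨b, hb⟩ := hc
    exact taylor1_unique n c b (by rw [← hb, mul_comm])
  have hsurj : Function.Surjective T := by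
    intro q
    obtain ⟨f, rfl⟩ := Ideal.Quotient.mk_surjective q
    obtain ⟨c, b, h⟩ := exists_taylor1 n f
    refine ⟨c, ?_⟩
    rw [hTapp, Ideal.Quotient.eq, hI, Ideal.mem_span_singleton']
    refine ⟨-b, ?_⟩
    rw [h]
    ring
  let e := LinearEquiv.ofBijective T ⟨hinj, hsurj⟩
  refine ⟨Module.Finite.equiv e, ?_⟩
  rw [← e.finrank_eq, Module.finrank_fin_fun]

/-- The dimension of the cokernel of a matrix of germs is the order of its determinant. -/
theorem finrank_coker_germ {M : Type*} [AddCommGroup M] [Module (O ℂ) M] [Module ℂ M]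
    [IsScalarTower ℂ (O ℂ) M] {ι : Type*} [Fintype ι] (b : Module.Basis ι (O ℂ) M)
    (φ : M →ₗ[O ℂ] M) (hφ : LinearMap.det φ ≠ 0) :
    Module.Finite ℂ (M ⧸ LinearMap.range φ) ∧
      Module.finrank ℂ (M ⧸ LinearMap.range φ) = ordG (LinearMap.det φ) :=
  finrank_coker b ordG (fun _ _ hx hy => ordG_mul hx hy) (fun x hx => finrank_quot x hx) φ hφ

end Vale.Agent.P298.H941
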