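import Vale.Agent.P298.H941.Div
import Vale.Agent.P298.H941.One

/-!
# P298 (helper941): quasi-finite homomorphisms of rings of germs are finite
-/

open Filter Topology Polynomial

namespace Vale.Agent.P298.H941

variable {Y : Type} [NormedAddCommGroup Y] [NormedSpace ℂ Y]

/-- the first coordinate -/
noncomputable def fstG (Y : Type) [NormedAddCommGroup Y] [NormedSpace ℂ Y] : O (ℂ × Y) :=
  mk (fun p : ℂ × Y => p.1) analyticAt_fst

/-- pullback along the second projection -/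
noncomputable def sndH (Y : Type) [NormedAddCommGroup Y] [NormedSpace ℂ Y] :
    O Y →ₐ[ℂ] O (ℂ × Y) :=
  pull (fun p : ℂ × Y => p.2) analyticAt_snd rfl

/-- restriction to the first axis -/
noncomputable def inlH (Y : Type) [NormedAddCommGroup Y] [NormedSpace ℂ Y] :
    O (ℂ × Y) →ₐ[ℂ] O ℂ :=
  pull (fun z : ℂ => (z, (0 : Y))) (analyticAt_id.prod analyticAt_const) rfl

theorem inlH_fstG : inlH Y (fstG Y) = zz := rfl

theorem inlH_sndH (a : O Y) : inlH Y (sndH Y a) = algebraMap ℂ (O ℂ) (ev0 Y a) := by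
  obtain ⟨f, hf, rfl⟩ := exists_rep a
  rfl

/-- Weierstrass division for germs. -/
theorem germ_division (g : O (ℂ × Y)) {b : ℕ} {u : O ℂ} (hu : IsUnit u)
    (h : inlH Y g = zz ^ b * u) (G : O (ℂ × Y)) :
    ∃ (v : O (ℂ × Y)) (r : Fin b → O Y), G = v * g + ∑ i, sndH Y (r i) * fstG Y ^ (i : ℕ) := by
  obtain ⟨g, hg, rfl⟩ := exists_rep g
  obtain ⟨G, hG, rfl⟩ := exists_rep G
  obtain ⟨u, hua, rfl⟩ := exists_rep u
  rw [isUnit_iff, ev0_mk] at hu
  unfold inlH zz at h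
  rw [pull_mk, mk_pow, mk_mul, mk_eq_iff] at h
  have hg' : AnalyticAt ℂ g ((0 : ℂ), (0 : Y)) := hg
  have hG' : AnalyticAt ℂ G ((0 : ℂ), (0 : Y)) := hG
  obtain ⟨v, r, hv, hr, hvr⟩ := weierstrass_division hg' hua hu h hG'
  refine ⟨mk v hv, fun i => mk (r i) (hr i), ?_⟩
  unfold sndH fstG
  simp only [pull_mk, mk_pow, mk_mul]
  rw [mk_sum, mk_add, mk_eq_iff]
  exact hvr

theorem finite_quot (g : O (ℂ × Y)) {b : ℕ} {u : O ℂ} (hu : IsUnit u)
    (h : inlH Y g = zz ^ b * u) :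
    ((Ideal.Quotient.mk (Ideal.span ({g} : Set (O (ℂ × Y))))).comp
      (sndH Y : O Y →+* O (ℂ × Y))).Finite := by
  classical
  set I := Ideal.span ({g} : Set (O (ℂ × Y))) with hI
  set ψ := ((Ideal.Quotient.mk I).comp (sndH Y : O Y →+* O (ℂ × Y))) with hψ
  algebraize [ψ]
  show Module.Finite (O Y) (O (ℂ × Y) ⧸ I)
  refine ⟨⟨Finset.image (fun i : Fin b => Ideal.Quotient.mk I (fstG Y ^ (i : ℕ))) Finset.univ,
    ?_⟩⟩
  rw [eq_top_iff]
  rintro q -
  obtain ⟨G, rfl⟩ := Ideal.Quotient.mk_surjective q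
  obtain ⟨v, r, hG⟩ := germ_division g hu h G
  have h1 : Ideal.Quotient.mk I G = ∑ i, r i • Ideal.Quotient.mk I (fstG Y ^ (i : ℕ)) := by
    rw [hG, map_add, map_mul, map_sum]
    have h2 : Ideal.Quotient.mk I g = 0 :=
      Ideal.Quotient.eq_zero_iff_mem.2 (Ideal.subset_span rfl)
    rw [h2, mul_zero, zero_add]
    refine Finset.sum_congr rfl fun i _ => ?_
    rw [Algebra.smul_def, map_mul]
    rfl
  rw [h1]
  refine Submodule.sum_mem _ fun i _ => Submodule.smul_mem _ _ (Submodule.subset_span ?_)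
  exact Finset.mem_coe.2 (Finset.mem_image.2 ⟨i, Finset.mem_univ i, rfl⟩)

/-- One step of the finiteness theorem: elimination of one variable. -/
theorem finite_step {Q : Type*} [CommRing Q] (φ : O (ℂ × Y) →+* Q) (hφ : φ.Finite) (w : O Y)
    (hw : ev0 Y w = 0) (k : ℕ) (hk : φ (fstG Y) ^ k ∈ Ideal.span ({φ (sndH Y w)} : Set Q)) :
    (φ.comp (sndH Y : O Y →+* O (ℂ × Y))).Finite := by
  obtain ⟨g, b, hg, hgb⟩ : ∃ (g : O (ℂ × Y)) (b : ℕ), φ g = 0 ∧ inlH Y g = zz ^ b * 1 := by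
    algebraize [φ]
    have hfin : Module.Finite (O (ℂ × Y)) Q := hφ
    set T : Module.End (O (ℂ × Y)) Q :=
      algebraMap (O (ℂ × Y)) (Module.End (O (ℂ × Y)) Q) (fstG Y ^ k) with hT
    set I := Ideal.span ({sndH Y w} : Set (O (ℂ × Y))) with hI
    have hrange : LinearMap.range T ≤ I • ⊤ := by
      rintro _ ⟨q, rfl⟩
      rw [Ideal.mem_span_singleton'] at hk
      obtain ⟨c, hc⟩ := hk
      have h1 : T q = sndH Y w • (c * q) := by
        rw [hT, Module.algebraMap_end_apply, Algebra.smul_def, Algebra.smul_def]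
        show φ (fstG Y ^ k) * q = φ (sndH Y w) * (c * q)
        rw [map_pow, ← hc]
        ring
      rw [h1]
      exact Submodule.smul_mem_smul (Ideal.subset_span rfl) trivial
    obtain ⟨p, hp, -, hcoef, hp0⟩ :=
      LinearMap.exists_monic_and_natDegree_eq_and_coeff_mem_pow_and_aeval_eq_zero
        (O (ℂ × Y)) T I hrange
    refine ⟨p.eval (fstG Y ^ k), k * p.natDegree, ?_, ?_⟩
    · rw [hT, Polynomial.aeval_algebraMap_apply, Polynomial.coe_aeval_eq_eval] at hp0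
      have h2 := LinearMap.congr_fun hp0 (1 : Q)
      rw [Module.algebraMap_end_apply, Algebra.smul_def, mul_one] at h2
      exact h2
    · have h3 : p.map (inlH Y : O (ℂ × Y) →+* O ℂ) = X ^ p.natDegree := by
        ext1 i
        rw [Polynomial.coeff_map, Polynomial.coeff_X_pow]
        split_ifs with hi
        · rw [hi, hp.coeff_natDegree, map_one]
        · rcases lt_or_gt_of_ne hi with hi | hi
          · have h4 := hcoef i
            have h5 : p.coeff i ∈ I :=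
              Ideal.pow_le_self (by omega) h4
            rw [hI, Ideal.mem_span_singleton'] at h5
            obtain ⟨c, hc⟩ := h5
            rw [← hc]
            show inlH Y (c * sndH Y w) = 0
            rw [map_mul, inlH_sndH, hw, map_zero, mul_zero]
          · rw [Polynomial.coeff_eq_zero_of_natDegree_lt hi, map_zero]
      have h6 : inlH Y (p.eval (fstG Y ^ k)) =
          (p.map (inlH Y : O (ℂ × Y) →+* O ℂ)).eval (inlH Y (fstG Y ^ k)) := by
        rw [Polynomial.eval_map]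
        exact (Polynomial.eval₂_at_apply (inlH Y : O (ℂ × Y) →+* O ℂ) (fstG Y ^ k)).symm
      rw [h6, h3, Polynomial.eval_pow, Polynomial.eval_X, map_pow, inlH_fstG, mul_one, pow_mul]
  set I := Ideal.span ({g} : Set (O (ℂ × Y))) with hI
  have hle : ∀ a ∈ I, φ a = 0 := by
    intro a ha
    rw [hI, Ideal.mem_span_singleton'] at ha
    obtain ⟨c, rfl⟩ := ha
    rw [map_mul, hg, mul_zero]
  have h1 : ((Ideal.Quotient.lift I φ hle).comp (Ideal.Quotient.mk I)).Finite := by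
    have h2 : (Ideal.Quotient.lift I φ hle).comp (Ideal.Quotient.mk I) = φ := by
      ext a
      rfl
    rw [h2]
    exact hφ
  have h2 : (Ideal.Quotient.lift I φ hle).Finite := RingHom.Finite.of_comp_finite h1
  exact h2.comp (finite_quot g isUnit_one hgb)

/-! ### Three variables -/

theorem ana_coord (i : Fin 3) (x : Fin 3 → ℂ) : AnalyticAt ℂ (fun x : Fin 3 → ℂ => x i) x :=
  (ContinuousLinearMap.proj (R := ℂ) (φ := fun _ : Fin 3 => ℂ) i).analyticAt x

/-- the coordinates of `ℂ³` -/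
noncomputable def xx (i : Fin 3) : O (Fin 3 → ℂ) :=
  mk (fun x : Fin 3 → ℂ => x i) (ana_coord i 0)

/-- The finiteness theorem: if the coordinates are nilpotent modulo `h` in `O/I`, then `O/I` is
a finite module over `ℂ{h}`. -/
theorem finite_of_nilp (I : Ideal (O (Fin 3 → ℂ))) {h : (Fin 3 → ℂ) → ℂ} (hh : AnalyticAt ℂ h 0)
    (h0 : h 0 = 0) (k : ℕ)
    (hk : ∀ i, xx i ^ k ∈ I ⊔ Ideal.span ({mk h hh} : Set (O (Fin 3 → ℂ)))) :
    ((Ideal.Quotient.mk I).comp (pull h hh h0 : O ℂ →+* O (Fin 3 → ℂ))).Finite := by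
  have hgr : AnalyticAt ℂ (fun x : Fin 3 → ℂ => (x 0, (x 1, (x 2, h x)))) 0 :=
    (ana_coord 0 0).prod ((ana_coord 1 0).prod ((ana_coord 2 0).prod hh))
  have hgr0 : (fun x : Fin 3 → ℂ => (x 0, (x 1, (x 2, h x)))) 0 = 0 := by
    simp [h0]
  set π := pull (fun x : Fin 3 → ℂ => (x 0, (x 1, (x 2, h x)))) hgr hgr0 with hπ
  have hsurj : Function.Surjective π := by
    intro a
    obtain ⟨f, hf, rfl⟩ := exists_rep a
    have h1 : AnalyticAt ℂ (fun p : ℂ × (ℂ × (ℂ × ℂ)) => f ![p.1, p.2.1, p.2.2.1]) 0 := by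
      refine AnalyticAt.comp_of_eq (f := fun p : ℂ × (ℂ × (ℂ × ℂ)) => ![p.1, p.2.1, p.2.2.1]) hf
        ?_ ?_
      · rw [analyticAt_pi_iff]
        intro i
        fin_cases i
        · exact analyticAt_fst
        · exact AnalyticAt.comp_of_eq (g := fun q : ℂ × (ℂ × ℂ) => q.1) analyticAt_fst
            analyticAt_snd rfl
        · exact AnalyticAt.comp_of_eq (g := fun q : ℂ × (ℂ × ℂ) => q.2.1)
            (AnalyticAt.comp_of_eq (g := fun q : ℂ × ℂ => q.1) analyticAt_fst analyticAt_snd rfl)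
            analyticAt_snd rfl
      · funext i
        fin_cases i <;> rfl
    refine ⟨mk _ h1, ?_⟩
    rw [hπ, pull_mk]
    refine mk_congr _ _ (Eventually.of_forall fun x => ?_)
    congr 1
    funext i
    fin_cases i <;> rfl
  set φ := (Ideal.Quotient.mk I).comp (π : O (ℂ × (ℂ × (ℂ × ℂ))) →+* O (Fin 3 → ℂ)) with hφ
  have hφfin : φ.Finite := by
    refine RingHom.Finite.of_surjective _ ?_
    exact (Ideal.Quotient.mk_surjective).comp hsurj
  have hmem : ∀ i, (Ideal.Quotient.mk I (xx i)) ^ k ∈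
      Ideal.span ({Ideal.Quotient.mk I (mk h hh)} : Set (O (Fin 3 → ℂ) ⧸ I)) := by
    intro i
    obtain ⟨a, ha, b, hb, hab⟩ := Submodule.mem_sup.1 (hk i)
    rw [Ideal.mem_span_singleton'] at hb
    obtain ⟨c, hc⟩ := hb
    rw [← map_pow, ← hab, map_add, Ideal.Quotient.eq_zero_iff_mem.2 ha, zero_add, ← hc, map_mul]
    exact Ideal.mul_mem_left _ _ (Ideal.subset_span rfl)
  have e0 : φ (fstG (ℂ × (ℂ × ℂ))) = Ideal.Quotient.mk I (xx 0) := rfl
  have e1 : φ (sndH _ (fstG (ℂ × ℂ))) = Ideal.Quotient.mk I (xx 1) := rfl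
  have e2 : φ (sndH _ (sndH _ (fstG ℂ))) = Ideal.Quotient.mk I (xx 2) := rfl
  have e3 : φ (sndH _ (sndH _ (sndH ℂ zz))) = Ideal.Quotient.mk I (mk h hh) := rfl
  have s1 := finite_step φ hφfin (sndH (ℂ × ℂ) (sndH ℂ zz)) rfl k (by
    rw [e0, e3]
    exact hmem 0)
  have s2 := finite_step _ s1 (sndH ℂ zz) rfl k (by
    show φ (sndH _ (fstG (ℂ × ℂ))) ^ k ∈ Ideal.span {φ (sndH _ (sndH _ (sndH ℂ zz)))}
    rw [e1, e3]
    exact hmem 1)
  have s3 := finite_step _ s2 zz rfl k (by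
    show φ (sndH _ (sndH _ (fstG ℂ))) ^ k ∈ Ideal.span {φ (sndH _ (sndH _ (sndH ℂ zz)))}
    rw [e2, e3]
    exact hmem 2)
  have hcomp : ((φ.comp (sndH (ℂ × (ℂ × ℂ)) : O (ℂ × (ℂ × ℂ)) →+* _)).comp
      (sndH (ℂ × ℂ) : O (ℂ × ℂ) →+* _)).comp (sndH ℂ : O ℂ →+* _) =
      ((Ideal.Quotient.mk I).comp (pull h hh h0 : O ℂ →+* O (Fin 3 → ℂ))) := by
    ext a
    obtain ⟨f, hf, rfl⟩ := exists_rep a
    rfl
  rw [hcomp] at s3
  exact s3

end Vale.Agent.P298.H941
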