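import Mathlib

/-!
# P298 (helper941): the ring of germs at the origin of holomorphic functions on a normed space
-/

open Filter Topology

namespace Vale.Agent.P298.H941

section basic

variable (E : Type*) [NormedAddCommGroup E] [NormedSpace ℂ E]

/-- functions analytic at the origin -/
def An : Subalgebra ℂ (E → ℂ) where
  carrier := {f | AnalyticAt ℂ f 0}
  mul_mem' := fun hf hg => hf.mul hg
  add_mem' := fun hf hg => hf.add hg
  algebraMap_mem' := fun _ => analyticAt_const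

/-- functions vanishing near the origin -/
def nu : Ideal (An E) where
  carrier := {f | (f : E → ℂ) =ᶠ[𝓝 0] 0}
  add_mem' := by
    intro a b ha hb
    have h : ((a + b : An E) : E → ℂ) = (a : E → ℂ) + (b : E → ℂ) := rfl
    have h2 := Filter.EventuallyEq.add ha hb
    show ((a + b : An E) : E → ℂ) =ᶠ[𝓝 0] 0
    rw [h]
    simpa using h2
  zero_mem' := Filter.EventuallyEq.rfl
  smul_mem' := by
    intro c a ha
    filter_upwards [ha] with x hx
    have h : ((c • a : An E) : E → ℂ) x = (c : E → ℂ) x * (a : E → ℂ) x := rfl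
    rw [h, hx]
    simp

/-- the ring of germs -/
def O : Type _ := An E ⧸ nu E

noncomputable instance : CommRing (O E) := inferInstanceAs (CommRing (An E ⧸ nu E))

noncomputable instance : Algebra ℂ (O E) := inferInstanceAs (Algebra ℂ (An E ⧸ nu E))

end basic

variable {E : Type*} [NormedAddCommGroup E] [NormedSpace ℂ E]
variable {E' : Type*} [NormedAddCommGroup E'] [NormedSpace ℂ E']
variable {E'' : Type*} [NormedAddCommGroup E''] [NormedSpace ℂ E'']

/-- the germ of a function -/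
noncomputable def mk (f : E → ℂ) (hf : AnalyticAt ℂ f 0) : O E :=
  Ideal.Quotient.mk (nu E) ⟨f, hf⟩

theorem exists_rep (a : O E) : ∃ (f : E → ℂ) (hf : AnalyticAt ℂ f 0), mk f hf = a := by
  obtain ⟨⟨f, hf⟩, rfl⟩ := Ideal.Quotient.mk_surjective a
  exact ⟨f, hf, rfl⟩

theorem mk_eq_iff {f g : E → ℂ} (hf : AnalyticAt ℂ f 0) (hg : AnalyticAt ℂ g 0) :
    mk f hf = mk g hg ↔ f =ᶠ[𝓝 0] g := by
  have h0 : mk f hf = mk g hg ↔ (⟨f, hf⟩ : An E) - ⟨g, hg⟩ ∈ nu E := Ideal.Quotient.eq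
  rw [h0]
  constructor
  · intro h
    have h1 : (fun x => f x - g x) =ᶠ[𝓝 0] 0 := h
    filter_upwards [h1] with x hx
    exact sub_eq_zero.1 hx
  · intro h
    show (fun x => f x - g x) =ᶠ[𝓝 0] 0
    filter_upwards [h] with x hx
    rw [hx, sub_self]
    rfl

theorem mk_eq_zero_iff {f : E → ℂ} (hf : AnalyticAt ℂ f 0) :
    mk f hf = 0 ↔ ∀ᶠ x in 𝓝 0, f x = 0 := by
  have h : (0 : O E) = mk (fun _ => 0) analyticAt_const := rfl
  rw [h, mk_eq_iff]
  rfl

theorem mk_congr {f g : E → ℂ} (hf : AnalyticAt ℂ f 0) (hg : AnalyticAt ℂ g 0)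
    (h : ∀ᶠ x in 𝓝 0, f x = g x) : mk f hf = mk g hg := (mk_eq_iff hf hg).2 h

theorem mk_add {f g : E → ℂ} (hf : AnalyticAt ℂ f 0) (hg : AnalyticAt ℂ g 0) :
    mk f hf + mk g hg = mk (fun x => f x + g x) (hf.add hg) := rfl

theorem mk_mul {f g : E → ℂ} (hf : AnalyticAt ℂ f 0) (hg : AnalyticAt ℂ g 0) :
    mk f hf * mk g hg = mk (fun x => f x * g x) (hf.mul hg) := rfl

theorem mk_sub {f g : E → ℂ} (hf : AnalyticAt ℂ f 0) (hg : AnalyticAt ℂ g 0) :
    mk f hf - mk g hg = mk (fun x => f x - g x) (hf.sub hg) := rfl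

theorem mk_neg {f : E → ℂ} (hf : AnalyticAt ℂ f 0) :
    -mk f hf = mk (fun x => -f x) hf.neg := rfl

theorem mk_pow {f : E → ℂ} (hf : AnalyticAt ℂ f 0) (n : ℕ) :
    mk f hf ^ n = mk (fun x => f x ^ n) (hf.pow n) := rfl

theorem mk_one : (1 : O E) = mk (fun _ => 1) analyticAt_const := rfl

theorem mk_zero : (0 : O E) = mk (fun _ => 0) analyticAt_const := rfl

theorem algebraMap_eq (c : ℂ) : algebraMap ℂ (O E) c = mk (fun _ => c) analyticAt_const := rfl

theorem smul_mk (c : ℂ) {f : E → ℂ} (hf : AnalyticAt ℂ f 0) :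
    c • mk f hf = mk (fun x => c * f x) (analyticAt_const.mul hf) := rfl

theorem mk_sum {ι : Type*} (s : Finset ι) (f : ι → E → ℂ) (hf : ∀ i, AnalyticAt ℂ (f i) 0) :
    ∑ i ∈ s, mk (f i) (hf i) =
      mk (fun x => ∑ i ∈ s, f i x) (Finset.analyticAt_fun_sum s fun i _ => hf i) := by
  classical
  induction s using Finset.induction_on with
  | empty => rfl
  | insert a s ha ih =>
    rw [Finset.sum_insert ha, ih, mk_add]
    refine mk_congr _ _ (Eventually.of_forall fun x => ?_)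
    rw [Finset.sum_insert ha]

theorem mk_prod {ι : Type*} (s : Finset ι) (f : ι → E → ℂ) (hf : ∀ i, AnalyticAt ℂ (f i) 0) :
    ∏ i ∈ s, mk (f i) (hf i) =
      mk (fun x => ∏ i ∈ s, f i x) (Finset.analyticAt_fun_prod s fun i _ => hf i) := by
  classical
  induction s using Finset.induction_on with
  | empty => rfl
  | insert a s ha ih =>
    rw [Finset.prod_insert ha, ih, mk_mul]
    refine mk_congr _ _ (Eventually.of_forall fun x => ?_)
    rw [Finset.prod_insert ha]

/-- pullback of functions -/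
def pullAn (g : E' → E) (hg : AnalyticAt ℂ g 0) (h0 : g 0 = 0) : An E →ₐ[ℂ] An E' where
  toFun f := ⟨fun x => (f : E → ℂ) (g x), AnalyticAt.comp_of_eq f.2 hg h0⟩
  map_one' := rfl
  map_mul' _ _ := rfl
  map_zero' := rfl
  map_add' _ _ := rfl
  commutes' _ := rfl

theorem pullAn_mem {g : E' → E} (hg : AnalyticAt ℂ g 0) (h0 : g 0 = 0) {a : An E}
    (ha : a ∈ nu E) : pullAn g hg h0 a ∈ nu E' := by
  have h1 : Tendsto g (𝓝 0) (𝓝 0) := by
    have := hg.continuousAt.tendsto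
    rwa [h0] at this
  exact h1.eventually ha

/-- pullback of germs -/
noncomputable def pull (g : E' → E) (hg : AnalyticAt ℂ g 0) (h0 : g 0 = 0) : O E →ₐ[ℂ] O E' :=
  Ideal.Quotient.liftₐ (nu E) ((Ideal.Quotient.mkₐ ℂ (nu E')).comp (pullAn g hg h0))
    fun _ ha => Ideal.Quotient.eq_zero_iff_mem.2 (pullAn_mem hg h0 ha)

theorem pull_mk (g : E' → E) (hg : AnalyticAt ℂ g 0) (h0 : g 0 = 0) {f : E → ℂ}
    (hf : AnalyticAt ℂ f 0) : pull g hg h0 (mk f hf) =
      mk (fun x => f (g x)) (AnalyticAt.comp_of_eq hf hg h0) := rfl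

theorem pull_pull {g : E' → E} {hg : AnalyticAt ℂ g 0} {h0 : g 0 = 0} {k : E'' → E'}
    {hk : AnalyticAt ℂ k 0} {k0 : k 0 = 0} (a : O E) :
    pull k hk k0 (pull g hg h0 a) =
      pull (fun x => g (k x)) (AnalyticAt.comp_of_eq hg hk k0) (by simp [k0, h0]) a := by
  obtain ⟨f, hf, rfl⟩ := exists_rep a
  rfl

theorem pull_id (a : O E) : pull (fun x : E => x) analyticAt_id rfl a = a := by
  obtain ⟨f, hf, rfl⟩ := exists_rep a
  rfl

theorem pull_congr {g g' : E' → E} {hg : AnalyticAt ℂ g 0} {h0 : g 0 = 0}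
    {hg' : AnalyticAt ℂ g' 0} {h0' : g' 0 = 0} (h : ∀ᶠ x in 𝓝 0, g x = g' x) (a : O E) :
    pull g hg h0 a = pull g' hg' h0' a := by
  obtain ⟨f, hf, rfl⟩ := exists_rep a
  rw [pull_mk, pull_mk]
  refine mk_congr _ _ ?_
  filter_upwards [h] with x hx
  rw [hx]

/-- the value at the origin -/
noncomputable def ev0 (E : Type*) [NormedAddCommGroup E] [NormedSpace ℂ E] : O E →ₐ[ℂ] ℂ :=
  Ideal.Quotient.liftₐ (nu E)
    { toFun := fun f => (f : E → ℂ) 0
      map_one' := rfl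
      map_mul' := fun _ _ => rfl
      map_zero' := rfl
      map_add' := fun _ _ => rfl
      commutes' := fun _ => rfl }
    fun a ha => Filter.Eventually.self_of_nhds (p := fun x => (a : E → ℂ) x = 0) ha

theorem ev0_mk {f : E → ℂ} (hf : AnalyticAt ℂ f 0) : ev0 E (mk f hf) = f 0 := rfl

theorem ev0_pull (g : E' → E) (hg : AnalyticAt ℂ g 0) (h0 : g 0 = 0) (a : O E) :
    ev0 E' (pull g hg h0 a) = ev0 E a := by
  obtain ⟨f, hf, rfl⟩ := exists_rep a
  rw [pull_mk, ev0_mk, ev0_mk, h0]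

theorem isUnit_iff (a : O E) : IsUnit a ↔ ev0 E a ≠ 0 := by
  constructor
  · intro h
    exact (h.map (ev0 E)).ne_zero
  · intro h
    obtain ⟨f, hf, rfl⟩ := exists_rep a
    rw [ev0_mk] at h
    refine IsUnit.of_mul_eq_one (b := mk (fun x => (f x)⁻¹) (hf.inv h)) ?_
    rw [mk_mul, mk_one]
    refine mk_congr _ _ ?_
    filter_upwards [hf.continuousAt.eventually_ne h] with x hx
    exact mul_inv_cancel₀ hx

instance : Nontrivial (O E) := by
  refine ⟨⟨0, 1, fun h => ?_⟩⟩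
  have h1 := congrArg (ev0 E) h
  rw [map_zero, map_one] at h1
  exact zero_ne_one h1

instance : IsLocalRing (O E) := by
  refine IsLocalRing.of_nonunits_add fun a b ha hb => ?_
  rw [mem_nonunits_iff, isUnit_iff, not_not] at ha hb ⊢
  rw [map_add, ha, hb, add_zero]

theorem mem_maximalIdeal (a : O E) : a ∈ IsLocalRing.maximalIdeal (O E) ↔ ev0 E a = 0 := by
  rw [IsLocalRing.mem_maximalIdeal, mem_nonunits_iff, isUnit_iff, not_not]

/-! ### Ideals generated by finitely many germs -/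

theorem mk_mem_span {k : ℕ} {s : Fin k → E → ℂ} (hs : ∀ j, AnalyticAt ℂ (s j) 0) {f : E → ℂ}
    (hf : AnalyticAt ℂ f 0) :
    mk f hf ∈ Ideal.span (Set.range fun j => mk (s j) (hs j)) ↔
      ∃ a : Fin k → E → ℂ, (∀ j, AnalyticAt ℂ (a j) 0) ∧ ∀ᶠ x in 𝓝 0, f x = ∑ j, a j x * s j x := by
  rw [Ideal.mem_span_range_iff_exists_fun]
  constructor
  · rintro ⟨c, hc⟩
    choose a ha hac using fun j => exists_rep (c j)
    refine ⟨a, ha, ?_⟩
    have h1 : ∑ j, mk (a j) (ha j) * mk (s j) (hs j) = mk f hf := by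
      rw [← hc]
      exact Finset.sum_congr rfl fun j _ => by rw [hac]
    simp only [mk_mul] at h1
    rw [mk_sum, mk_eq_iff] at h1
    exact h1.symm
  · rintro ⟨a, ha, h⟩
    refine ⟨fun j => mk (a j) (ha j), ?_⟩
    simp only [mk_mul]
    rw [mk_sum]
    exact mk_congr _ _ (by filter_upwards [h] with x hx using hx.symm)

end Vale.Agent.P298.H941
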