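import Vale.Agent.P298.H941.Poly
import Vale.Agent.P267.H823.Weier

/-!
# P298 (helper941): zeros of holomorphic functions of two variables are not isolated
-/

open Filter Topology Polynomial

namespace Vale.Agent.P298.H941

open Vale.Agent.P267.H823

theorem not_isolated {g : ℂ × ℂ → ℂ} (hg : AnalyticAt ℂ g 0) (g0 : g 0 = 0) :
    ¬ ∀ᶠ p in 𝓝 (0 : ℂ × ℂ), g p = 0 → p = 0 := by
  intro hiso
  have hin : AnalyticAt ℂ (fun z : ℂ => ((z, 0) : ℂ × ℂ)) 0 := analyticAt_id.prod analyticAt_const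
  have hg1 : AnalyticAt ℂ (fun z : ℂ => g (z, 0)) 0 :=
    AnalyticAt.comp_of_eq (g := g) (f := fun z : ℂ => ((z, 0) : ℂ × ℂ)) hg hin rfl
  by_cases htop : analyticOrderAt (fun z : ℂ => g (z, 0)) 0 = ⊤
  · rw [analyticOrderAt_eq_top] at htop
    have h1 : Tendsto (fun z : ℂ => ((z, 0) : ℂ × ℂ)) (𝓝 0) (𝓝 0) := hin.continuousAt
    have h2 : ∀ᶠ z : ℂ in 𝓝[≠] 0, False := by
      filter_upwards [(h1.eventually hiso).filter_mono nhdsWithin_le_nhds,
        htop.filter_mono nhdsWithin_le_nhds, self_mem_nhdsWithin] with z k1 k2 k3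
      exact k3 (congrArg Prod.fst (k1 k2))
    exact h2.exists.elim fun _ h => h
  obtain ⟨b, hb⟩ := ENat.ne_top_iff_exists.1 htop
  obtain ⟨u, hu, hu0, hgu⟩ := (hg1.analyticOrderAt_eq_natCast).1 hb.symm
  have hb0 : b ≠ 0 := by
    rintro rfl
    have h1 := hgu.self_of_nhds
    rw [sub_zero, pow_zero, one_smul] at h1
    exact hu0 (h1.symm.trans g0)
  have hg' : AnalyticAt ℂ g ((0 : ℂ), (0 : ℂ)) := hg
  obtain ⟨P, v, hPm, hPa, hP0, hva, hv0, hgv⟩ := weierstrass hg' hu hu0 (by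
    filter_upwards [hgu] with z hz
    rw [hz, sub_zero, smul_eq_mul])
  have hgood : ∀ᶠ p : ℂ × ℂ in 𝓝 0, (g p = 0 → p = 0) ∧ v p ≠ 0 ∧
      g p * v p = (P p.2).eval p.1 := by
    have hva' : AnalyticAt ℂ v (0 : ℂ × ℂ) := hva
    filter_upwards [hiso, hva'.continuousAt.eventually_ne hv0, hgv] with p h1 h2 h3
    exact ⟨h1, h2, h3⟩
  obtain ⟨ε, hε, hεG⟩ := Metric.eventually_nhds_iff.1 hgood
  have h1 : ∀ᶠ y : ℂ in 𝓝 0, ∀ z, (P y).eval z = 0 → ‖z‖ < ε :=
    roots_small hPm (fun i => (hPa i).continuousAt) hP0 hε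
  have h2 : ∀ᶠ y : ℂ in 𝓝 0, ‖y‖ < ε := by
    have := continuous_norm.continuousAt (x := (0 : ℂ))
    exact this.eventually_lt continuousAt_const (by rw [norm_zero]; exact hε)
  have h3 : ∀ᶠ y : ℂ in 𝓝[≠] 0, False := by
    filter_upwards [h1.filter_mono nhdsWithin_le_nhds, h2.filter_mono nhdsWithin_le_nhds,
      self_mem_nhdsWithin] with y k1 k2 k3
    obtain ⟨z, hz⟩ := IsAlgClosed.exists_root (P y) (by
      rw [(degree_eq_iff_natDegree_eq (hPm y).1.ne_zero).2 (hPm y).2]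
      exact_mod_cast hb0)
    have hz' : (P y).eval z = 0 := hz
    have k4 : dist ((z, y) : ℂ × ℂ) 0 < ε := by
      rw [dist_zero_right, Prod.norm_mk]
      exact max_lt (k1 z hz') k2
    obtain ⟨k5, k6, k7⟩ := hεG k4
    rw [hz'] at k7
    exact k3 (congrArg Prod.snd (k5 ((mul_eq_zero.1 k7).resolve_right k6)))
  exact h3.exists.elim fun _ h => h

end Vale.Agent.P298.H941
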