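import Vale.Agent.P298.H941.Arcs
import Vale.Agent.P298.H941.Abs

/-!
# P298 (helper941): the order formula for a covering system of arcs
-/

open Filter Topology Polynomial

namespace Vale.Agent.P298.H941

/-- finitely many nonzero vectors of germs are not killed by a suitable linear form -/
theorem exists_form {ι : Type*} [Finite ι] (δ : ι → Fin 3 → O ℂ) (hδ : ∀ i, δ i ≠ 0) :
    ∃ c : Fin 3 → ℂ, ∀ i, ∑ k, c k • δ i k ≠ 0 := by
  classical
  have := Fintype.ofFinite ι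
  set q : ι → (O ℂ)[X] := fun i => ∑ k : Fin 3, C (δ i k) * X ^ (k : ℕ) with hq
  have hq0 : ∀ i, q i ≠ 0 := by
    intro i h
    apply hδ i
    funext k
    have h1 := congrArg (fun p : (O ℂ)[X] => p.coeff (k : ℕ)) h
    simp only [hq, Fin.sum_univ_three, coeff_add, coeff_C_mul, coeff_X_pow, coeff_zero] at h1
    fin_cases k <;> simpa using h1
  have hprod : ∏ i, q i ≠ 0 := Finset.prod_ne_zero_iff.2 fun i _ => hq0 i
  obtain ⟨t, ht⟩ : ∃ t : ℂ, (∏ i, q i).eval (algebraMap ℂ (O ℂ) t) ≠ 0 := by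
    by_contra hcon
    push Not at hcon
    apply hprod
    refine Polynomial.eq_zero_of_infinite_isRoot _ (Set.Infinite.mono (s := Set.range
      (algebraMap ℂ (O ℂ))) ?_ ?_)
    · rintro _ ⟨t, rfl⟩
      exact hcon t
    · exact Set.infinite_range_of_injective (algebraMap ℂ (O ℂ)).injective
  refine ⟨fun k => t ^ (k : ℕ), fun i h => ?_⟩
  rw [eval_prod, Finset.prod_ne_zero_iff] at ht
  apply ht i (Finset.mem_univ i)
  rw [← h, hq]
  simp only [eval_finsetSum, eval_mul, eval_C, eval_pow, eval_X]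
  refine Finset.sum_congr rfl fun k _ => ?_
  rw [Algebra.smul_def, map_pow, mul_comm]

theorem ana_comp {ψ : ℂ → V} (h : AnalyticAt ℂ ψ 0) (k : Fin 3) :
    AnalyticAt ℂ (fun s => ψ s k) 0 := (analyticAt_pi_iff.1 h) k

variable {f e h : V → ℂ}

theorem arcSys_exists_sep {N ν : ℕ} {ψ : Fin ν → ℂ → V} (A : ArcSys f e h N ν ψ) :
    ∃ l : V → ℂ, ∃ hl : AnalyticAt ℂ l 0,
      Function.Injective fun i => pull (ψ i) (A.an i) (A.zero i) (mk l hl) := by
  classical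
  set δ : {p : Fin ν × Fin ν // p.1 ≠ p.2} → Fin 3 → O ℂ := fun p k =>
    mk (fun s => ψ p.1.1 s k) (ana_comp (A.an _) k) - mk (fun s => ψ p.1.2 s k)
      (ana_comp (A.an _) k) with hδ
  obtain ⟨c, hc⟩ := exists_form δ (by
    rintro ⟨⟨i, j⟩, hij⟩ h0
    have h1 := A.ne i j hij
    have h2 : ∀ k, ∀ᶠ s in 𝓝 (0 : ℂ), ψ i s k = ψ j s k := by
      intro k
      have h3 := congrFun h0 k
      rw [hδ] at h3
      exact (mk_eq_iff _ _).1 (sub_eq_zero.1 h3)
    have h4 : ∀ᶠ s in 𝓝[≠] (0 : ℂ), ψ i s = ψ j s := by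
      filter_upwards [(eventually_all.2 h2).filter_mono nhdsWithin_le_nhds] with s hs
      exact funext hs
    obtain ⟨s, hs1, hs2⟩ := (h1.and h4).exists
    exact hs1 hs2)
  have hl : AnalyticAt ℂ (fun x : V => ∑ k, c k * x k) 0 :=
    Finset.analyticAt_fun_sum _ fun k _ => analyticAt_const.mul (ana_coord k 0)
  refine ⟨_, hl, fun i j hij => ?_⟩
  by_contra hne
  apply hc ⟨(i, j), hne⟩
  have h1 : ∀ i, pull (ψ i) (A.an i) (A.zero i) (mk _ hl) =
      ∑ k, c k • mk (fun s => ψ i s k) (ana_comp (A.an _) k) := by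
    intro i
    simp only [smul_mk]
    rw [mk_sum]
    rfl
  simp only [h1] at hij
  rw [hδ]
  simp only [smul_sub]
  rw [Finset.sum_sub_distrib, hij, sub_self]

/-- The order formula, `N` times. -/
theorem arcSys_order {hf : AnalyticAt ℂ f 0} {he : AnalyticAt ℂ e 0} {hh : AnalyticAt ℂ h 0}
    {h0 : h 0 = 0} (H : FinMap f e h hf he hh h0)
    {N ν : ℕ} {ψ : Fin ν → ℂ → V} (A : ArcSys f e h N ν ψ)
    (hfin : Module.Finite ℂ (O V ⧸ Jd ![f, e, h] (ana3 hf he hh)))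
    (hn : Module.finrank ℂ (O V ⧸ Jd ![f, e, h] (ana3 hf he hh)) ≤ ν)
    {g : V → ℂ} (hg : AnalyticAt ℂ g 0) (hgne : ∀ i, ¬ ∀ᶠ s in 𝓝 (0 : ℂ), g (ψ i s) = 0) :
    Module.Finite ℂ (O V ⧸ Jd ![f, e, g] (ana3 hf he hg)) ∧
      N * Module.finrank ℂ (O V ⧸ Jd ![f, e, g] (ana3 hf he hg)) =
        ∑ i, (analyticOrderAt (fun s => g (ψ i s)) 0).toNat := by
  set I := Jd ![f, e] (ana2 hf he) with hI
  set φ := ((Ideal.Quotient.mk I).comp (pull h hh h0 : O ℂ →+* O (Fin 3 → ℂ))) with hφ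
  let := φ.toAlgebra
  have : Module.Finite (O ℂ) (O V ⧸ I) := H
  have : IsScalarTower ℂ (O ℂ) (O V ⧸ I) := IsScalarTower.of_algebraMap_eq fun c => rfl
  -- quotients of `O/I` by one element
  have equot : ∀ {a : V → ℂ} (ha : AnalyticAt ℂ a 0), Nonempty
      (((O V ⧸ I) ⧸ Ideal.span ({Ideal.Quotient.mk I (mk a ha)} : Set (O V ⧸ I))) ≃ₗ[ℂ]
        (O V ⧸ Jd ![f, e, a] (ana3 hf he ha))) := by
    intro a ha
    have h1 : Ideal.span ({Ideal.Quotient.mk I (mk a ha)} : Set (O V ⧸ I)) =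
        (Ideal.span ({mk a ha} : Set (O V))).map (Ideal.Quotient.mkₐ ℂ I) := by
      rw [Ideal.map_span, Set.image_singleton]
      rfl
    rw [h1, Jd3_eq hf he ha]
    exact ⟨(DoubleQuot.quotQuotEquivQuotSupₐ ℂ I (Ideal.span ({mk a ha} : Set (O V)))).toLinearEquiv⟩
  obtain ⟨e1⟩ := equot hh
  obtain ⟨e2⟩ := equot hg
  -- the characters
  have hker : ∀ i, ∀ a ∈ I, pull (ψ i) (A.an i) (A.zero i) a = 0 := by
    intro i a ha
    obtain ⟨a, haa, rfl⟩ := exists_rep a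
    rw [hI, mk_mem_Jd] at ha
    obtain ⟨b, -, hb⟩ := ha
    rw [pull_mk, mk_eq_zero_iff]
    have h1 : Tendsto (ψ i) (𝓝 0) (𝓝 0) := by
      have := (A.an i).continuousAt.tendsto
      rwa [A.zero i] at this
    filter_upwards [h1.eventually hb, A.mem i] with s hs1 hs2
    rw [hs1, Fin.sum_univ_two]
    simp [hs2.1, hs2.2.1]
  let Ev : Fin ν → (O V ⧸ I) →+* O ℂ := fun i =>
    Ideal.Quotient.lift I (pull (ψ i) (A.an i) (A.zero i) : O V →+* O ℂ) (hker i)
  have hEvmk : ∀ i a, Ev i (Ideal.Quotient.mk I a) = pull (ψ i) (A.an i) (A.zero i) a :=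
    fun i a => rfl
  have hEv : ∀ i r, Ev i (algebraMap (O ℂ) (O V ⧸ I) r) = powH N A.pos r := by
    intro i r
    have h1 : algebraMap (O ℂ) (O V ⧸ I) r = Ideal.Quotient.mk I (pull h hh h0 r) := rfl
    rw [h1, hEvmk, pull_pull]
    exact pull_congr (by
      filter_upwards [A.mem i] with s hs
      exact hs.2.2) r
  obtain ⟨l, hl, hinj⟩ := arcSys_exists_sep A
  have hz : algebraMap (O ℂ) (O V ⧸ I) zz = Ideal.Quotient.mk I (mk h hh) := rfl
  have hord : ∀ i, Ev i (Ideal.Quotient.mk I (mk g hg)) =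
      mk (fun s => g (ψ i s)) (AnalyticAt.comp_of_eq hg (A.an i) (A.zero i)) := fun i => rfl
  obtain ⟨k1, k2⟩ := order_formula A.pos (Q := O V ⧸ I) (ν := ν)
    (by
      rw [hz]
      exact Module.Finite.equiv e1.symm)
    (by
      rw [hz, e1.finrank_eq]
      exact hn)
    Ev hEv (Ideal.Quotient.mk I (mk l hl)) hinj (Ideal.Quotient.mk I (mk g hg))
    (fun i => by
      rw [hord, Ne, mk_eq_zero_iff]
      exact hgne i)
  refine ⟨Module.Finite.equiv e2, ?_⟩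
  rw [← e2.finrank_eq, k2]
  refine Finset.sum_congr rfl fun i _ => ?_
  rw [hord, ordG_mk]

end Vale.Agent.P298.H941
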