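import Vale.Agent.P298.H941.One

/-!
# P298 (helper941): the dimension of an algebra in which two polynomials have a common zero
-/

open Filter Topology Polynomial

namespace Vale.Agent.P298.H941

section

variable {A B : Type*} [CommRing A] [CommRing B]

theorem sum_sylvester_aux (q : A[X]) {m j n : ℕ} (hq : q.natDegree ≤ n) (hj : j + n < m)
    (φ : A →+* B) (z : B) :
    ∑ i : Fin m, φ (if (i : ℕ) ∈ Set.Icc j (j + n) then q.coeff (i - j) else 0) * z ^ (i : ℕ) =
      z ^ j * q.eval₂ φ z := by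
  rw [Fin.sum_univ_eq_sum_range
    (fun i : ℕ => φ (if i ∈ Set.Icc j (j + n) then q.coeff (i - j) else 0) * z ^ i) m]
  rw [eval₂_eq_sum_range' φ (Nat.lt_succ_of_le hq), Finset.mul_sum]
  have h1 : ∑ i ∈ Finset.range m,
      φ (if i ∈ Set.Icc j (j + n) then q.coeff (i - j) else 0) * z ^ i =
      ∑ i ∈ Finset.Ico j (j + (n + 1)), φ (q.coeff (i - j)) * z ^ i := by
    symm
    refine Finset.sum_subset_zero_on_sdiff (s₁ := Finset.Ico j (j + (n + 1))) ?_ ?_ ?_
    · intro i hi
      rw [Finset.mem_Ico] at hi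
      rw [Finset.mem_range]
      omega
    · intro i hi
      rw [Finset.mem_sdiff, Finset.mem_Ico] at hi
      rw [if_neg, map_zero, zero_mul]
      rw [Set.mem_Icc]
      omega
    · intro i hi
      rw [Finset.mem_Ico] at hi
      rw [if_pos]
      rw [Set.mem_Icc]
      omega
  rw [h1, Finset.sum_Ico_eq_sum_range]
  have h2 : j + (n + 1) - j = n + 1 := by omega
  rw [h2]
  refine Finset.sum_congr rfl fun i _ => ?_
  rw [Nat.add_sub_cancel_left, pow_add]
  ring

theorem sum_sylvester (f g : A[X]) {m n : ℕ} (hf : f.natDegree ≤ m) (hg : g.natDegree ≤ n)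
    (φ : A →+* B) (z : B) (hfz : f.eval₂ φ z = 0) (hgz : g.eval₂ φ z = 0) (j : Fin (m + n)) :
    ∑ i : Fin (m + n), φ (sylvester f g m n i j) * z ^ (i : ℕ) = 0 := by
  refine Fin.addCases (fun j₁ => ?_) (fun j₁ => ?_) j
  · simp only [sylvester, Matrix.of_apply, Fin.addCases_left]
    have h1 := sum_sylvester_aux g (m := m + n) (j := j₁) hg (by have := j₁.2; omega) φ z
    rw [hgz, mul_zero] at h1
    exact h1
  · simp only [sylvester, Matrix.of_apply, Fin.addCases_right]
    have h1 := sum_sylvester_aux f (m := m + n) (j := j₁) hf (by have := j₁.2; omega) φ z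
    rw [hfz, mul_zero] at h1
    exact h1

end

/-- The dimension of an algebra generated by `z` over `ℂ{y}` in which two polynomials vanish at
`z` is at most the order of their resultant. -/
theorem finrank_le_of_resultant {B : Type*} [CommRing B] [Algebra ℂ B] (φ : O ℂ →ₐ[ℂ] B) (z : B)
    {m n : ℕ} (hsurj : ∀ q : B, ∃ c : Fin (m + n) → O ℂ, q = ∑ i, φ (c i) * z ^ (i : ℕ))
    {f g : (O ℂ)[X]} (hf : f.natDegree ≤ m) (hg : g.natDegree ≤ n)
    (hfz : f.eval₂ (φ : O ℂ →+* B) z = 0) (hgz : g.eval₂ (φ : O ℂ →+* B) z = 0)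
    (hres : resultant f g m n ≠ 0) :
    Module.Finite ℂ B ∧ Module.finrank ℂ B ≤ ordG (resultant f g m n) := by
  let := (φ : O ℂ →+* B).toAlgebra
  have : IsScalarTower ℂ (O ℂ) B := IsScalarTower.of_algebraMap_eq fun c => (φ.commutes c).symm
  set M := sylvester f g m n with hM
  set T : (Fin (m + n) → O ℂ) →ₗ[O ℂ] (Fin (m + n) → O ℂ) := Matrix.toLin' M with hT
  have hdet : LinearMap.det T = resultant f g m n := by
    rw [hT, LinearMap.det_toLin']
    rfl
  obtain ⟨h1, h2⟩ := finrank_coker_germ (Pi.basisFun (O ℂ) (Fin (m + n))) T (by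
    rw [hdet]
    exact hres)
  set Θ : (Fin (m + n) → O ℂ) →ₗ[O ℂ] B :=
    Fintype.linearCombination (O ℂ) (fun i : Fin (m + n) => z ^ (i : ℕ)) with hΘ
  have hΘa : ∀ c, Θ c = ∑ i, φ (c i) * z ^ (i : ℕ) := by
    intro c
    rw [hΘ, Fintype.linearCombination_apply]
    exact Finset.sum_congr rfl fun i _ => Algebra.smul_def _ _
  have hker : LinearMap.range T ≤ LinearMap.ker Θ := by
    rintro _ ⟨c, rfl⟩
    rw [LinearMap.mem_ker, hΘa, hT]
    have h3 : ∀ i, φ ((Matrix.toLin' M c) i) * z ^ (i : ℕ) =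
        ∑ j, φ (c j) * (φ (M i j) * z ^ (i : ℕ)) := by
      intro i
      rw [Matrix.toLin'_apply, Matrix.mulVec, dotProduct, map_sum, Finset.sum_mul]
      refine Finset.sum_congr rfl fun j _ => ?_
      rw [map_mul]
      ring
    rw [Finset.sum_congr rfl fun i _ => h3 i, Finset.sum_comm]
    refine Finset.sum_eq_zero fun j _ => ?_
    rw [← Finset.mul_sum]
    have h4 := sum_sylvester f g hf hg (φ : O ℂ →+* B) z hfz hgz j
    have h5 : ∑ i : Fin (m + n), φ (M i j) * z ^ (i : ℕ) = 0 := h4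
    rw [h5, mul_zero]
  let L := ((LinearMap.range T).liftQ Θ hker).restrictScalars ℂ
  have hL : Function.Surjective L := by
    intro q
    obtain ⟨c, hc⟩ := hsurj q
    refine ⟨Submodule.Quotient.mk c, ?_⟩
    show Θ c = q
    rw [hΘa, hc]
  refine ⟨Module.Finite.of_surjective L hL, ?_⟩
  rw [← hdet, ← h2]
  exact LinearMap.finrank_le_finrank_of_surjective hL

end Vale.Agent.P298.H941
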