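import Vale.Agent.P298.H941.Coord
import Vale.Agent.P267.H823.Factor

/-!
# P298 (helper941): the covering system of arcs over a generic linear form
-/

open Filter Topology Polynomial

namespace Vale.Agent.P298.H941

open Vale.Agent.P298.H462 (xi)

theorem one_notMem_Jd {E : Type*} [NormedAddCommGroup E] [NormedSpace ℂ E] {k : ℕ}
    {s : Fin k → E → ℂ} (hs : ∀ j, AnalyticAt ℂ (s j) 0) (h0 : ∀ j, s j 0 = 0) :
    Jd s hs ≠ ⊤ := by
  intro h
  have h1 : mk (fun _ : E => 1) analyticAt_const ∈ Jd s hs := by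
    rw [h]
    trivial
  rw [mk_mem_Jd] at h1
  obtain ⟨a, -, ha⟩ := h1
  have h2 := ha.self_of_nhds
  simp [h0] at h2

theorem finrank_Jd_pos {E : Type*} [NormedAddCommGroup E] [NormedSpace ℂ E] {k : ℕ}
    {s : Fin k → E → ℂ} (hs : ∀ j, AnalyticAt ℂ (s j) 0) (h0 : ∀ j, s j 0 = 0)
    (hfin : Module.Finite ℂ (O E ⧸ Jd s hs)) : 0 < Module.finrank ℂ (O E ⧸ Jd s hs) := by
  have hnt : Nontrivial (O E ⧸ Jd s hs) := Ideal.Quotient.nontrivial_iff.2 (one_notMem_Jd hs h0)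
  exact Module.finrank_pos

/-- A germ vanishing on an arc which is contained in the curve does not have finite colength. -/
theorem not_finite_of_arc {f e g : V → ℂ} (hf : AnalyticAt ℂ f 0) (he : AnalyticAt ℂ e 0)
    (hg : AnalyticAt ℂ g 0) {c : ℂ → V} (hc : AnalyticAt ℂ c 0) (c0 : c 0 = 0)
    (hne : ¬ ∀ᶠ s in 𝓝 (0 : ℂ), c s = 0)
    (hmem : ∀ᶠ s in 𝓝 (0 : ℂ), f (c s) = 0 ∧ e (c s) = 0 ∧ g (c s) = 0) :
    ¬ Module.Finite ℂ (O V ⧸ Jd ![f, e, g] (ana3 hf he hg)) := by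
  intro hfin
  obtain ⟨k, hk⟩ := exists_pow_mem_fin _ hfin xx fun i => rfl
  apply hne
  have ht : Tendsto c (𝓝 0) (𝓝 0) := by
    have := hc.continuousAt.tendsto
    rwa [c0] at this
  have h1 : ∀ i, ∀ᶠ s in 𝓝 (0 : ℂ), c s i = 0 := by
    intro i
    have h2 : xx i ^ k = mk (fun x : V => x i ^ k) ((ana_coord i 0).pow k) := rfl
    have h3 := hk i
    rw [h2, mk_mem_Jd] at h3
    obtain ⟨a, -, ha⟩ := h3
    filter_upwards [ht.eventually ha, hmem] with s h4 h5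
    rw [Fin.sum_univ_three] at h4
    simp only [Matrix.cons_val_zero, Matrix.cons_val_one, Matrix.cons_val] at h4
    rw [h5.1, h5.2.1, h5.2.2] at h4
    simp only [mul_zero, add_zero] at h4
    exact eq_zero_of_pow_eq_zero h4
  filter_upwards [eventually_all.2 h1] with s hs
  exact funext hs

variable {f e : V → ℂ}

theorem exists_system (hf : AnalyticAt ℂ f 0) (he : AnalyticAt ℂ e 0) (f0 : f 0 = 0)
    (e0 : e 0 = 0) {g : V → ℂ} (hg : AnalyticAt ℂ g 0) (g0 : g 0 = 0)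
    (hxi : ∀ᶠ x in 𝓝 (0 : V), f x = 0 → e x = 0 → x ≠ 0 → xi f e x ≠ 0)
    (hfin : Module.Finite ℂ (O V ⧸ Jd ![f, e, g] (ana3 hf he hg))) :
    ∃ (l : V →L[ℂ] ℂ) (N ν : ℕ) (ψ : Fin ν → ℂ → V), 0 < ν ∧ ArcSys f e l N ν ψ ∧
      FinMap f e l hf he (l.analyticAt 0) (map_zero l) ∧
      Module.Finite ℂ (O V ⧸ Jd ![f, e, l] (ana3 hf he (l.analyticAt 0))) ∧
      Module.finrank ℂ (O V ⧸ Jd ![f, e, l] (ana3 hf he (l.analyticAt 0))) ≤ ν := by
  classical
  obtain ⟨N0, ν0, ψ0, A0⟩ := exists_arcSys hf he hg g0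
    (finMap_of_finite (hf := hf) (he := he) (hh := hg) (h0 := g0) hfin)
  obtain ⟨l, hl, N', ⟨hfl, hN'⟩, hT⟩ := exists_good A0 hf he hg e0 g0 hxi
  have H := finMap_of_finite (hf := hf) (he := he) (hh := l.analyticAt 0) (h0 := map_zero l) hfl
  obtain ⟨N, ν, ψ, A⟩ := exists_arcSys hf he (l.analyticAt 0) (map_zero l) H
  have hNν : N' ≤ ν := by
    obtain ⟨δ, hδ, hδA⟩ := Metric.eventually_nhds_iff.1 A.cover
    have h1 := (Vale.Agent.P267.H823.tendsto_pow_ne A.pos).eventually (hT _ (Metric.ball_mem_nhds (0 : V) hδ))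
    have h2 : ∀ᶠ s in 𝓝[≠] (0 : ℂ), ‖s‖ < δ := by
      have h3 : ∀ᶠ s in 𝓝 (0 : ℂ), ‖s‖ < δ := by
        filter_upwards [Metric.ball_mem_nhds (0 : ℂ) hδ] with s hs
        rwa [Metric.mem_ball, dist_zero_right] at hs
      exact h3.filter_mono nhdsWithin_le_nhds
    obtain ⟨s, ⟨T, hT1, hT2⟩, hs2, hs3⟩ := (h1.and (h2.and self_mem_nhdsWithin)).exists
    have hs0 : s ≠ 0 := hs3
    rw [← hT1]
    have h4 : T ⊆ Finset.univ.image fun i => ψ i s := by
      intro p hp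
      obtain ⟨k1, k2, k3, k4⟩ := hT2 p hp
      rw [Metric.mem_ball, dist_zero_right] at k1
      have h5 : dist ((p, s) : V × ℂ) (0, 0) < δ := by
        have h6 : dist ((p, s) : V × ℂ) (0, 0) = max ‖p‖ ‖s‖ := by
          rw [Prod.dist_eq]
          simp
        rw [h6]
        exact max_lt k1 hs2
      rcases hδA h5 k2 k3 k4 with h6 | ⟨i, hi⟩
      · exfalso
        have h7 : p = 0 := h6
        rw [h7, map_zero] at k4
        exact pow_ne_zero N hs0 k4.symm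
      · rw [Finset.mem_image]
        exact ⟨i, Finset.mem_univ i, hi.symm⟩
    refine (Finset.card_le_card h4).trans (Finset.card_image_le.trans ?_)
    rw [Finset.card_univ, Fintype.card_fin]
  have hpos : 0 < Module.finrank ℂ (O V ⧸ Jd ![f, e, l] (ana3 hf he (l.analyticAt 0))) := by
    refine finrank_Jd_pos _ (fun j => ?_) hfl
    fin_cases j
    · exact f0
    · exact e0
    · exact map_zero l
  exact ⟨l, N, ν, ψ, by omega, A, H, hfl, hN'.trans hNν⟩

end Vale.Agent.P298.H941
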