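import Vale.Agent.P298.H941.Order
import Vale.Agent.P298.H462.Defs

/-!
# P298 (helper941): transversality along the arcs
-/

open Filter Topology Polynomial

namespace Vale.Agent.P298.H941

open Vale.Agent.P298.H462 (xi)

variable {f e h : V → ℂ} {N ν : ℕ} {ψ : Fin ν → ℂ → V}

theorem arc_small (A : ArcSys f e h N ν ψ) (hh : AnalyticAt ℂ h 0) (h0 : h 0 = 0) {ε : ℝ}
    (hε : 0 < ε) : ∀ᶠ p in 𝓝 (0 : V), ∀ s : ℂ, s ^ N = h p → ‖s‖ < ε ∧
      (f p = 0 → e p = 0 → p ≠ 0 → s ≠ 0 ∧ ∃ i, p = ψ i s) := by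
  obtain ⟨δ, hδ, hδA⟩ := Metric.eventually_nhds_iff.1 A.cover
  set ε' := min ε δ with hε'
  have hε'0 : 0 < ε' := lt_min hε hδ
  have h1 : ∀ᶠ p in 𝓝 (0 : V), ‖h p‖ < ε' ^ N := by
    have h2 := hh.continuousAt.norm
    refine h2.eventually_lt continuousAt_const ?_
    rw [h0, norm_zero]
    positivity
  filter_upwards [h1, Metric.ball_mem_nhds (0 : V) hδ] with p hp1 hp2 s hs
  have hs1 : ‖s‖ < ε' := by
    rw [← hs, norm_pow] at hp1
    exact lt_of_pow_lt_pow_left₀ N hε'0.le hp1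
  refine ⟨hs1.trans_le (min_le_left _ _), fun hf he hp => ?_⟩
  rw [Metric.mem_ball, dist_zero_right] at hp2
  have h3 : dist ((p, s) : V × ℂ) (0, 0) < δ := by
    have h4 : dist ((p, s) : V × ℂ) (0, 0) = max ‖p‖ ‖s‖ := by
      rw [Prod.dist_eq]
      simp
    rw [h4]
    exact max_lt hp2 (hs1.trans_le (min_le_right _ _))
  rcases hδA h3 hf he hs.symm with h4 | ⟨i, hi⟩
  · exact absurd h4 hp
  · refine ⟨?_, i, hi⟩
    rintro rfl
    exact hp (hi.trans (A.zero i))

/-- A property which holds on the punctured arcs holds at all points of the curve near the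
origin. -/
theorem arc_forall (A : ArcSys f e h N ν ψ) (hh : AnalyticAt ℂ h 0) (h0 : h 0 = 0) {Q : V → Prop}
    (hQ : ∀ i, ∀ᶠ s in 𝓝[≠] (0 : ℂ), Q (ψ i s)) :
    ∀ᶠ p in 𝓝 (0 : V), f p = 0 → e p = 0 → p ≠ 0 → Q p := by
  have h1 : ∀ᶠ s in 𝓝 (0 : ℂ), s ≠ 0 → ∀ i, Q (ψ i s) := by
    have h2 := eventually_nhdsWithin_iff.1 (eventually_all.2 hQ)
    filter_upwards [h2] with s hs hs0 i
    exact hs hs0 i
  obtain ⟨ε, hε, hεQ⟩ := Metric.eventually_nhds_iff.1 h1
  filter_upwards [arc_small A hh h0 hε] with p hp hfp hep hp0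
  obtain ⟨s, hs⟩ := exists_pow_eq A.pos (h p)
  obtain ⟨h3, h4⟩ := hp s hs
  obtain ⟨h5, i, hi⟩ := h4 hfp hep hp0
  rw [hi]
  exact hεQ (by rwa [dist_zero_right]) h5 i

theorem eventually_deriv_ne {g : ℂ → ℂ} (hg : AnalyticAt ℂ g 0) (g0 : g 0 = 0)
    (hne : ¬ ∀ᶠ s in 𝓝 (0 : ℂ), g s = 0) : ∀ᶠ s in 𝓝[≠] (0 : ℂ), deriv g s ≠ 0 := by
  rcases eventually_eq_zero_or_ne hg.deriv with h | h
  · exfalso
    apply hne
    rw [← analyticOrderAt_eq_top] at h ⊢
    have h1 := hg.analyticOrderAt_deriv_add_one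
    rw [h, g0] at h1
    simpa using h1.symm
  · exact h

theorem fderiv_apply3 (f : V → ℂ) (p w : V) :
    fderiv ℂ f p w = w 0 * pd 0 f p + w 1 * pd 1 f p + w 2 * pd 2 f p := by
  have h1 : w = w 0 • Pi.single 0 1 + w 1 • Pi.single 1 1 + w 2 • Pi.single 2 1 := by
    funext k
    fin_cases k <;> simp
  conv_lhs => rw [h1]
  simp only [map_add, map_smul, smul_eq_mul]
  rfl

/-- The common kernel of the differentials is spanned by the Hamiltonian field. -/
theorem kernel_line {p u : V} (hx : xi f e p ≠ 0) (h1 : fderiv ℂ f p u = 0)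
    (h2 : fderiv ℂ e p u = 0) : ∃ c : ℂ, u = c • xi f e p := by
  rw [fderiv_apply3] at h1 h2
  have k01 : u 0 * xi f e p 1 = u 1 * xi f e p 0 := by
    simp only [xi, minor2, Matrix.cons_val_zero, Matrix.cons_val_one]
    linear_combination (-pd 2 e p) * h1 + pd 2 f p * h2
  have k02 : u 0 * xi f e p 2 = u 2 * xi f e p 0 := by
    simp only [xi, minor2, Matrix.cons_val_zero, Matrix.cons_val]
    linear_combination (pd 1 e p) * h1 - pd 1 f p * h2
  have k12 : u 1 * xi f e p 2 = u 2 * xi f e p 1 := by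
    simp only [xi, minor2, Matrix.cons_val_one, Matrix.cons_val]
    linear_combination (-pd 0 e p) * h1 + pd 0 f p * h2
  by_cases c0 : xi f e p 0 = 0
  · by_cases c1 : xi f e p 1 = 0
    · have c2 : xi f e p 2 ≠ 0 := by
        intro c2
        apply hx
        funext k
        fin_cases k
        · exact c0
        · exact c1
        · exact c2
      refine ⟨u 2 / xi f e p 2, ?_⟩
      funext k
      rw [Pi.smul_apply, smul_eq_mul, div_mul_eq_mul_div, eq_div_iff c2]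
      fin_cases k
      · exact k02
      · exact k12
      · rfl
    · refine ⟨u 1 / xi f e p 1, ?_⟩
      funext k
      rw [Pi.smul_apply, smul_eq_mul, div_mul_eq_mul_div, eq_div_iff c1]
      fin_cases k
      · exact k01
      · rfl
      · exact k12.symm
  · refine ⟨u 0 / xi f e p 0, ?_⟩
    funext k
    rw [Pi.smul_apply, smul_eq_mul, div_mul_eq_mul_div, eq_div_iff c0]
    fin_cases k
    · rfl
    · exact k01.symm
    · exact k02.symm

theorem fderiv_arc {g : V → ℂ} {c : ℂ → V} {s : ℂ} (hc : AnalyticAt ℂ c s)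
    (hg : AnalyticAt ℂ g (c s)) :
    HasDerivAt (fun s => g (c s)) (fderiv ℂ g (c s) (deriv c s)) s :=
  hg.differentiableAt.hasFDerivAt.comp_hasDerivAt s hc.differentiableAt.hasDerivAt

theorem fderiv_arc_zero {g : V → ℂ} {c : ℂ → V} {s : ℂ} (hc : AnalyticAt ℂ c s)
    (hg : AnalyticAt ℂ g (c s)) (h : ∀ᶠ s' in 𝓝 s, g (c s') = 0) :
    fderiv ℂ g (c s) (deriv c s) = 0 :=
  ((fderiv_arc hc hg).congr_of_eventuallyEq
    (show (fun _ => (0 : ℂ)) =ᶠ[𝓝 s] fun s => g (c s) by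
      filter_upwards [h] with s' hs'
      exact hs'.symm)).unique (hasDerivAt_const s 0)

/-- Transversality to a linear form which does not vanish on the arcs. -/
theorem arc_transversal (A : ArcSys f e h N ν ψ) (hf : AnalyticAt ℂ f 0) (he : AnalyticAt ℂ e 0)
    (hh : AnalyticAt ℂ h 0) (h0 : h 0 = 0)
    (hxi : ∀ᶠ x in 𝓝 (0 : V), f x = 0 → e x = 0 → x ≠ 0 → xi f e x ≠ 0)
    (l : V →L[ℂ] ℂ) (hl : ∀ i, ¬ ∀ᶠ s in 𝓝 (0 : ℂ), l (ψ i s) = 0) :
    ∀ᶠ p in 𝓝 (0 : V), f p = 0 → e p = 0 → p ≠ 0 → l p ≠ 0 ∧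
      ∀ w : V, l w = 0 → fderiv ℂ f p w = 0 → fderiv ℂ e p w = 0 → w = 0 := by
  refine arc_forall A hh h0 fun i => ?_
  have hla : AnalyticAt ℂ (fun s => l (ψ i s)) 0 := (l.analyticAt _).comp (A.an i)
  have hl0 : (fun s => l (ψ i s)) 0 = 0 := by
    simp [A.zero i]
  have h1 := eventually_deriv_ne hla hl0 (hl i)
  have h2 : ∀ᶠ s in 𝓝[≠] (0 : ℂ), l (ψ i s) ≠ 0 := by
    rcases eventually_eq_zero_or_ne hla with h | h
    · exact absurd h (hl i)
    · exact h
  have ht : Tendsto (ψ i) (𝓝 0) (𝓝 0) := by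
    have := (A.an i).continuousAt.tendsto
    rwa [A.zero i] at this
  have ha : ∀ᶠ s in 𝓝 (0 : ℂ), AnalyticAt ℂ (ψ i) s := (A.an i).eventually_analyticAt
  filter_upwards [h1, h2, (ht.eventually hf.eventually_analyticAt).filter_mono nhdsWithin_le_nhds,
    (ht.eventually he.eventually_analyticAt).filter_mono nhdsWithin_le_nhds,
    (ht.eventually hxi).filter_mono nhdsWithin_le_nhds,
    (eventually_eventually_nhds.2 (A.mem i)).filter_mono nhdsWithin_le_nhds,
    ha.filter_mono nhdsWithin_le_nhds] with s k1 k2 k3 k4 k5 k6 k7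
  refine ⟨k2, fun w w1 w2 w3 => ?_⟩
  have m := k6.self_of_nhds
  have hne : ψ i s ≠ 0 := by
    intro h
    rw [h, map_zero] at k2
    exact k2 rfl
  have hx := k5 m.1 m.2.1 hne
  have d1 := fderiv_arc_zero k7 k3 (by filter_upwards [k6] with s' hs'; exact hs'.1)
  have d2 := fderiv_arc_zero k7 k4 (by filter_upwards [k6] with s' hs'; exact hs'.2.1)
  obtain ⟨c, hc⟩ := kernel_line hx d1 d2
  obtain ⟨c', hc'⟩ := kernel_line hx w2 w3
  have d3 : deriv (fun s => l (ψ i s)) s = l (deriv (ψ i) s) := by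
    have h3 : HasDerivAt (fun s => l (ψ i s)) (l (deriv (ψ i) s)) s :=
      l.hasFDerivAt.comp_hasDerivAt s k7.differentiableAt.hasDerivAt
    exact h3.deriv
  rw [d3, hc, map_smul, smul_eq_mul] at k1
  have h4 : l (xi f e (ψ i s)) ≠ 0 := right_ne_zero_of_mul k1
  rw [hc', map_smul, smul_eq_mul] at w1
  rw [hc', (mul_eq_zero.1 w1).resolve_right h4, zero_smul]

theorem arc_ne_zero (A : ArcSys f e h N ν ψ) (h0 : h 0 = 0) (i : Fin ν) :
    ¬ ∀ᶠ s in 𝓝 (0 : ℂ), ψ i s = 0 := by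
  intro hz
  have h1 : ∀ᶠ s in 𝓝[≠] (0 : ℂ), False := by
    filter_upwards [hz.filter_mono nhdsWithin_le_nhds,
      (A.mem i).filter_mono nhdsWithin_le_nhds, self_mem_nhdsWithin] with s k1 k2 k3
    have k4 := k2.2.2
    rw [k1, h0] at k4
    exact pow_ne_zero N k3 k4.symm
  exact h1.exists.elim fun _ h => h

/-- existence of a linear form which does not vanish on the arcs -/
theorem exists_linear_form (A : ArcSys f e h N ν ψ) (h0 : h 0 = 0) :
    ∃ l : V →L[ℂ] ℂ, (∃ v, l v ≠ 0) ∧ ∀ i, ¬ ∀ᶠ s in 𝓝 (0 : ℂ), l (ψ i s) = 0 := by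
  classical
  set δ : Option (Fin ν) → Fin 3 → O ℂ := fun o => match o with
    | none => fun _ => 1
    | some i => fun k => mk (fun s => ψ i s k) (ana_comp (A.an i) k) with hδ
  obtain ⟨c, hc⟩ := exists_form δ (by
    rintro (_ | i)
    · intro h
      exact one_ne_zero (congrFun h 0)
    · intro hz
      have h2 : ∀ k, ∀ᶠ s in 𝓝 (0 : ℂ), ψ i s k = 0 := by
        intro k
        have h3 := congrFun hz k
        exact (mk_eq_zero_iff _).1 h3
      apply arc_ne_zero A h0 i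
      filter_upwards [eventually_all.2 h2] with s hs
      exact funext hs)
  refine ⟨∑ k, c k • ContinuousLinearMap.proj (R := ℂ) (φ := fun _ : Fin 3 => ℂ) k, ?_, ?_⟩
  · refine ⟨fun _ => 1, fun h => hc none ?_⟩
    simp only [_root_.sum_apply, _root_.smul_apply, ContinuousLinearMap.proj_apply, smul_eq_mul,
      mul_one] at h
    simp only [hδ]
    rw [← Finset.sum_smul, h, zero_smul]
  · intro i hz
    apply hc (some i)
    simp only [hδ, smul_mk]
    rw [mk_sum, mk_eq_zero_iff]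
    filter_upwards [hz] with s hs
    simpa using hs

end Vale.Agent.P298.H941
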